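import Vale.Agent.Lib.P126U.Defs

open scoped BigOperators Pointwise

namespace Vale.Agent.Lib.P126G

open Vale.Agent.Lib.P126U (polar covNum)

variable {n : ℕ}

/-- The standard pairing. -/
def pr (a b : Fin n → ℝ) : ℝ := ∑ i, a i * b i

lemma pr_comm (a b : Fin n → ℝ) : pr a b = pr b a :=
  Finset.sum_congr rfl fun i _ => mul_comm _ _

lemma pr_add_left (a b c : Fin n → ℝ) : pr (a + b) c = pr a c + pr b c := by
  simp only [pr, Pi.add_apply, add_mul, Finset.sum_add_distrib]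

lemma pr_sub_left (a b c : Fin n → ℝ) : pr (a - b) c = pr a c - pr b c := by
  simp only [pr, Pi.sub_apply, sub_mul, Finset.sum_sub_distrib]

lemma pr_smul_left (r : ℝ) (a c : Fin n → ℝ) : pr (r • a) c = r * pr a c := by
  simp only [pr, Pi.smul_apply, smul_eq_mul, Finset.mul_sum, mul_assoc]

lemma pr_neg_left (a c : Fin n → ℝ) : pr (-a) c = - pr a c := by
  simp only [pr, Pi.neg_apply, neg_mul, Finset.sum_neg_distrib]

lemma pr_add_right (a b c : Fin n → ℝ) : pr a (b + c) = pr a b + pr a c := by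
  rw [pr_comm, pr_add_left, pr_comm b, pr_comm c]

lemma pr_sub_right (a b c : Fin n → ℝ) : pr a (b - c) = pr a b - pr a c := by
  rw [pr_comm, pr_sub_left, pr_comm b, pr_comm c]

lemma pr_smul_right (r : ℝ) (a c : Fin n → ℝ) : pr a (r • c) = r * pr a c := by
  rw [pr_comm, pr_smul_left, pr_comm c]

lemma pr_neg_right (a c : Fin n → ℝ) : pr a (-c) = - pr a c := by
  rw [pr_comm, pr_neg_left, pr_comm c]

lemma pr_zero_left (c : Fin n → ℝ) : pr (0 : Fin n → ℝ) c = 0 := by simp [pr]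

lemma pr_zero_right (a : Fin n → ℝ) : pr a (0 : Fin n → ℝ) = 0 := by simp [pr]

lemma continuous_pr_left (c : Fin n → ℝ) : Continuous fun a : Fin n → ℝ => pr a c := by
  unfold pr; fun_prop

lemma continuous_pr_right (a : Fin n → ℝ) : Continuous fun c : Fin n → ℝ => pr a c := by
  unfold pr; fun_prop

/-- An origin-symmetric convex body. -/
structure SymBody (K : Set (Fin n → ℝ)) : Prop where
  convex : Convex ℝ K
  compact : IsCompact K
  interior_nonempty : (interior K).Nonempty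
  symm : ∀ x ∈ K, -x ∈ K

/-- `x` is represented within `ρ` against all tests in `P` by a density `f` with respect to the
weights `ν` on `S`, with `|log f| ≤ Δ`. -/
def Rep (P : Set (Fin n → ℝ)) (S : Finset (Fin n → ℝ)) (ν : (Fin n → ℝ) → ℝ) (Δ ρ : ℝ)
    (x : Fin n → ℝ) : Prop :=
  ∃ f : (Fin n → ℝ) → ℝ, (∀ y ∈ S, Real.exp (-Δ) ≤ f y ∧ f y ≤ Real.exp Δ) ∧
    ∑ y ∈ S, ν y * f y = 1 ∧
    ∀ z ∈ P, |pr z x - ∑ y ∈ S, ν y * f y * pr z y| ≤ ρ

/-- `Z` is a subset of `P` and a `T`-net of `P` for the seminorm given by `K`. -/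
structure Net (P K : Set (Fin n → ℝ)) (Z : Finset (Fin n → ℝ)) (T : ℝ) : Prop where
  sub : ∀ c ∈ Z, c ∈ P
  net : ∀ z ∈ P, ∃ c ∈ Z, ∀ y ∈ K, |pr (z - c) y| ≤ T

/-- The partition sum `∑ ν(y) exp(β ⟨z,y⟩)`. -/
noncomputable def gW (S : Finset (Fin n → ℝ)) (ν : (Fin n → ℝ) → ℝ) (β : ℝ) (z : Fin n → ℝ) : ℝ :=
  ∑ y ∈ S, ν y * Real.exp (β * pr z y)

/-- The Gibbs density with respect to `ν`. -/
noncomputable def gF (S : Finset (Fin n → ℝ)) (ν : (Fin n → ℝ) → ℝ) (β : ℝ) (z y : Fin n → ℝ) : ℝ :=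
  Real.exp (β * pr z y) / gW S ν β z

/-- The recentred partition sum `∑ ν(y) exp(β ⟨z,y-x⟩)`. -/
noncomputable def gG (S : Finset (Fin n → ℝ)) (ν : (Fin n → ℝ) → ℝ) (β : ℝ) (x z : Fin n → ℝ) : ℝ :=
  ∑ y ∈ S, ν y * Real.exp (β * (pr z y - pr z x))

/-- `2^{1-j} K ∩ 4 L`. -/
def KJ (K L : Set (Fin n → ℝ)) (j : ℕ) : Set (Fin n → ℝ) :=
  ((2 : ℝ) * ((2 : ℝ) ^ j)⁻¹) • K ∩ (4 : ℝ) • L

/-- `T 2^{j-2} K° + (T/8) L°`. -/
def UJ (K L : Set (Fin n → ℝ)) (T : ℝ) (j : ℕ) : Set (Fin n → ℝ) :=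
  (T * (2 : ℝ) ^ j / 4) • polar K + (T / 8) • polar L

end Vale.Agent.Lib.P126G
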