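import Vale.Agent.Lib.P126G.Basic

open scoped BigOperators Pointwise Topology

namespace Vale.Agent.Lib.P126G

open Vale.Agent.Lib.P126U (polar covNum)

variable {n : ℕ} {K L : Set (Fin n → ℝ)}

lemma SymBody.zero_mem (hK : SymBody K) : (0 : Fin n → ℝ) ∈ K := by
  obtain ⟨p, hp⟩ := hK.interior_nonempty
  have hpK : p ∈ K := interior_subset hp
  have h := hK.convex hpK (hK.symm p hpK) (a := 1 / 2) (b := 1 / 2) (by norm_num) (by norm_num)
    (by norm_num)
  have h0 : (1 / 2 : ℝ) • p + (1 / 2 : ℝ) • (-p) = 0 := by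
    rw [smul_neg]; abel
  rwa [h0] at h

lemma SymBody.mem_nhds_zero (hK : SymBody K) : K ∈ 𝓝 (0 : Fin n → ℝ) := by
  obtain ⟨p, hp⟩ := hK.interior_nonempty
  obtain ⟨ε, hε, hball⟩ := Metric.mem_nhds_iff.mp (mem_interior_iff_mem_nhds.mp hp)
  have hpK : p ∈ K := interior_subset hp
  refine Metric.mem_nhds_iff.mpr ⟨ε / 2, by positivity, fun x hx => ?_⟩
  have hxn : ‖x‖ < ε / 2 := by simpa [dist_eq_norm] using hx
  have h1 : p + (2 : ℝ) • x ∈ K := by
    apply hball
    have : ‖(2 : ℝ) • x‖ < ε := by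
      rw [norm_smul]; simp only [Real.norm_ofNat]; linarith
    simpa [dist_eq_norm] using this
  have h := hK.convex h1 (hK.symm p hpK) (a := 1 / 2) (b := 1 / 2) (by norm_num) (by norm_num)
    (by norm_num)
  have h0 : (1 / 2 : ℝ) • (p + (2 : ℝ) • x) + (1 / 2 : ℝ) • (-p) = x := by
    rw [smul_add, smul_smul, smul_neg]
    norm_num
  rwa [h0] at h

/-- The pairing in the form used by `polar`. -/
lemma mem_polar_iff {A : Set (Fin n → ℝ)} {z : Fin n → ℝ} :
    z ∈ polar A ↔ ∀ x ∈ A, pr z x ≤ 1 := by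
  constructor
  · intro h x hx
    rw [pr_comm]
    exact h x hx
  · intro h x hx
    have := h x hx
    rwa [pr_comm] at this

/-- Separation: a point outside a symmetric body is detected by its polar. -/
theorem SymBody.exists_polar_gt (hL : SymBody L) {x : Fin n → ℝ} (hx : x ∉ L) :
    ∃ z ∈ polar L, 1 < pr z x := by
  obtain ⟨f, u, h1, h2⟩ := geometric_hahn_banach_closed_point hL.convex hL.compact.isClosed hx
  have hu : 0 < u := by
    have := h1 0 hL.zero_mem
    simpa using this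
  -- the coordinates of `f`
  set w : Fin n → ℝ := fun i => f (fun j => if i = j then 1 else 0) with hw
  have hf : ∀ y : Fin n → ℝ, f y = pr w y := by
    intro y
    have := LinearMap.pi_apply_eq_sum_univ (f : (Fin n → ℝ) →ₗ[ℝ] ℝ) y
    simp only [ContinuousLinearMap.coe_coe, smul_eq_mul] at this
    rw [this]
    simp only [pr, hw]
    exact Finset.sum_congr rfl fun i _ => mul_comm _ _
  refine ⟨u⁻¹ • w, ?_, ?_⟩
  · rw [mem_polar_iff]
    intro y hy
    rw [pr_smul_left, ← hf]
    have := h1 y hy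
    rw [inv_mul_le_iff₀ hu, mul_one]
    exact this.le
  · rw [pr_smul_left, ← hf, lt_inv_mul_iff₀ hu, mul_one]
    exact h2

lemma isClosed_polar (A : Set (Fin n → ℝ)) : IsClosed (polar A) := by
  have h : polar A = ⋂ x ∈ A, {y : Fin n → ℝ | ∑ i, x i * y i ≤ 1} := by
    ext y
    simp [polar]
  rw [h]
  exact isClosed_biInter fun x _ => isClosed_le (by fun_prop) continuous_const

lemma convex_polar (A : Set (Fin n → ℝ)) : Convex ℝ (polar A) := by
  intro y hy y' hy' a b ha hb hab x hx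
  have h1 := hy x hx
  have h2 := hy' x hx
  have h : ∑ i, x i * (a • y + b • y') i = a * ∑ i, x i * y i + b * ∑ i, x i * y' i := by
    rw [Finset.mul_sum, Finset.mul_sum, ← Finset.sum_add_distrib]
    refine Finset.sum_congr rfl fun i _ => ?_
    simp only [Pi.add_apply, Pi.smul_apply, smul_eq_mul]
    ring
  rw [h]
  have h3 := mul_le_mul_of_nonneg_left h1 ha
  have h4 := mul_le_mul_of_nonneg_left h2 hb
  linarith

lemma zero_mem_polar (A : Set (Fin n → ℝ)) : (0 : Fin n → ℝ) ∈ polar A := by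
  intro x _
  simp

/-- Points of the polar are bounded when the body contains a box. -/
lemma abs_le_of_mem_polar {δ : ℝ} (hδ : 0 < δ) (hbox : ∀ x : Fin n → ℝ, (∀ i, |x i| ≤ δ) → x ∈ K)
    {y : Fin n → ℝ} (hy : y ∈ polar K) (i : Fin n) : |y i| ≤ 1 / δ := by
  set x : Fin n → ℝ := fun j => if j = i then (if 0 ≤ y i then δ else -δ) else 0 with hx
  have hxK : x ∈ K := by
    apply hbox
    intro j
    simp only [hx]
    split_ifs
    · rw [abs_of_pos hδ]
    · rw [abs_neg, abs_of_pos hδ]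
    · simpa using hδ.le
  have h := hy x hxK
  have h2 : ∑ j, x j * y j = δ * |y i| := by
    rw [Finset.sum_eq_single i]
    · simp only [hx, if_true]
      split_ifs with h0
      · rw [abs_of_nonneg h0]
      · rw [abs_of_neg (not_le.mp h0)]
        ring
    · intro j _ hj
      simp [hx, hj]
    · intro hi
      exact absurd (Finset.mem_univ i) hi
  rw [h2] at h
  rw [le_div_iff₀ hδ]
  linarith

/-- A bounded set has a polar containing a box. -/
lemma box_mem_polar {R : ℝ} (hR0 : 0 < R) (hR : ∀ x ∈ K, ∀ i, |x i| ≤ R) {y : Fin n → ℝ}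
    (hy : ∀ i, |y i| ≤ 1 / ((n + 1) * R)) : y ∈ polar K := by
  intro x hx
  have hn : (0 : ℝ) < (n + 1) * R := by positivity
  calc ∑ i, x i * y i ≤ ∑ i : Fin n, (R * (1 / ((n + 1) * R))) := by
        refine Finset.sum_le_sum fun i _ => ?_
        calc x i * y i ≤ |x i * y i| := le_abs_self _
          _ = |x i| * |y i| := abs_mul _ _
          _ ≤ _ := mul_le_mul (hR x hx i) (hy i) (abs_nonneg _) hR0.le
    _ = (n : ℝ) * (R * (1 / ((n + 1) * R))) := by simp
    _ ≤ 1 := by
        have : (n : ℝ) * (R * (1 / ((n + 1) * R))) = n / (n + 1) := by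
          field_simp
        rw [this, div_le_one (by positivity)]
        linarith

/-- The polar of a symmetric body is a symmetric body. -/
theorem SymBody.polar_body (hK : SymBody K) : SymBody (polar K) := by
  obtain ⟨ε, hε, hball⟩ := Metric.mem_nhds_iff.mp hK.mem_nhds_zero
  have hbox : ∀ x : Fin n → ℝ, (∀ i, |x i| ≤ ε / 2) → x ∈ K := by
    intro x hx
    apply hball
    have : ‖x‖ ≤ ε / 2 := (pi_norm_le_iff_of_nonneg (by positivity)).mpr hx
    have h2 : ‖x‖ < ε := by linarith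
    simpa [dist_eq_norm] using h2
  obtain ⟨R₀, hR₀⟩ := hK.compact.isBounded.exists_norm_le
  have hR0 : (0 : ℝ) < max R₀ 1 := by positivity
  have hR : ∀ x ∈ K, ∀ i, |x i| ≤ max R₀ 1 := fun x hx i =>
    ((norm_le_pi_norm x i).trans (hR₀ x hx)).trans (le_max_left _ _)
  refine ⟨convex_polar K, ?_, ?_, ?_⟩
  · refine Metric.isCompact_of_isClosed_isBounded (isClosed_polar K) ?_
    refine isBounded_iff_forall_norm_le.mpr ⟨1 / (ε / 2), fun y hy => ?_⟩
    exact (pi_norm_le_iff_of_nonneg (by positivity)).mpr fun i =>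
      abs_le_of_mem_polar (by positivity) hbox hy i
  · refine ⟨0, mem_interior_iff_mem_nhds.mpr ?_⟩
    have hr : (0 : ℝ) < 1 / ((n + 1) * max R₀ 1) := by positivity
    refine Filter.mem_of_superset (Metric.closedBall_mem_nhds (0 : Fin n → ℝ) hr) fun y hy => ?_
    apply box_mem_polar hR0 hR
    intro i
    have h1 : ‖y‖ ≤ 1 / ((n + 1) * max R₀ 1) := by simpa using hy
    exact (norm_le_pi_norm y i).trans h1
  · intro y hy x hx
    have h := hy (-x) (hK.symm x hx)
    refine le_trans (le_of_eq ?_) h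
    refine Finset.sum_congr rfl fun i _ => ?_
    simp

/-- Bipolar theorem for symmetric bodies. -/
theorem SymBody.polar_polar (hK : SymBody K) : polar (polar K) = K := by
  ext x
  constructor
  · intro hx
    by_contra hxK
    obtain ⟨z, hz, hzx⟩ := hK.exists_polar_gt hxK
    have := hx z hz
    rw [pr] at hzx
    linarith
  · intro hx y hy
    have := hy x hx
    refine le_trans (le_of_eq ?_) this
    exact Finset.sum_congr rfl fun i _ => mul_comm _ _

lemma SymBody.smul (hK : SymBody K) {r : ℝ} (hr : 0 < r) : SymBody (r • K) := by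
  refine ⟨hK.convex.smul r, hK.compact.smul r, ?_, ?_⟩
  · rw [interior_smul₀ hr.ne']
    exact hK.interior_nonempty.smul_set
  · rintro _ ⟨x, hx, rfl⟩
    exact ⟨-x, hK.symm x hx, by simp⟩

lemma polar_smul {r : ℝ} (hr : 0 < r) (A : Set (Fin n → ℝ)) : polar (r • A) = r⁻¹ • polar A := by
  ext y
  rw [Set.mem_smul_set_iff_inv_smul_mem₀ (inv_ne_zero hr.ne'), inv_inv]
  constructor
  · intro h x hx
    have := h (r • x) ⟨x, hx, rfl⟩
    refine le_trans (le_of_eq ?_) this
    refine Finset.sum_congr rfl fun i _ => ?_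
    simp only [Pi.smul_apply, smul_eq_mul]
    ring
  · rintro h _ ⟨x, hx, rfl⟩
    have := h x hx
    refine le_trans (le_of_eq ?_) this
    refine Finset.sum_congr rfl fun i _ => ?_
    simp only [Pi.smul_apply, smul_eq_mul]
    ring

/-- A finite cover bounds the covering number. -/
lemma covNum_le_card {A B : Set (Fin n → ℝ)} (t : Finset (Fin n → ℝ))
    (ht : ∀ a ∈ A, ∃ c ∈ t, a - c ∈ B) : covNum A B ≤ t.card :=
  Nat.sInf_le ⟨t, rfl, ht⟩

lemma covNum_smul {r : ℝ} (hr : r ≠ 0) (A B : Set (Fin n → ℝ)) :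
    covNum (r • A) (r • B) = covNum A B := by
  classical
  have key : ∀ (r : ℝ) (hr : r ≠ 0) (A B : Set (Fin n → ℝ)),
      covNum (r • A) (r • B) ≤ covNum A B := by
    intro r hr A B
    -- any cover of `A` gives a cover of `r • A`
    by_cases hne : {k | ∃ t : Finset (Fin n → ℝ), t.card = k ∧ ∀ a ∈ A, ∃ c ∈ t, a - c ∈ B}.Nonempty
    · obtain ⟨t, ht, hcov⟩ : covNum A B ∈
          {k | ∃ t : Finset (Fin n → ℝ), t.card = k ∧ ∀ a ∈ A, ∃ c ∈ t, a - c ∈ B} :=
        Nat.sInf_mem hne
      rw [← ht]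
      refine (covNum_le_card (t.image fun c => r • c) ?_).trans Finset.card_image_le
      rintro _ ⟨a, ha, rfl⟩
      obtain ⟨c, hc, hac⟩ := hcov a ha
      refine ⟨r • c, Finset.mem_image_of_mem _ hc, a - c, hac, ?_⟩
      simp [smul_sub]
    · -- no finite cover of `A`: then there is no finite cover of `r • A` either
      have hne' : ¬ {k | ∃ t : Finset (Fin n → ℝ), t.card = k ∧
          ∀ a ∈ r • A, ∃ c ∈ t, a - c ∈ r • B}.Nonempty := by
        rintro ⟨k, t, -, hcov⟩
        refine hne ⟨_, t.image (fun c => r⁻¹ • c), rfl, fun a ha => ?_⟩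
        obtain ⟨c, hc, b, hb, hbe⟩ := hcov (r • a) ⟨a, ha, rfl⟩
        refine ⟨r⁻¹ • c, Finset.mem_image_of_mem _ hc, ?_⟩
        have : a - r⁻¹ • c = b := by
          have h2 : r⁻¹ • (r • b) = r⁻¹ • (r • a - c) := by
            rw [show r • b = r • a - c from hbe]
          rw [smul_smul, inv_mul_cancel₀ hr, one_smul, smul_sub, smul_smul, inv_mul_cancel₀ hr,
            one_smul] at h2
          exact h2.symm
        rw [this]
        exact hb
      have h1 : covNum (r • A) (r • B) = 0 := by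
        unfold covNum
        rw [Nat.sInf_eq_zero]
        right
        exact Set.not_nonempty_iff_eq_empty.mp hne'
      omega
  apply le_antisymm (key r hr A B)
  have := key r⁻¹ (inv_ne_zero hr) (r • A) (r • B)
  rwa [smul_smul, smul_smul, inv_mul_cancel₀ hr, one_smul, one_smul] at this

/-- Finite covers exist. -/
lemma exists_cover {A B : Set (Fin n → ℝ)} (hA : IsCompact A) (hB : B ∈ 𝓝 (0 : Fin n → ℝ)) :
    ∃ t : Finset (Fin n → ℝ), ∀ a ∈ A, ∃ c ∈ t, a - c ∈ B := by
  have hnhds : ∀ c ∈ A, (fun a => a - c) ⁻¹' B ∈ 𝓝 c := by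
    intro c _
    have hcont : ContinuousAt (fun a : Fin n → ℝ => a - c) c := by fun_prop
    apply hcont.preimage_mem_nhds
    simpa using hB
  obtain ⟨t, _, hcov⟩ := hA.elim_nhds_subcover (fun c => (fun a => a - c) ⁻¹' B) hnhds
  refine ⟨t, fun a ha => ?_⟩
  obtain ⟨c, hc, hac⟩ := Set.mem_iUnion₂.mp (hcov ha)
  exact ⟨c, hc, hac⟩

/-- The minimum defining the covering number is attained. -/
lemma covNum_spec {A B : Set (Fin n → ℝ)} (hA : IsCompact A) (hB : B ∈ 𝓝 (0 : Fin n → ℝ)) :
    ∃ t : Finset (Fin n → ℝ), t.card = covNum A B ∧ ∀ a ∈ A, ∃ c ∈ t, a - c ∈ B := by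
  obtain ⟨t, ht⟩ := exists_cover hA hB
  exact Nat.sInf_mem (s := {k | ∃ t : Finset (Fin n → ℝ), t.card = k ∧
    ∀ a ∈ A, ∃ c ∈ t, a - c ∈ B}) ⟨_, t, rfl, ht⟩

/-- Monotonicity of the covering number in the covering set. -/
lemma covNum_mono_right {A B B' : Set (Fin n → ℝ)} (hA : IsCompact A) (hB : B ∈ 𝓝 (0 : Fin n → ℝ))
    (hBB' : B ⊆ B') : covNum A B' ≤ covNum A B := by
  obtain ⟨t, ht, hcov⟩ := covNum_spec hA hB
  rw [← ht]
  refine covNum_le_card t fun a ha => ?_
  obtain ⟨c, hc, hac⟩ := hcov a ha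
  exact ⟨c, hc, hBB' hac⟩

end Vale.Agent.Lib.P126G
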