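import Vale.Agent.Lib.P126G.Body

open scoped BigOperators Pointwise Topology

namespace Vale.Agent.Lib.P126G

open Vale.Agent.Lib.P126U (polar covNum)

variable {n : ℕ} {K L : Set (Fin n → ℝ)}

lemma KJ_isCompact (hK : SymBody K) (hL : SymBody L) (j : ℕ) : IsCompact (KJ K L j) :=
  (hK.compact.smul _).inter_right (hL.compact.smul _).isClosed

lemma zero_mem_KJ (hK : SymBody K) (hL : SymBody L) (j : ℕ) : (0 : Fin n → ℝ) ∈ KJ K L j :=
  ⟨⟨0, hK.zero_mem, by simp⟩, ⟨0, hL.zero_mem, by simp⟩⟩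

/-- The covering number of a nonempty set is positive. -/
lemma covNum_pos {A B : Set (Fin n → ℝ)} (hA : IsCompact A) (hne : A.Nonempty)
    (hB : B ∈ 𝓝 (0 : Fin n → ℝ)) : 0 < covNum A B := by
  obtain ⟨t, ht, hcov⟩ := covNum_spec hA hB
  obtain ⟨a, ha⟩ := hne
  obtain ⟨c, hc, -⟩ := hcov a ha
  rw [← ht]
  exact Finset.card_pos.mpr ⟨c, hc⟩

/-- (M6) One scale: `N(K, 2^j L) ≤ N(K, 2^{j+1} L) N(2^{1-j} K ∩ 4 L, L)`. -/
theorem cov_step (hK : SymBody K) (hL : SymBody L) (j : ℕ) :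
    covNum K ((2 : ℝ) ^ j • L) ≤ covNum K ((2 : ℝ) ^ (j + 1) • L) * covNum (KJ K L j) L := by
  classical
  have hpos : (0 : ℝ) < 2 ^ j := by positivity
  have hpos' : (0 : ℝ) < 2 ^ (j + 1) := by positivity
  obtain ⟨t, ht, hcov⟩ := covNum_spec hK.compact
    (B := (2 : ℝ) ^ (j + 1) • L) ((hL.smul hpos').mem_nhds_zero)
  obtain ⟨s, hs, hcov'⟩ := covNum_spec (KJ_isCompact hK hL j) hL.mem_nhds_zero
  -- a representative of each cell
  let u : (Fin n → ℝ) → (Fin n → ℝ) := fun c =>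
    if h : ∃ x ∈ K, x - c ∈ (2 : ℝ) ^ (j + 1) • L then h.choose else 0
  have hu : ∀ x ∈ K, ∀ c, x - c ∈ (2 : ℝ) ^ (j + 1) • L →
      u c ∈ K ∧ u c - c ∈ (2 : ℝ) ^ (j + 1) • L := by
    intro x hx c hxc
    have h : ∃ x ∈ K, x - c ∈ (2 : ℝ) ^ (j + 1) • L := ⟨x, hx, hxc⟩
    simp only [u, dif_pos h]
    exact h.choose_spec
  rw [← ht, ← hs, ← Finset.card_product]
  refine (covNum_le_card ((t ×ˢ s).image fun p => u p.1 + (2 : ℝ) ^ j • p.2) ?_).trans
    Finset.card_image_le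
  intro x hx
  obtain ⟨c, hc, hxc⟩ := hcov x hx
  obtain ⟨huK, huc⟩ := hu x hx c hxc
  -- the difference lies in `2^j KJ`
  set v := (((2 : ℝ) ^ j)⁻¹ • (x - u c)) with hv
  have hvK : v ∈ KJ K L j := by
    constructor
    · -- `x - u c ∈ 2 K`
      have hmid : (1 / 2 : ℝ) • x + (1 / 2 : ℝ) • (-u c) ∈ K :=
        hK.convex hx (hK.symm _ huK) (by norm_num) (by norm_num) (by norm_num)
      refine ⟨_, hmid, ?_⟩
      rw [hv]
      ext i
      simp only [Pi.smul_apply, Pi.add_apply, Pi.neg_apply, Pi.sub_apply, smul_eq_mul]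
      field_simp
      ring
    · -- `x - u c ∈ 2^{j+2} L`
      obtain ⟨l₁, hl₁, he₁⟩ := hxc
      obtain ⟨l₂, hl₂, he₂⟩ := huc
      have hmid : (1 / 2 : ℝ) • l₁ + (1 / 2 : ℝ) • (-l₂) ∈ L :=
        hL.convex hl₁ (hL.symm _ hl₂) (by norm_num) (by norm_num) (by norm_num)
      refine ⟨_, hmid, ?_⟩
      have hxu : x - u c = (2 : ℝ) ^ (j + 1) • l₁ - (2 : ℝ) ^ (j + 1) • l₂ := by
        have he₁' : (2 : ℝ) ^ (j + 1) • l₁ = x - c := he₁
        have he₂' : (2 : ℝ) ^ (j + 1) • l₂ = u c - c := he₂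
        rw [he₁', he₂']; abel
      rw [hv, hxu]
      ext i
      simp only [Pi.smul_apply, Pi.add_apply, Pi.neg_apply, Pi.sub_apply, smul_eq_mul, pow_succ]
      field_simp
      ring
  obtain ⟨c', hc', hvc'⟩ := hcov' v hvK
  refine ⟨u c + (2 : ℝ) ^ j • c', Finset.mem_image.mpr ⟨(c, c'), Finset.mem_product.mpr ⟨hc, hc'⟩,
    rfl⟩, (v - c'), hvc', ?_⟩
  simp only []
  rw [smul_sub, hv, smul_smul, mul_inv_cancel₀ hpos.ne', one_smul]
  abel

/-- (M6) All scales: there is `J` such that `K` is not in `2^j L` for `j < J`, and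
`log N(K,L) ≤ ∑_{j<J} log N(KJ j, L)`. -/
theorem log_cov_le_sum (hK : SymBody K) (hL : SymBody L) :
    ∃ J : ℕ, (∀ j < J, ¬ K ⊆ (2 : ℝ) ^ j • L) ∧
      Real.log (covNum K L) ≤ ∑ j ∈ Finset.range J, Real.log (covNum (KJ K L j) L) := by
  classical
  -- `K` is contained in a large multiple of `L`
  have hex : ∃ j : ℕ, K ⊆ (2 : ℝ) ^ j • L := by
    obtain ⟨R, hR⟩ := hK.compact.isBounded.exists_norm_le
    obtain ⟨ε, hε, hball⟩ := Metric.mem_nhds_iff.mp hL.mem_nhds_zero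
    obtain ⟨j, hj⟩ := pow_unbounded_of_one_lt (R * (2 / ε)) (one_lt_two)
    refine ⟨j, fun x hx => ?_⟩
    have hpos : (0 : ℝ) < 2 ^ j := by positivity
    refine ⟨((2 : ℝ) ^ j)⁻¹ • x, hball ?_, by simp [smul_smul, hpos.ne']⟩
    rw [Metric.mem_ball, dist_eq_norm, sub_zero, norm_smul, norm_inv, Real.norm_of_nonneg hpos.le,
      inv_mul_lt_iff₀ hpos]
    have h1 : ‖x‖ ≤ R := hR x hx
    have h2 : R * (2 / ε) * (ε / 2) = R := by field_simp
    nlinarith [mul_lt_mul_of_pos_right hj (half_pos hε)]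
  refine ⟨Nat.find hex, fun j hj => Nat.find_min hex hj, ?_⟩
  set J := Nat.find hex with hJ
  have hJspec : K ⊆ (2 : ℝ) ^ J • L := Nat.find_spec hex
  have hKne : K.Nonempty := ⟨0, hK.zero_mem⟩
  have hnb : ∀ j : ℕ, ((2 : ℝ) ^ j • L) ∈ 𝓝 (0 : Fin n → ℝ) := fun j =>
    (hL.smul (by positivity)).mem_nhds_zero
  have hpos : ∀ j, 0 < covNum (KJ K L j) L := fun j =>
    covNum_pos (KJ_isCompact hK hL j) ⟨0, zero_mem_KJ hK hL j⟩ hL.mem_nhds_zero
  -- telescoping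
  have htele : ∀ i : ℕ, covNum K L ≤
      covNum K ((2 : ℝ) ^ i • L) * ∏ j ∈ Finset.range i, covNum (KJ K L j) L := by
    intro i
    induction i with
    | zero => simp
    | succ i ih =>
      rw [Finset.prod_range_succ]
      calc covNum K L ≤ covNum K ((2 : ℝ) ^ i • L) * ∏ j ∈ Finset.range i, covNum (KJ K L j) L := ih
        _ ≤ (covNum K ((2 : ℝ) ^ (i + 1) • L) * covNum (KJ K L i) L) *
              ∏ j ∈ Finset.range i, covNum (KJ K L j) L :=
            Nat.mul_le_mul_right _ (cov_step hK hL i)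
        _ = _ := by ring
  have h1 : covNum K ((2 : ℝ) ^ J • L) ≤ 1 := by
    refine (covNum_le_card {0} fun a ha => ⟨0, by simp, ?_⟩).trans (by simp)
    simpa using hJspec ha
  have h2 : covNum K L ≤ ∏ j ∈ Finset.range J, covNum (KJ K L j) L := by
    refine (htele J).trans ?_
    calc _ ≤ 1 * ∏ j ∈ Finset.range J, covNum (KJ K L j) L := Nat.mul_le_mul_right _ h1
      _ = _ := one_mul _
  have h0 : 0 < covNum K L := covNum_pos hK.compact hKne hL.mem_nhds_zero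
  have h3 : (covNum K L : ℝ) ≤ ∏ j ∈ Finset.range J, (covNum (KJ K L j) L : ℝ) := by
    exact_mod_cast h2
  calc Real.log (covNum K L) ≤ Real.log (∏ j ∈ Finset.range J, (covNum (KJ K L j) L : ℝ)) :=
        Real.log_le_log (by exact_mod_cast h0) h3
    _ = _ := Real.log_prod (fun j _ => by
        have := hpos j
        positivity)

end Vale.Agent.Lib.P126G
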