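import Vale.Agent.Lib.P126G.Basic

open scoped BigOperators Pointwise

namespace Vale.Agent.Lib.P126G

variable {n : ℕ} {P : Set (Fin n → ℝ)} {Z : Finset (Fin n → ℝ)}
  {S : Finset (Fin n → ℝ)} {ν : (Fin n → ℝ) → ℝ}

section Sampling

variable {ι : Type} [Fintype ι] [DecidableEq ι]

/-- Product weight of a sample sequence. -/
noncomputable def sampW {k : ℕ} (w : ι → ℝ) (Y : Fin k → ι) : ℝ := ∏ i, w (Y i)

omit [Fintype ι] [DecidableEq ι] in
lemma sampW_nonneg {k : ℕ} {w : ι → ℝ} (hw : ∀ y, 0 ≤ w y) (Y : Fin k → ι) : 0 ≤ sampW w Y :=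
  Finset.prod_nonneg fun _ _ => hw _

lemma sum_sampW_mul_prod {k : ℕ} (w g : ι → ℝ) :
    ∑ Y : Fin k → ι, sampW w Y * ∏ i, g (Y i) = (∑ y, w y * g y) ^ k := by
  have h := Finset.prod_univ_sum (fun _ : Fin k => (Finset.univ : Finset ι))
    (fun _ y => w y * g y)
  rw [Fintype.piFinset_univ] at h
  simp only [Finset.prod_const, Finset.card_univ, Fintype.card_fin] at h
  rw [h]
  refine Finset.sum_congr rfl fun Y _ => ?_
  simp only [sampW, Finset.prod_mul_distrib]

lemma sum_sampW {k : ℕ} {w : ι → ℝ} (hw1 : ∑ y, w y = 1) :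
    ∑ Y : Fin k → ι, sampW w Y = 1 := by
  have h := sum_sampW_mul_prod (k := k) w (fun _ => (1 : ℝ))
  simpa [hw1] using h

open Classical in
/-- The Chernoff bound, in the form of a finite sum over sample sequences. -/
lemma tail_bound {k : ℕ} {w g : ι → ℝ} (hw : ∀ y, 0 ≤ w y) (hw1 : ∑ y, w y = 1)
    (hg : ∀ y, |g y| ≤ 15) (hg0 : ∑ y, w y * g y = 0) :
    ∑ Y : Fin k → ι, sampW w Y * (if (k : ℝ) / 8 < ∑ i, g (Y i) then (1 : ℝ) else 0) ≤
      Real.exp (-(k : ℝ) / 57600) := by
  set l : ℝ := 1 / 3600 with hl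
  have hl0 : 0 < l := by rw [hl]; norm_num
  have hbase : ∑ y, w y * Real.exp (l * g y) ≤ Real.exp (225 * l ^ 2) := by
    have h1 : ∀ y, w y * Real.exp (l * g y) ≤ w y * (1 + l * g y + 225 * l ^ 2) := by
      intro y
      refine mul_le_mul_of_nonneg_left ?_ (hw y)
      have habs : |l * g y| ≤ 1 := by
        rw [abs_mul, abs_of_pos hl0]
        have := hg y
        have h3 : l * |g y| ≤ l * 15 := mul_le_mul_of_nonneg_left this hl0.le
        have h4 : l * 15 ≤ 1 := by rw [hl]; norm_num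
        linarith
      have h2 := Real.abs_exp_sub_one_sub_id_le habs
      have h5 := (abs_le.mp h2).2
      have h6 : (l * g y) ^ 2 ≤ 225 * l ^ 2 := by
        have h7 : g y ^ 2 ≤ 225 := by
          have := hg y
          have h8 := abs_le.mp this
          nlinarith [h8.1, h8.2]
        have : (l * g y) ^ 2 = l ^ 2 * g y ^ 2 := by ring
        rw [this]
        have hl2 : 0 ≤ l ^ 2 := by positivity
        nlinarith
      linarith
    calc ∑ y, w y * Real.exp (l * g y) ≤ ∑ y, w y * (1 + l * g y + 225 * l ^ 2) :=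
          Finset.sum_le_sum fun y _ => h1 y
      _ = (∑ y, w y) * (1 + 225 * l ^ 2) + l * ∑ y, w y * g y := by
          rw [Finset.sum_mul, Finset.mul_sum, ← Finset.sum_add_distrib]
          refine Finset.sum_congr rfl fun y _ => ?_
          ring
      _ = 1 + 225 * l ^ 2 := by rw [hw1, hg0]; ring
      _ ≤ Real.exp (225 * l ^ 2) := by
          have := Real.add_one_le_exp (225 * l ^ 2)
          linarith
  have hbase0 : 0 ≤ ∑ y, w y * Real.exp (l * g y) :=
    Finset.sum_nonneg fun y _ => mul_nonneg (hw y) (Real.exp_pos _).le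
  have hpoint : ∀ Y : Fin k → ι,
      sampW w Y * (if (k : ℝ) / 8 < ∑ i, g (Y i) then (1 : ℝ) else 0) ≤
        Real.exp (-(l * ((k : ℝ) / 8))) * (sampW w Y * ∏ i, Real.exp (l * g (Y i))) := by
    intro Y
    have hW := sampW_nonneg hw Y
    have hexp : ∏ i, Real.exp (l * g (Y i)) = Real.exp (l * ∑ i, g (Y i)) := by
      rw [← Real.exp_sum, Finset.mul_sum]
    rw [hexp]
    have key : (if (k : ℝ) / 8 < ∑ i, g (Y i) then (1 : ℝ) else 0) ≤
        Real.exp (-(l * ((k : ℝ) / 8))) * Real.exp (l * ∑ i, g (Y i)) := by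
      rw [← Real.exp_add]
      split_ifs with h
      · have : 0 ≤ -(l * ((k : ℝ) / 8)) + l * ∑ i, g (Y i) := by nlinarith
        exact Real.one_le_exp this
      · exact (Real.exp_pos _).le
    calc sampW w Y * (if (k : ℝ) / 8 < ∑ i, g (Y i) then (1 : ℝ) else 0)
        ≤ sampW w Y * (Real.exp (-(l * ((k : ℝ) / 8))) * Real.exp (l * ∑ i, g (Y i))) :=
          mul_le_mul_of_nonneg_left key hW
      _ = _ := by ring
  calc ∑ Y : Fin k → ι, sampW w Y * (if (k : ℝ) / 8 < ∑ i, g (Y i) then (1 : ℝ) else 0)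
      ≤ ∑ Y : Fin k → ι,
          Real.exp (-(l * ((k : ℝ) / 8))) * (sampW w Y * ∏ i, Real.exp (l * g (Y i))) :=
        Finset.sum_le_sum fun Y _ => hpoint Y
    _ = Real.exp (-(l * ((k : ℝ) / 8))) * (∑ y, w y * Real.exp (l * g y)) ^ k := by
        rw [← Finset.mul_sum]
        rw [sum_sampW_mul_prod w (fun y => Real.exp (l * g y))]
    _ ≤ Real.exp (-(l * ((k : ℝ) / 8))) * (Real.exp (225 * l ^ 2)) ^ k :=
        mul_le_mul_of_nonneg_left (pow_le_pow_left₀ hbase0 hbase k) (Real.exp_pos _).le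
    _ = Real.exp (-(k : ℝ) / 57600) := by
        rw [← Real.exp_nat_mul, ← Real.exp_add]
        congr 1
        rw [hl]
        ring

end Sampling

open Classical in
/-- (M4) Final stage: points represented by bounded densities with respect to one common `ν` are
few: sample `k ~ 123904 (q+2)` points of `ν` (Chernoff + union bound over the tests `Z`, fix a sample
good for half of `S'`), round the `k` density values to a grid of mesh `1/32`. -/
theorem final_count (hZP : ∀ c ∈ Z, c ∈ P) (hν : ∀ y ∈ S, 0 ≤ ν y) (hν1 : ∑ y ∈ S, ν y = 1)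
    {S' : Finset (Fin n → ℝ)} (hR : ∀ c ∈ Z, ∀ y ∈ S, |pr c y| ≤ 4) {q : ℝ} (hq : 0 ≤ q)
    (hZcard : (Z.card : ℝ) ≤ Real.exp q) (hrep : ∀ x ∈ S', Rep P S ν 1 (1 / 8) x)
    (hsep : ∀ x ∈ S', ∀ x' ∈ S', x ≠ x' → ∃ c ∈ Z, 7 / 8 ≤ |pr c x - pr c x'|) :
    Real.log S'.card ≤ 600000 * (q + 2) := by
  -- the trivial case
  by_cases hS'e : S'.card = 0
  · rw [hS'e]
    simp only [Nat.cast_zero, Real.log_zero]
    positivity
  have hS'pos : 0 < S'.card := Nat.pos_of_ne_zero hS'e
  -- the sample space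
  let ι : Type := {y // y ∈ S}
  let w : ι → ℝ := fun y => ν y.1
  have hw : ∀ y, 0 ≤ w y := fun y => hν y.1 y.2
  have hsumι : ∀ h : (Fin n → ℝ) → ℝ, ∑ y : ι, h y.1 = ∑ y ∈ S, h y := by
    intro h
    exact Finset.sum_coe_sort S h
  have hw1 : ∑ y, w y = 1 := by
    rw [← hν1]
    exact hsumι ν
  have hιne : Nonempty ι := by
    by_contra hne
    rw [not_nonempty_iff] at hne
    have : ∑ y, w y = 0 := Finset.sum_of_isEmpty _
    rw [hw1] at this
    exact one_ne_zero this
  -- densities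
  choose! f hf using hrep
  have hf1 : ∀ x ∈ S', ∀ y ∈ S, Real.exp (-1) ≤ f x y ∧ f x y ≤ Real.exp 1 :=
    fun x hx => (hf x hx).1
  have hf2 : ∀ x ∈ S', ∑ y ∈ S, ν y * f x y = 1 := fun x hx => (hf x hx).2.1
  have hf3 : ∀ x ∈ S', ∀ z ∈ P, |pr z x - ∑ y ∈ S, ν y * f x y * pr z y| ≤ 1 / 8 :=
    fun x hx => (hf x hx).2.2
  have he1 : Real.exp 1 < 2.72 := by
    have := Real.exp_one_lt_d9
    linarith
  have hfpos : ∀ x ∈ S', ∀ y ∈ S, 0 < f x y := fun x hx y hy =>
    lt_of_lt_of_le (Real.exp_pos _) (hf1 x hx y hy).1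
  -- number of samples
  set k : ℕ := ⌈57600 * (q + 2)⌉₊ with hk
  have hk1 : 57600 * (q + 2) ≤ (k : ℝ) := Nat.le_ceil _
  have hk2 : (k : ℝ) < 57600 * (q + 2) + 1 := Nat.ceil_lt_add_one (by positivity)
  have hkpos : (0 : ℝ) < k := by
    have : (0 : ℝ) < 57600 * (q + 2) := by positivity
    linarith
  -- means and centred functions
  let m : (Fin n → ℝ) → (Fin n → ℝ) → ℝ := fun x c => ∑ y ∈ S, ν y * f x y * pr c y
  let g : (Fin n → ℝ) → (Fin n → ℝ) → ι → ℝ := fun x c y => f x y.1 * pr c y.1 - m x c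
  have hνf : ∀ x ∈ S', ∀ y ∈ S, 0 ≤ ν y * f x y := fun x hx y hy =>
    mul_nonneg (hν y hy) (hfpos x hx y hy).le
  have hm4 : ∀ x ∈ S', ∀ c ∈ Z, |m x c| ≤ 4 := by
    intro x hx c hc
    calc |m x c| ≤ ∑ y ∈ S, |ν y * f x y * pr c y| := Finset.abs_sum_le_sum_abs _ _
      _ ≤ ∑ y ∈ S, ν y * f x y * 4 := by
          refine Finset.sum_le_sum fun y hy => ?_
          rw [abs_mul, abs_of_nonneg (hνf x hx y hy)]
          exact mul_le_mul_of_nonneg_left (hR c hc y hy) (hνf x hx y hy)
      _ = 4 := by rw [← Finset.sum_mul, hf2 x hx, one_mul]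
  have hg15 : ∀ x ∈ S', ∀ c ∈ Z, ∀ y, |g x c y| ≤ 15 := by
    intro x hx c hc y
    have h1 : |f x y.1 * pr c y.1| ≤ 11 := by
      rw [abs_mul, abs_of_pos (hfpos x hx y.1 y.2)]
      have h2 := hR c hc y.1 y.2
      have h3 := (hf1 x hx y.1 y.2).2
      have h4 := hfpos x hx y.1 y.2
      have h5 := abs_nonneg (pr c y.1)
      nlinarith
    calc |g x c y| ≤ |f x y.1 * pr c y.1| + |m x c| := abs_sub _ _
      _ ≤ 15 := by
          have := hm4 x hx c hc
          linarith
  have hg0 : ∀ x ∈ S', ∀ c, ∑ y, w y * g x c y = 0 := by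
    intro x hx c
    have h1 : ∑ y : ι, w y * g x c y = ∑ y ∈ S, ν y * (f x y * pr c y - m x c) :=
      hsumι (fun y => ν y * (f x y * pr c y - m x c))
    rw [h1]
    have h2 : ∑ y ∈ S, ν y * (f x y * pr c y - m x c) =
        ∑ y ∈ S, ν y * f x y * pr c y - (∑ y ∈ S, ν y) * m x c := by
      rw [Finset.sum_mul, ← Finset.sum_sub_distrib]
      refine Finset.sum_congr rfl fun y _ => ?_
      ring
    rw [h2, hν1, one_mul]
    exact sub_self _
  -- the bad event
  let bad : (Fin n → ℝ) → (Fin k → ι) → Prop :=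
    fun x Y => ∃ c ∈ Z, (k : ℝ) / 8 < |∑ i, g x c (Y i)|
  have hbadprob : ∀ x ∈ S', ∑ Y : Fin k → ι, sampW w Y * (if bad x Y then (1 : ℝ) else 0) ≤ 1 / 2 := by
    intro x hx
    have hpoint : ∀ Y : Fin k → ι, sampW w Y * (if bad x Y then (1 : ℝ) else 0) ≤
        ∑ c ∈ Z, (sampW w Y * (if (k : ℝ) / 8 < ∑ i, g x c (Y i) then (1 : ℝ) else 0) +
          sampW w Y * (if (k : ℝ) / 8 < ∑ i, -(g x c (Y i)) then (1 : ℝ) else 0)) := by
      intro Y
      have hW := sampW_nonneg hw Y
      have hnn : ∀ c ∈ Z, 0 ≤ sampW w Y * (if (k : ℝ) / 8 < ∑ i, g x c (Y i) then (1 : ℝ) else 0) +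
          sampW w Y * (if (k : ℝ) / 8 < ∑ i, -(g x c (Y i)) then (1 : ℝ) else 0) := by
        intro c _
        refine add_nonneg (mul_nonneg hW ?_) (mul_nonneg hW ?_) <;> split_ifs <;> norm_num
      by_cases hb : bad x Y
      · obtain ⟨c, hc, hlt⟩ := hb
        have hb' : bad x Y := ⟨c, hc, hlt⟩
        rw [if_pos hb']
        have := Finset.single_le_sum hnn hc
        refine le_trans ?_ this
        have hcase : (k : ℝ) / 8 < ∑ i, g x c (Y i) ∨ (k : ℝ) / 8 < ∑ i, -(g x c (Y i)) := by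
          rw [Finset.sum_neg_distrib]
          exact lt_abs.mp hlt
        rcases hcase with h | h
        · rw [if_pos h, mul_one]
          have : 0 ≤ sampW w Y * (if (k : ℝ) / 8 < ∑ i, -(g x c (Y i)) then (1 : ℝ) else 0) := by
            refine mul_nonneg hW ?_
            split_ifs <;> norm_num
          linarith
        · rw [if_pos h, mul_one]
          have : 0 ≤ sampW w Y * (if (k : ℝ) / 8 < ∑ i, g x c (Y i) then (1 : ℝ) else 0) := by
            refine mul_nonneg hW ?_
            split_ifs <;> norm_num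
          linarith
      · rw [if_neg hb, mul_zero]
        exact Finset.sum_nonneg hnn
    have htail : ∀ c ∈ Z,
        ∑ Y : Fin k → ι, (sampW w Y * (if (k : ℝ) / 8 < ∑ i, g x c (Y i) then (1 : ℝ) else 0) +
          sampW w Y * (if (k : ℝ) / 8 < ∑ i, -(g x c (Y i)) then (1 : ℝ) else 0)) ≤
        2 * Real.exp (-(k : ℝ) / 57600) := by
      intro c hc
      rw [Finset.sum_add_distrib]
      have h1 := tail_bound (k := k) hw hw1 (hg15 x hx c hc) (hg0 x hx c)
      have h2 := tail_bound (k := k) (g := fun y => -(g x c y)) hw hw1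
        (fun y => by rw [abs_neg]; exact hg15 x hx c hc y)
        (by
          have h3 := hg0 x hx c
          have : ∑ y, w y * -(g x c y) = -∑ y, w y * g x c y := by
            rw [← Finset.sum_neg_distrib]
            refine Finset.sum_congr rfl fun y _ => ?_
            ring
          rw [this, h3, neg_zero])
      linarith
    calc ∑ Y : Fin k → ι, sampW w Y * (if bad x Y then (1 : ℝ) else 0)
        ≤ ∑ Y : Fin k → ι, ∑ c ∈ Z,
            (sampW w Y * (if (k : ℝ) / 8 < ∑ i, g x c (Y i) then (1 : ℝ) else 0) +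
            sampW w Y * (if (k : ℝ) / 8 < ∑ i, -(g x c (Y i)) then (1 : ℝ) else 0)) :=
          Finset.sum_le_sum fun Y _ => hpoint Y
      _ = ∑ c ∈ Z, ∑ Y : Fin k → ι,
            (sampW w Y * (if (k : ℝ) / 8 < ∑ i, g x c (Y i) then (1 : ℝ) else 0) +
            sampW w Y * (if (k : ℝ) / 8 < ∑ i, -(g x c (Y i)) then (1 : ℝ) else 0)) :=
          Finset.sum_comm
      _ ≤ ∑ c ∈ Z, 2 * Real.exp (-(k : ℝ) / 57600) := Finset.sum_le_sum htail
      _ = (Z.card : ℝ) * (2 * Real.exp (-(k : ℝ) / 57600)) := by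
          rw [Finset.sum_const, nsmul_eq_mul]
      _ ≤ Real.exp q * (2 * Real.exp (-(q + 2))) := by
          have h1 : Real.exp (-(k : ℝ) / 57600) ≤ Real.exp (-(q + 2)) := by
            apply Real.exp_le_exp.mpr
            rw [neg_div, neg_le_neg_iff, le_div_iff₀ (by norm_num)]
            linarith
          exact mul_le_mul hZcard (by linarith) (by positivity) (Real.exp_pos _).le
      _ ≤ 1 / 2 := by
          have h1 : Real.exp q * (2 * Real.exp (-(q + 2))) = 2 * Real.exp (-2) := by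
            have : Real.exp (-(q + 2)) = Real.exp (-q) * Real.exp (-2) := by
              rw [← Real.exp_add]
              congr 1
              ring
            rw [this]
            have h3 : Real.exp q * Real.exp (-q) = 1 := by
              rw [← Real.exp_add]
              simp
            calc Real.exp q * (2 * (Real.exp (-q) * Real.exp (-2)))
                = (Real.exp q * Real.exp (-q)) * (2 * Real.exp (-2)) := by ring
              _ = 2 * Real.exp (-2) := by rw [h3, one_mul]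
          rw [h1]
          have h2 : Real.exp (-2) ≤ 1 / 4 := by
            have h3 : Real.exp 2 ≥ 4 := by
              have h4 : Real.exp 2 = Real.exp 1 * Real.exp 1 := by
                rw [← Real.exp_add]
                norm_num
              have h5 := Real.exp_one_gt_d9
              rw [h4]
              nlinarith
            rw [Real.exp_neg]
            rw [inv_eq_one_div]
            exact one_div_le_one_div_of_le (by norm_num) h3
          linarith
  -- a good sample
  obtain ⟨Y, -, hY⟩ := Finset.exists_min_image (Finset.univ : Finset (Fin k → ι))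
    (fun Y => ((S'.filter fun x => bad x Y).card : ℝ)) Finset.univ_nonempty
  have hbadY : ((S'.filter fun x => bad x Y).card : ℝ) ≤ (S'.card : ℝ) / 2 := by
    have h1 : ∑ Y' : Fin k → ι, sampW w Y' * ((S'.filter fun x => bad x Y').card : ℝ) =
        ∑ x ∈ S', ∑ Y' : Fin k → ι, sampW w Y' * (if bad x Y' then (1 : ℝ) else 0) := by
      rw [Finset.sum_comm]
      refine Finset.sum_congr rfl fun Y' _ => ?_
      rw [← Finset.mul_sum, Finset.card_filter]
      push_cast
      rfl
    have h2 : ∑ x ∈ S', ∑ Y' : Fin k → ι, sampW w Y' * (if bad x Y' then (1 : ℝ) else 0) ≤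
        (S'.card : ℝ) / 2 := by
      calc _ ≤ ∑ x ∈ S', (1 / 2 : ℝ) := Finset.sum_le_sum hbadprob
        _ = (S'.card : ℝ) / 2 := by
            rw [Finset.sum_const, nsmul_eq_mul]
            ring
    have h3 : ((S'.filter fun x => bad x Y).card : ℝ) ≤
        ∑ Y' : Fin k → ι, sampW w Y' * ((S'.filter fun x => bad x Y').card : ℝ) := by
      calc ((S'.filter fun x => bad x Y).card : ℝ)
          = ∑ Y' : Fin k → ι, sampW w Y' * ((S'.filter fun x => bad x Y).card : ℝ) := by
            rw [← Finset.sum_mul, sum_sampW hw1, one_mul]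
        _ ≤ _ := Finset.sum_le_sum fun Y' _ =>
            mul_le_mul_of_nonneg_left (hY Y' (Finset.mem_univ _)) (sampW_nonneg hw Y')
    linarith
  -- the good points
  set G := S'.filter fun x => ¬ bad x Y with hG
  have hcard : (S'.card : ℝ) ≤ 2 * (G.card : ℝ) := by
    have h1 := Finset.card_filter_add_card_filter_not (s := S') (fun x => bad x Y)
    have h2 : ((S'.filter fun x => bad x Y).card : ℝ) + (G.card : ℝ) = (S'.card : ℝ) := by
      exact_mod_cast h1
    linarith
  -- the rounding map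
  let r : (Fin n → ℝ) → Fin k → ℕ := fun x i => ⌊32 * f x (Y i).1⌋₊
  have hr_mem : ∀ x ∈ G, r x ∈ Fintype.piFinset (fun _ : Fin k => Finset.range 87) := by
    intro x hx
    have hx' := (Finset.mem_filter.mp hx).1
    rw [Fintype.mem_piFinset]
    intro i
    rw [Finset.mem_range]
    have h1 := hfpos x hx' (Y i).1 (Y i).2
    have h2 := (hf1 x hx' (Y i).1 (Y i).2).2
    rw [Nat.floor_lt (by positivity)]
    push_cast
    have he2 := Real.exp_one_lt_d9
    linarith
  have hr_inj : Set.InjOn r (G : Set (Fin n → ℝ)) := by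
    intro x hx x' hx' hrr
    by_contra hne
    have hxG := Finset.mem_filter.mp (Finset.mem_coe.mp hx)
    have hxG' := Finset.mem_filter.mp (Finset.mem_coe.mp hx')
    obtain ⟨c, hc, hcsep⟩ := hsep x hxG.1 x' hxG'.1 hne
    -- the sample averages
    have hgood : ∀ t ∈ G, |∑ i, g t c (Y i)| ≤ (k : ℝ) / 8 := by
      intro t ht
      have h1 := (Finset.mem_filter.mp ht).2
      by_contra h2
      exact h1 ⟨c, hc, not_le.mp h2⟩
    have hsumg : ∀ t, ∑ i, g t c (Y i) = ∑ i, f t (Y i).1 * pr c (Y i).1 - (k : ℝ) * m t c := by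
      intro t
      simp only [g]
      rw [Finset.sum_sub_distrib, Finset.sum_const, Finset.card_univ, Fintype.card_fin,
        nsmul_eq_mul]
    have h1 := hgood x (Finset.mem_coe.mp hx)
    have h2 := hgood x' (Finset.mem_coe.mp hx')
    rw [hsumg] at h1 h2
    have h3 := hf3 x hxG.1 c (hZP c hc)
    have h4 := hf3 x' hxG'.1 c (hZP c hc)
    have hdiff : |∑ i, f x (Y i).1 * pr c (Y i).1 - ∑ i, f x' (Y i).1 * pr c (Y i).1| ≤
        (k : ℝ) / 8 := by
      rw [← Finset.sum_sub_distrib]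
      calc |∑ i, (f x (Y i).1 * pr c (Y i).1 - f x' (Y i).1 * pr c (Y i).1)|
          ≤ ∑ i, |f x (Y i).1 * pr c (Y i).1 - f x' (Y i).1 * pr c (Y i).1| :=
            Finset.abs_sum_le_sum_abs _ _
        _ ≤ ∑ _i : Fin k, (1 / 8 : ℝ) := by
            refine Finset.sum_le_sum fun i _ => ?_
            have hfloor : ⌊32 * f x (Y i).1⌋₊ = ⌊32 * f x' (Y i).1⌋₊ := congrFun hrr i
            have ha := hfpos x hxG.1 (Y i).1 (Y i).2
            have hb := hfpos x' hxG'.1 (Y i).1 (Y i).2
            have h5 : (⌊32 * f x (Y i).1⌋₊ : ℝ) ≤ 32 * f x (Y i).1 :=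
              Nat.floor_le (by positivity)
            have h6 : 32 * f x (Y i).1 < (⌊32 * f x (Y i).1⌋₊ : ℝ) + 1 := Nat.lt_floor_add_one _
            have h7 : (⌊32 * f x' (Y i).1⌋₊ : ℝ) ≤ 32 * f x' (Y i).1 :=
              Nat.floor_le (by positivity)
            have h8 : 32 * f x' (Y i).1 < (⌊32 * f x' (Y i).1⌋₊ : ℝ) + 1 := Nat.lt_floor_add_one _
            rw [hfloor] at h5 h6
            have h9 : |f x (Y i).1 - f x' (Y i).1| ≤ 1 / 32 := by
              rw [abs_le]
              constructor <;> linarith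
            have h10 : f x (Y i).1 * pr c (Y i).1 - f x' (Y i).1 * pr c (Y i).1 =
                (f x (Y i).1 - f x' (Y i).1) * pr c (Y i).1 := by ring
            rw [h10, abs_mul]
            have h11 := hR c hc (Y i).1 (Y i).2
            calc |f x (Y i).1 - f x' (Y i).1| * |pr c (Y i).1| ≤ 1 / 32 * 4 :=
                  mul_le_mul h9 h11 (abs_nonneg _) (by norm_num)
              _ = 1 / 8 := by norm_num
        _ = (k : ℝ) / 8 := by
            rw [Finset.sum_const, Finset.card_univ, Fintype.card_fin, nsmul_eq_mul]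
            ring
    have hmain : (k : ℝ) * |pr c x - pr c x'| ≤ 5 * (k : ℝ) / 8 := by
      rw [← abs_of_pos hkpos, ← abs_mul, abs_of_pos hkpos]
      have e1 := abs_le.mp h1
      have e2 := abs_le.mp h2
      have e3 := abs_le.mp h3
      have e4 := abs_le.mp h4
      have e5 := abs_le.mp hdiff
      change |pr c x - m x c| ≤ 1 / 8 at h3
      have e3' := abs_le.mp (show |pr c x - m x c| ≤ 1 / 8 from h3)
      have e4' := abs_le.mp (show |pr c x' - m x' c| ≤ 1 / 8 from h4)
      have e6 : (k : ℝ) * (pr c x - m x c) ≤ (k : ℝ) * (1 / 8) :=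
        mul_le_mul_of_nonneg_left e3'.2 hkpos.le
      have e7 : (k : ℝ) * (-(1 / 8)) ≤ (k : ℝ) * (pr c x - m x c) :=
        mul_le_mul_of_nonneg_left e3'.1 hkpos.le
      have e8 : (k : ℝ) * (pr c x' - m x' c) ≤ (k : ℝ) * (1 / 8) :=
        mul_le_mul_of_nonneg_left e4'.2 hkpos.le
      have e9 : (k : ℝ) * (-(1 / 8)) ≤ (k : ℝ) * (pr c x' - m x' c) :=
        mul_le_mul_of_nonneg_left e4'.1 hkpos.le
      rw [abs_le]
      constructor <;> nlinarith [e1.1, e1.2, e2.1, e2.2, e5.1, e5.2]
    have hfinal : (k : ℝ) * (7 / 8) ≤ (k : ℝ) * |pr c x - pr c x'| :=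
      mul_le_mul_of_nonneg_left hcsep hkpos.le
    nlinarith
  have hGcard : (G.card : ℝ) ≤ (87 : ℝ) ^ k := by
    have h1 := Finset.card_le_card_of_injOn r hr_mem hr_inj
    rw [Fintype.card_piFinset] at h1
    simp only [Finset.card_range, Finset.prod_const, Finset.card_univ, Fintype.card_fin] at h1
    exact_mod_cast h1
  -- the logarithm
  have hS'real : (0 : ℝ) < S'.card := by exact_mod_cast hS'pos
  have hlog87 : Real.log 87 ≤ 5 := by
    rw [Real.log_le_iff_le_exp (by norm_num)]
    have h4 : Real.exp 5 = Real.exp 1 ^ 5 := by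
      rw [← Real.exp_nat_mul]
      norm_num
    rw [h4]
    have h5 := Real.exp_one_gt_d9
    have h6 : (2.7 : ℝ) ^ 5 ≤ Real.exp 1 ^ 5 := pow_le_pow_left₀ (by norm_num) (by linarith) 5
    have h7 : (87 : ℝ) ≤ (2.7 : ℝ) ^ 5 := by norm_num
    linarith
  have hlog2 : Real.log 2 ≤ 1 := by
    have := Real.log_two_lt_d9
    linarith
  have hbound : (S'.card : ℝ) ≤ 2 * (87 : ℝ) ^ k := by linarith
  calc Real.log S'.card ≤ Real.log (2 * (87 : ℝ) ^ k) := Real.log_le_log hS'real hbound
    _ = Real.log 2 + k * Real.log 87 := by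
        rw [Real.log_mul (by norm_num) (by positivity), Real.log_pow]
    _ ≤ 1 + (57600 * (q + 2) + 1) * 5 := by
        have h1 : (k : ℝ) * Real.log 87 ≤ (57600 * (q + 2) + 1) * 5 := by
          have hlog0 : 0 ≤ Real.log 87 := Real.log_nonneg (by norm_num)
          exact mul_le_mul hk2.le hlog87 hlog0 (by positivity)
        linarith
    _ ≤ 600000 * (q + 2) := by nlinarith

end Vale.Agent.Lib.P126G
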