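import Vale.Agent.Lib.P126G.Level

open scoped BigOperators Pointwise

namespace Vale.Agent.Lib.P126G

variable {n : ℕ} {P K : Set (Fin n → ℝ)} {Z : Finset (Fin n → ℝ)} {T : ℝ}
  {S : Finset (Fin n → ℝ)}

/-- Tournament counting: if for every pair of distinct points one sees the other, and each point
sees at most `M` points, there are at most `2M+1` points. -/
lemma tournament {α : Type*} [DecidableEq α] (E : Finset α) (A : α → Finset α) {M : ℝ} (hM0 : 0 ≤ M)
    (hM : ∀ x ∈ E, ((A x).card : ℝ) ≤ M)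
    (h : ∀ x ∈ E, ∀ x' ∈ E, x ≠ x' → x' ∈ A x ∨ x ∈ A x') : (E.card : ℝ) ≤ 2 * M + 1 := by
  rcases E.eq_empty_or_nonempty with rfl | hne
  · simp only [Finset.card_empty, Nat.cast_zero]
    linarith
  have hs : (0 : ℝ) < E.card := by exact_mod_cast hne.card_pos
  set I : α → α → ℝ := fun x x' => if x' ∈ A x then 1 else 0 with hI
  have h1 : ∀ x ∈ E, ∑ x' ∈ E, I x x' ≤ M := by
    intro x hx
    have : ∑ x' ∈ E, I x x' = ((E.filter fun x' => x' ∈ A x).card : ℝ) := by
      simp only [hI, Finset.sum_boole]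
    rw [this]
    refine le_trans ?_ (hM x hx)
    exact_mod_cast Finset.card_le_card (fun a ha => (Finset.mem_filter.mp ha).2)
  have h2 : ∑ x ∈ E, ∑ x' ∈ E, I x x' ≤ E.card * M := by
    calc ∑ x ∈ E, ∑ x' ∈ E, I x x' ≤ ∑ _x ∈ E, M := Finset.sum_le_sum h1
      _ = E.card * M := by simp
  have h3 : ∑ x ∈ E, ∑ x' ∈ E, I x' x = ∑ x ∈ E, ∑ x' ∈ E, I x x' := Finset.sum_comm
  have h4 : ∀ x ∈ E, (E.card : ℝ) - 1 ≤ ∑ x' ∈ E, (I x x' + I x' x) := by
    intro x hx
    have h5 : ∑ x' ∈ E, (if x' = x then (0 : ℝ) else 1) = (E.card : ℝ) - 1 := by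
      have h6 : ∑ x' ∈ E, (if x' = x then (0 : ℝ) else 1) =
          ∑ x' ∈ E, ((1 : ℝ) - if x' = x then 1 else 0) := by
        refine Finset.sum_congr rfl fun a _ => ?_
        split_ifs <;> norm_num
      rw [h6, Finset.sum_sub_distrib, Finset.sum_ite_eq' E x]
      simp [hx]
    rw [← h5]
    refine Finset.sum_le_sum fun x' hx' => ?_
    by_cases hxx : x' = x
    · simp only [hxx, if_true]
      simp only [hI]
      split_ifs <;> norm_num
    · simp only [hxx, if_false]
      have h7 := h x hx x' hx' (Ne.symm hxx)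
      simp only [hI]
      rcases h7 with h7 | h7
      · simp only [h7, if_true]
        split_ifs <;> norm_num
      · simp only [h7, if_true]
        split_ifs <;> norm_num
  have h8 : (E.card : ℝ) * ((E.card : ℝ) - 1) ≤ 2 * (E.card * M) := by
    calc (E.card : ℝ) * ((E.card : ℝ) - 1) = ∑ _x ∈ E, ((E.card : ℝ) - 1) := by
          rw [Finset.sum_const, nsmul_eq_mul]
      _ ≤ ∑ x ∈ E, ∑ x' ∈ E, (I x x' + I x' x) := Finset.sum_le_sum h4
      _ = ∑ x ∈ E, ∑ x' ∈ E, I x x' + ∑ x ∈ E, ∑ x' ∈ E, I x' x := by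
        simp only [Finset.sum_add_distrib]
      _ ≤ 2 * (E.card * M) := by rw [h3]; linarith
  have h9 : (E.card : ℝ) * ((E.card : ℝ) - 1) ≤ (E.card : ℝ) * (2 * M) := by linarith
  have := le_of_mul_le_mul_left h9 hs
  linarith

/-- (M3) Top level: tournament. Uniform weights on `S`; at most half of `S` is exposed; the rest,
after a pigeonhole on the net, is represented with `(Δ/2, 8T)` for common weights `ν₁`. -/
theorem top_step (hPc : IsCompact P) (hPconv : Convex ℝ P) (hPsym : ∀ z ∈ P, -z ∈ P)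
    (hPne : P.Nonempty) (hZ : Net P K Z T) (hT : 0 < T) (hSK : ∀ y ∈ S, y ∈ K)
    (hS : 4 * Z.card ≤ S.card) (hZne : Z.Nonempty) {Δ : ℝ}
    (hΔ : 2 * Real.log Z.card + 6 ≤ Δ) :
    ∃ S₁ ⊆ S, S₁.Nonempty ∧ S.card ≤ 2 * Z.card * S₁.card ∧
      ∃ ν₁ : (Fin n → ℝ) → ℝ, (∀ y ∈ S, 0 ≤ ν₁ y) ∧ ∑ y ∈ S, ν₁ y = 1 ∧
        ∀ x ∈ S₁, Rep P S ν₁ (Δ / 2) (8 * T) x := by
  classical
  have hZpos : 0 < Z.card := hZne.card_pos
  have hZposR : (0 : ℝ) < Z.card := by exact_mod_cast hZpos
  have hSposN : 0 < S.card := by omega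
  have hSpos : (0 : ℝ) < S.card := by exact_mod_cast hSposN
  have hlogZ : 0 ≤ Real.log Z.card := Real.log_natCast_nonneg _
  have hΔpos : 0 < Δ := by linarith
  set u : (Fin n → ℝ) → ℝ := fun _ => (S.card : ℝ)⁻¹ with hu
  have hu0 : ∀ y ∈ S, 0 ≤ u y := fun _ _ => (inv_pos.mpr hSpos).le
  have hu1 : ∑ y ∈ S, u y = 1 := by
    simp only [hu, Finset.sum_const, nsmul_eq_mul]
    exact mul_inv_cancel₀ hSpos.ne'
  set β := Δ / (8 * T) with hβdef
  have hβ : 0 < β := by positivity
  have hβT : β * (4 * T) = Δ / 2 := by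
    rw [hβdef]
    field_simp
    ring
  choose z hzP hmin hfo hjen using fun x => tilt_exists (S := S) (ν := u) hPc hPconv hPne hu0 hu1 x hβ
  choose c hcZ hc using fun x => hZ.net (z x) (hzP x)
  -- exposed points
  set E := S.filter fun x => gG S u β x (z x) < Real.exp (-Δ) with hE
  set M : ℝ := S.card * Real.exp (-Δ / 2) with hM
  have hMpos : 0 ≤ M := by positivity
  set A : (Fin n → ℝ) → Finset (Fin n → ℝ) :=
    fun x => S.filter fun y => -(4 * T) ≤ pr (z x) y - pr (z x) x with hA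
  have hAcard : ∀ x ∈ E, ((A x).card : ℝ) ≤ M := by
    intro x hx
    have hx2 := (Finset.mem_filter.mp hx).2
    have h1 : ((A x).card : ℝ) * ((S.card : ℝ)⁻¹ * Real.exp (-(Δ / 2))) ≤ gG S u β x (z x) := by
      unfold gG
      calc ((A x).card : ℝ) * ((S.card : ℝ)⁻¹ * Real.exp (-(Δ / 2)))
          = ∑ _y ∈ A x, ((S.card : ℝ)⁻¹ * Real.exp (-(Δ / 2))) := by simp
        _ ≤ ∑ y ∈ A x, u y * Real.exp (β * (pr (z x) y - pr (z x) x)) := by
            refine Finset.sum_le_sum fun y hy => ?_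
            have hy2 := (Finset.mem_filter.mp hy).2
            refine mul_le_mul_of_nonneg_left ?_ (inv_pos.mpr hSpos).le
            apply Real.exp_le_exp.mpr
            have := mul_le_mul_of_nonneg_left hy2 hβ.le
            nlinarith
        _ ≤ ∑ y ∈ S, u y * Real.exp (β * (pr (z x) y - pr (z x) x)) := by
            refine Finset.sum_le_sum_of_subset_of_nonneg (Finset.filter_subset _ _) ?_
            intro y hy _
            exact mul_nonneg (hu0 y hy) (Real.exp_pos _).le
    have h2 := h1.trans hx2.le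
    -- multiply out
    have h3 : Real.exp (-Δ) = Real.exp (-(Δ / 2)) * Real.exp (-(Δ / 2)) := by
      rw [← Real.exp_add]
      congr 1
      ring
    rw [h3] at h2
    have h4 := Real.exp_pos (-(Δ / 2))
    have h5 : ((A x).card : ℝ) * (S.card : ℝ)⁻¹ ≤ Real.exp (-(Δ / 2)) := by
      have : ((A x).card : ℝ) * (S.card : ℝ)⁻¹ * Real.exp (-(Δ / 2)) ≤
          Real.exp (-(Δ / 2)) * Real.exp (-(Δ / 2)) := by
        calc _ = ((A x).card : ℝ) * ((S.card : ℝ)⁻¹ * Real.exp (-(Δ / 2))) := by ring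
          _ ≤ _ := h2
      exact le_of_mul_le_mul_right this h4
    have h6 : ((A x).card : ℝ) = ((A x).card : ℝ) * (S.card : ℝ)⁻¹ * S.card := by
      field_simp
    rw [h6, hM]
    have h7 : -Δ / 2 = -(Δ / 2) := by ring
    rw [h7]
    have := mul_le_mul_of_nonneg_right h5 hSpos.le
    linarith
  -- tournament in each cell
  have hcell : ∀ c₀, ((E.filter fun x => c x = c₀).card : ℝ) ≤ 2 * M + 1 := by
    intro c₀
    refine tournament _ A hMpos (fun x hx => hAcard x (Finset.mem_filter.mp hx).1) ?_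
    intro x hx x' hx' _
    have hxE := (Finset.mem_filter.mp hx).1
    have hx'E := (Finset.mem_filter.mp hx').1
    have hxS := (Finset.mem_filter.mp hxE).1
    have hx'S := (Finset.mem_filter.mp hx'E).1
    have hcx := (Finset.mem_filter.mp hx).2
    have hcx' := (Finset.mem_filter.mp hx').2
    have hclose : ∀ y ∈ S, |pr (z x) y - pr (z x') y| ≤ 2 * T :=
      cell_close hSK (c := c₀) (by rw [← hcx]; exact hc x) (by rw [← hcx']; exact hc x')
    have h1 := abs_le.mp (hclose x hxS)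
    have h2 := abs_le.mp (hclose x' hx'S)
    by_cases h3 : -(4 * T) ≤ pr (z x) x' - pr (z x) x
    · left
      exact Finset.mem_filter.mpr ⟨hx'S, h3⟩
    · right
      refine Finset.mem_filter.mpr ⟨hxS, ?_⟩
      rw [not_le] at h3
      linarith [h1.1, h1.2, h2.1, h2.2]
  -- count of exposed points
  have hEcard : 2 * (E.card : ℝ) ≤ S.card := by
    have h1 : (E.card : ℝ) = ∑ c₀ ∈ Z, ((E.filter fun x => c x = c₀).card : ℝ) := by
      rw [Finset.card_eq_sum_card_fiberwise (f := c) (t := Z) (fun a _ => hcZ a)]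
      push_cast
      rfl
    have h2 : (E.card : ℝ) ≤ Z.card * (2 * M + 1) := by
      rw [h1]
      calc ∑ c₀ ∈ Z, ((E.filter fun x => c x = c₀).card : ℝ) ≤ ∑ _c₀ ∈ Z, (2 * M + 1) :=
            Finset.sum_le_sum fun c₀ _ => hcell c₀
        _ = Z.card * (2 * M + 1) := by rw [Finset.sum_const, nsmul_eq_mul]
    have h3 : Real.exp (-Δ / 2) * Z.card ≤ Real.exp (-3) := by
      have h4 : (Z.card : ℝ) = Real.exp (Real.log Z.card) := (Real.exp_log hZposR).symm
      rw [h4, ← Real.exp_add]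
      apply Real.exp_le_exp.mpr
      linarith
    have h5 : Real.exp (-3) ≤ (1 / 8 : ℝ) := by
      have h6 : (1 : ℝ) + 3 ≤ Real.exp 3 := by
        have := Real.add_one_le_exp (3 : ℝ)
        linarith
      have h7 : Real.exp (-3) = (Real.exp 3)⁻¹ := Real.exp_neg 3
      rw [h7]
      have h8 : (8 : ℝ) ≤ Real.exp 3 := by
        have h9 : Real.exp 1 ≥ 2 := by
          have := Real.add_one_le_exp (1 : ℝ)
          linarith
        have h10 : Real.exp 3 = Real.exp 1 ^ 3 := by
          rw [← Real.exp_nat_mul]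
          norm_num
        rw [h10]
        nlinarith [sq_nonneg (Real.exp 1), sq_nonneg (Real.exp 1 - 2), Real.exp_pos 1]
      rw [show (1 / 8 : ℝ) = (8 : ℝ)⁻¹ by norm_num]
      exact inv_anti₀ (by norm_num) h8
    have h6 : (Z.card : ℝ) * M ≤ (S.card : ℝ) * (1 / 8) := by
      rw [hM]
      calc (Z.card : ℝ) * ((S.card : ℝ) * Real.exp (-Δ / 2))
          = (S.card : ℝ) * (Real.exp (-Δ / 2) * Z.card) := by ring
        _ ≤ (S.card : ℝ) * (1 / 8) := mul_le_mul_of_nonneg_left (h3.trans h5) hSpos.le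
    have h7 : 4 * (Z.card : ℝ) ≤ S.card := by exact_mod_cast hS
    nlinarith
  -- non-exposed points
  set N := S.filter fun x => ¬ gG S u β x (z x) < Real.exp (-Δ) with hN
  have hNcard : S.card ≤ 2 * N.card := by
    have h1 : E.card + N.card = S.card := by
      rw [hE, hN]
      exact Finset.card_filter_add_card_filter_not _
    have h2 : 2 * E.card ≤ S.card := by exact_mod_cast hEcard
    omega
  obtain ⟨c₀, _, hcard⟩ := pigeon N Z c (fun a _ => hcZ a) hZne
  set F := N.filter fun a => c a = c₀ with hF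
  have hFne : F.Nonempty := by
    by_contra hcon
    rw [Finset.not_nonempty_iff_eq_empty] at hcon
    rw [hcon] at hcard
    simp only [Finset.card_empty, mul_zero, nonpos_iff_eq_zero, Finset.card_eq_zero] at hcard
    rw [hcard] at hNcard
    simp only [Finset.card_empty, mul_zero, nonpos_iff_eq_zero] at hNcard
    omega
  obtain ⟨x₀, hx₀⟩ := hFne
  have hFS : F ⊆ S := fun a ha => (Finset.mem_filter.mp (Finset.mem_filter.mp ha).1).1
  refine ⟨F, hFS, ⟨x₀, hx₀⟩, ?_, fun y => u y * gF S u β (z x₀) y,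
    tilted_nonneg hu0 hu1 β _, sum_gF hu0 hu1 β _, fun x hx => ?_⟩
  · calc S.card ≤ 2 * N.card := hNcard
      _ ≤ 2 * (Z.card * F.card) := Nat.mul_le_mul_left 2 hcard
      _ = 2 * Z.card * F.card := by ring
  have hxN := (Finset.mem_filter.mp hx).1
  have hnexp := (Finset.mem_filter.mp hxN).2
  have hcx : c x = c₀ := (Finset.mem_filter.mp hx).2
  have hcx₀ : c x₀ = c₀ := (Finset.mem_filter.mp hx₀).2
  have hclose : ∀ y ∈ S, |pr (z x) y - pr (z x₀) y| ≤ 2 * T :=
    cell_close hSK (c := c₀) (by rw [← hcx]; exact hc x) (by rw [← hcx₀]; exact hc x₀)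
  set ρ' := pr (z x) x - ∑ y ∈ S, u y * gF S u β (z x) y * pr (z x) y with hρ'
  have hup := hjen x
  rw [not_lt] at hnexp
  have hexp : -Δ ≤ -β * ρ' := Real.exp_le_exp.mp (hnexp.trans hup)
  have hρ'le : ρ' ≤ 8 * T := by
    have h1 : β * ρ' ≤ Δ := by linarith
    have h2 : Δ = β * (8 * T) := by
      rw [hβdef]
      field_simp
    rw [h2] at h1
    exact le_of_mul_le_mul_left h1 hβ
  have hall : ∀ w ∈ P, |pr w x - ∑ y ∈ S, u y * gF S u β (z x) y * pr w y| ≤ 8 * T := by
    intro w hw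
    have h1 := hfo x w hw
    have h2 := hfo x (-w) (hPsym w hw)
    have h3 : pr (-w) x - ∑ y ∈ S, u y * gF S u β (z x) y * pr (-w) y =
        -(pr w x - ∑ y ∈ S, u y * gF S u β (z x) y * pr w y) := by
      have : ∑ y ∈ S, u y * gF S u β (z x) y * pr (-w) y =
          - ∑ y ∈ S, u y * gF S u β (z x) y * pr w y := by
        rw [← Finset.sum_neg_distrib]
        refine Finset.sum_congr rfl fun y _ => ?_
        rw [pr_neg_left]
        ring
      rw [this, pr_neg_left]
      ring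
    rw [h3] at h2
    rw [abs_le]
    constructor <;> linarith
  have hrep' := rep_of_tilt hu0 hu1 hβ hclose hall
  have heq : 2 * β * (2 * T) = Δ / 2 := by
    rw [← hβT]
    ring
  rw [heq] at hrep'
  exact hrep'

end Vale.Agent.Lib.P126G
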