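import Vale.Agent.Lib.P126G.Level
import Vale.Agent.Lib.P126G.Top
import Vale.Agent.Lib.P126G.Sample

open scoped BigOperators Pointwise

namespace Vale.Agent.Lib.P126G

variable {n : ℕ} {P K : Set (Fin n → ℝ)} {Z : Finset (Fin n → ℝ)} {T : ℝ}

lemma Rep.mono {S : Finset (Fin n → ℝ)} {ν : (Fin n → ℝ) → ℝ} {Δ Δ' ρ ρ' : ℝ} {x : Fin n → ℝ}
    (h : Rep P S ν Δ ρ x) (hΔ : Δ ≤ Δ') (hρ : ρ ≤ ρ') : Rep P S ν Δ' ρ' x := by
  obtain ⟨f, hf, hf1, hfz⟩ := h
  refine ⟨f, fun y hy => ⟨?_, ?_⟩, hf1, fun z hz => (hfz z hz).trans hρ⟩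
  · exact (Real.exp_le_exp.mpr (by linarith)).trans (hf y hy).1
  · exact (hf y hy).2.trans (Real.exp_le_exp.mpr hΔ)

/-- Iterating `level_step` with `δ = 8T`. -/
lemma iterate_levels (hPc : IsCompact P) (hPconv : Convex ℝ P) (hPsym : ∀ z ∈ P, -z ∈ P)
    (hPne : P.Nonempty) (hZ : Net P K Z T) (hT : 0 < T) {S : Finset (Fin n → ℝ)}
    (hSK : ∀ y ∈ S, y ∈ K) (i : ℕ) {S' : Finset (Fin n → ℝ)} {ν : (Fin n → ℝ) → ℝ} {Δ ρ : ℝ}
    (hν : ∀ y ∈ S, 0 ≤ ν y) (hν1 : ∑ y ∈ S, ν y = 1) (hS'S : S' ⊆ S) (hS'ne : S'.Nonempty)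
    (hΔ : 0 < Δ) (hrep : ∀ x ∈ S', Rep P S ν Δ ρ x) :
    ∃ S'' ⊆ S', S''.Nonempty ∧ S'.card ≤ Z.card ^ i * S''.card ∧
      ∃ ν' : (Fin n → ℝ) → ℝ, (∀ y ∈ S, 0 ≤ ν' y) ∧ ∑ y ∈ S, ν' y = 1 ∧
        ∀ x ∈ S'', Rep P S ν' (Δ / 2 ^ i) (ρ + i * (8 * T)) x := by
  induction i with
  | zero =>
    refine ⟨S', Finset.Subset.refl _, hS'ne, by simp, ν, hν, hν1, fun x hx => ?_⟩
    simpa using hrep x hx
  | succ i ih =>
    obtain ⟨S₁, hS₁, hS₁ne, hc₁, ν₁, h1, h2, h3⟩ := ih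
    have hΔi : 0 < Δ / 2 ^ i := by positivity
    obtain ⟨S₂, hS₂, hS₂ne, hc₂, ν₂, h4, h5, h6⟩ :=
      level_step hPc hPconv hPsym hPne hZ hT.le hSK h1 h2 (hS₁.trans hS'S) hS₁ne hΔi
        (by positivity : (0 : ℝ) < 8 * T) h3
    refine ⟨S₂, hS₂.trans hS₁, hS₂ne, ?_, ν₂, h4, h5, fun x hx => ?_⟩
    · calc S'.card ≤ Z.card ^ i * S₁.card := hc₁
        _ ≤ Z.card ^ i * (Z.card * S₂.card) := Nat.mul_le_mul_left _ hc₂
        _ = Z.card ^ (i + 1) * S₂.card := by ring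
    · have h7 := h6 x hx
      have e1 : 4 * T * (Δ / 2 ^ i / (8 * T)) = Δ / 2 ^ (i + 1) := by
        field_simp
        ring
      have e2 : ρ + (i : ℝ) * (8 * T) + 8 * T = ρ + ((i + 1 : ℕ) : ℝ) * (8 * T) := by
        push_cast
        ring
      rw [e1, e2] at h7
      exact h7

/-- (M5) The core bound: separated sets are small when the net has size `≤ e^q` at scale
`T ≤ 1/(64 r)`, where `2^r ≥ 2q+6`. -/
theorem core_bound (hPc : IsCompact P) (hPconv : Convex ℝ P) (hPsym : ∀ z ∈ P, -z ∈ P)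
    (hPne : P.Nonempty) (hZ : Net P K Z T) (hT : 0 < T) {r : ℕ} (hr : 1 ≤ r)
    (hTr : 64 * (r : ℝ) * T ≤ 1) {q : ℝ} (hq : 0 ≤ q) (hcard : (Z.card : ℝ) ≤ Real.exp q)
    (h2r : 2 * q + 6 ≤ (2 : ℝ) ^ r) (hR : ∀ z ∈ P, ∀ y ∈ K, |pr z y| ≤ 4)
    {S : Finset (Fin n → ℝ)} (hSK : ∀ y ∈ S, y ∈ K)
    (hsep : ∀ x ∈ S, ∀ x' ∈ S, x ≠ x' → ∃ z ∈ P, 1 < pr z x - pr z x') :
    Real.log S.card ≤ ((r : ℝ) + 600000) * (q + 2) := by
  classical
  obtain ⟨z₀, hz₀⟩ := hPne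
  obtain ⟨c₀, hc₀, _⟩ := hZ.net z₀ hz₀
  have hZne : Z.Nonempty := ⟨c₀, hc₀⟩
  have hZposN : 0 < Z.card := hZne.card_pos
  have hZpos : (0 : ℝ) < Z.card := by exact_mod_cast hZposN
  have hlogZ : Real.log Z.card ≤ q := by
    rw [Real.log_le_iff_le_exp hZpos]
    exact hcard
  have hr1 : (1 : ℝ) ≤ r := by exact_mod_cast hr
  have hT64 : 64 * T ≤ 1 := by nlinarith
  have hrhs : 0 ≤ q + 2 := by linarith
  by_cases hS : 4 * Z.card ≤ S.card
  · -- main case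
    have hSpos : (0 : ℝ) < S.card := by
      have : 0 < S.card := by omega
      exact_mod_cast this
    have hΔ : 2 * Real.log Z.card + 6 ≤ 2 * q + 6 := by linarith
    obtain ⟨S₁, hS₁, hS₁ne, hc₁, ν₁, h1, h2, h3⟩ :=
      top_step hPc hPconv hPsym ⟨z₀, hz₀⟩ hZ hT hSK hS hZne hΔ
    obtain ⟨S₂, hS₂, hS₂ne, hc₂, ν₂, h4, h5, h6⟩ :=
      iterate_levels hPc hPconv hPsym ⟨z₀, hz₀⟩ hZ hT hSK (r - 1) h1 h2 hS₁ hS₁ne
        (by linarith : (0 : ℝ) < (2 * q + 6) / 2) h3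
    have hrr : ((r - 1 : ℕ) : ℝ) = (r : ℝ) - 1 := by
      rw [Nat.cast_sub hr]
      simp
    have hpow : (2 : ℝ) ^ r = 2 ^ (r - 1) * 2 := by
      rw [← pow_succ, Nat.sub_add_cancel hr]
    have h7 : ∀ x ∈ S₂, Rep P S ν₂ 1 (1 / 8) x := by
      intro x hx
      refine (h6 x hx).mono ?_ ?_
      · have hpos : (0 : ℝ) < 2 ^ (r - 1) := by positivity
        rw [div_le_iff₀ hpos, one_mul, div_le_iff₀ (by norm_num : (0 : ℝ) < 2)]
        linarith
      · rw [hrr]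
        nlinarith
    have hsep' : ∀ x ∈ S₂, ∀ x' ∈ S₂, x ≠ x' → ∃ c ∈ Z, 7 / 8 ≤ |pr c x - pr c x'| := by
      intro x hx x' hx' hne
      have hxS := hS₁ (hS₂ hx)
      have hx'S := hS₁ (hS₂ hx')
      obtain ⟨z, hz, hzgt⟩ := hsep x hxS x' hx'S hne
      obtain ⟨c, hc, hcz⟩ := hZ.net z hz
      refine ⟨c, hc, ?_⟩
      have h8 := abs_le.mp (hcz x (hSK x hxS))
      have h9 := abs_le.mp (hcz x' (hSK x' hx'S))
      rw [pr_sub_left] at h8 h9
      refine le_trans ?_ (le_abs_self _)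
      linarith [h8.1, h8.2, h9.1, h9.2]
    have h10 := final_count (S := S) (ν := ν₂) (S' := S₂) hZ.sub h4 h5
      (fun c hc y hy => hR c (hZ.sub c hc) y (hSK y hy)) hq hcard h7 hsep'
    have hS₂pos : (0 : ℝ) < S₂.card := by exact_mod_cast hS₂ne.card_pos
    have hcount : (S.card : ℝ) ≤ 2 * (Z.card : ℝ) ^ r * S₂.card := by
      have h11 : S.card ≤ 2 * Z.card ^ r * S₂.card := by
        calc S.card ≤ 2 * Z.card * S₁.card := hc₁
          _ ≤ 2 * Z.card * (Z.card ^ (r - 1) * S₂.card) := Nat.mul_le_mul_left _ hc₂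
          _ = 2 * (Z.card * Z.card ^ (r - 1)) * S₂.card := by ring
          _ = 2 * Z.card ^ r * S₂.card := by
            rw [← pow_succ', Nat.sub_add_cancel hr]
      exact_mod_cast h11
    have hlog : Real.log S.card ≤ Real.log 2 + r * q + Real.log S₂.card := by
      have hZr : (0 : ℝ) < (Z.card : ℝ) ^ r := by positivity
      calc Real.log S.card ≤ Real.log (2 * (Z.card : ℝ) ^ r * S₂.card) :=
            Real.log_le_log hSpos hcount
        _ = Real.log 2 + r * Real.log Z.card + Real.log S₂.card := by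
            rw [Real.log_mul (by positivity) hS₂pos.ne', Real.log_mul (by norm_num) hZr.ne',
              Real.log_pow]
        _ ≤ Real.log 2 + r * q + Real.log S₂.card := by
            have := mul_le_mul_of_nonneg_left hlogZ (by positivity : (0 : ℝ) ≤ (r : ℝ))
            linarith
    have hlog2 : Real.log 2 ≤ 1 := by
      have := Real.log_two_lt_d9
      linarith
    nlinarith
  · -- few points
    rw [not_le] at hS
    have h1 : (S.card : ℝ) ≤ 4 * Z.card := by exact_mod_cast hS.le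
    rcases S.eq_empty_or_nonempty with rfl | hSne
    · simp only [Finset.card_empty, Nat.cast_zero, Real.log_zero]
      positivity
    have hSpos : (0 : ℝ) < S.card := by exact_mod_cast hSne.card_pos
    have h2 : Real.log S.card ≤ Real.log 4 + Real.log Z.card := by
      rw [← Real.log_mul (by norm_num) hZpos.ne']
      exact Real.log_le_log hSpos h1
    have h3 : Real.log 4 ≤ 2 := by
      have h4 : Real.log 4 = 2 * Real.log 2 := by
        rw [show (4 : ℝ) = 2 ^ 2 by norm_num, Real.log_pow]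
        norm_num
      have := Real.log_two_lt_d9
      linarith
    nlinarith

end Vale.Agent.Lib.P126G
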