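import Vale.Agent.Lib.P126G.Body
import Vale.Agent.Lib.P126G.Core

open scoped BigOperators Pointwise Topology

namespace Vale.Agent.Lib.P126G

open Vale.Agent.Lib.P126U (polar covNum)

variable {n : ℕ} {K L : Set (Fin n → ℝ)}

/-- A polar element has pairing at most one in absolute value on a symmetric set. -/
lemma abs_pr_le_one_of_mem_polar (hK : SymBody K) {p x : Fin n → ℝ} (hp : p ∈ polar K)
    (hx : x ∈ K) : |pr p x| ≤ 1 := by
  have h1 : pr x p ≤ 1 := hp x hx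
  have h2 : pr (-x) p ≤ 1 := hp (-x) (hK.symm x hx)
  rw [pr_neg_left] at h2
  rw [pr_comm, abs_le]
  constructor <;> linarith

/-- (M7) Elements of `UJ` are small on `KJ`. -/
lemma abs_pr_le_of_mem_UJ (hK : SymBody K) (hL : SymBody L) {T : ℝ} (hT : 0 ≤ T) {j : ℕ}
    {u y : Fin n → ℝ} (hu : u ∈ UJ K L T j) (hy : y ∈ KJ K L j) : |pr u y| ≤ T := by
  obtain ⟨a, ha, b, hb, rfl⟩ := Set.mem_add.mp hu
  obtain ⟨p, hp, rfl⟩ := Set.mem_smul_set.mp ha
  obtain ⟨l, hl, rfl⟩ := Set.mem_smul_set.mp hb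
  obtain ⟨hy1, hy2⟩ := hy
  obtain ⟨x, hx, hxy⟩ := Set.mem_smul_set.mp hy1
  obtain ⟨w, hw, hwy⟩ := Set.mem_smul_set.mp hy2
  have h1 := abs_pr_le_one_of_mem_polar hK hp hx
  have h2 := abs_pr_le_one_of_mem_polar hL hl hw
  have h2j : (0 : ℝ) < (2 : ℝ) ^ j := by positivity
  have e1 : pr p y = (2 * ((2 : ℝ) ^ j)⁻¹) * pr p x := by
    rw [← hxy, pr_smul_right]
  have e2 : pr l y = 4 * pr l w := by
    rw [← hwy, pr_smul_right]
  rw [pr_add_left, pr_smul_left, pr_smul_left, e1, e2]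
  have e3 : T * (2 : ℝ) ^ j / 4 * ((2 * ((2 : ℝ) ^ j)⁻¹) * pr p x) = T / 2 * pr p x := by
    field_simp
    ring
  have e4 : T / 8 * (4 * pr l w) = T / 2 * pr l w := by ring
  rw [e3, e4]
  have h3 : |T / 2 * pr p x + T / 2 * pr l w| ≤ |T / 2 * pr p x| + |T / 2 * pr l w| :=
    abs_add_le _ _
  rw [abs_mul, abs_mul, abs_of_nonneg (by positivity : (0 : ℝ) ≤ T / 2)] at h3
  have h4 : T / 2 * |pr p x| ≤ T / 2 * 1 := mul_le_mul_of_nonneg_left h1 (by positivity)
  have h5 : T / 2 * |pr l w| ≤ T / 2 * 1 := mul_le_mul_of_nonneg_left h2 (by positivity)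
  linarith

/-- Scaling an element of a polar by a factor in `[0,1]`. -/
lemma smul_mem_polar {K : Set (Fin n → ℝ)} {p : Fin n → ℝ} (hp : p ∈ polar K) {s : ℝ}
    (hs0 : 0 ≤ s) (hs1 : s ≤ 1) : s • p ∈ polar K := by
  intro x hx
  have h1 : ∑ i, x i * p i ≤ 1 := hp x hx
  have h2 : ∑ i, x i * (s • p) i = s * ∑ i, x i * p i := by
    rw [Finset.mul_sum]
    refine Finset.sum_congr rfl fun i _ => ?_
    simp only [Pi.smul_apply, smul_eq_mul]
    ring
  rw [h2]
  nlinarith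

/-- `UJ` contains `(T/16) K°`. -/
lemma subset_UJ {T : ℝ} (hT : 0 < T) (j : ℕ) : (T / 16) • polar K ⊆ UJ K L T j := by
  intro u hu
  obtain ⟨p, hp, rfl⟩ := Set.mem_smul_set.mp hu
  have h2j : (0 : ℝ) < (2 : ℝ) ^ j := by positivity
  have h1j : (1 : ℝ) ≤ (2 : ℝ) ^ j := one_le_pow₀ (by norm_num)
  refine Set.mem_add.mpr ⟨(T * (2 : ℝ) ^ j / 4) • ((((2 : ℝ) ^ j)⁻¹ / 4) • p), ?_, (T / 8) • 0, ?_, ?_⟩
  · refine Set.smul_mem_smul_set (smul_mem_polar hp (by positivity) ?_)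
    have : ((2 : ℝ) ^ j)⁻¹ ≤ 1 := inv_le_one_of_one_le₀ h1j
    linarith
  · exact Set.smul_mem_smul_set (zero_mem_polar L)
  · rw [smul_zero, add_zero, smul_smul]
    congr 1
    field_simp
    ring

lemma UJ_mem_nhds (hK : SymBody K) {T : ℝ} (hT : 0 < T) (j : ℕ) :
    UJ K L T j ∈ 𝓝 (0 : Fin n → ℝ) := by
  have h1 : (T / 16) • polar K ∈ 𝓝 (0 : Fin n → ℝ) :=
    (hK.polar_body.smul (by positivity)).mem_nhds_zero
  exact Filter.mem_of_superset h1 (subset_UJ hT j)

/-- (M7) `UJ` contains `(T/16) K°`, so its covering number is smaller. -/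
lemma cov_UJ_le (hK : SymBody K) (hL : SymBody L) {T : ℝ} (hT : 0 < T) (j : ℕ) :
    covNum (polar L) (UJ K L T j) ≤ covNum (polar L) ((T / 16) • polar K) := by
  exact covNum_mono_right hL.polar_body.compact
    (hK.polar_body.smul (by positivity)).mem_nhds_zero (subset_UJ hT j)

/-- (M7) If `K` is not inside `2^j L`, the covering number of `L°` by `UJ` is at least two. -/
lemma two_le_cov_UJ (hK : SymBody K) (hL : SymBody L) {T : ℝ} (hT : 0 < T) (hT1 : T < 1) {j : ℕ}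
    (hnot : ¬ K ⊆ (2 : ℝ) ^ j • L) : 2 ≤ covNum (polar L) (UJ K L T j) := by
  by_contra hlt
  obtain ⟨t, htc, ht⟩ := covNum_spec (A := polar L) (B := UJ K L T j) hL.polar_body.compact
    (UJ_mem_nhds hK hT j)
  have hcard : t.card ≤ 1 := by omega
  have hPL := hL.polar_body
  have hPK := hK.polar_body
  -- every point of the polar of `L` lies in `UJ`
  have hsub : ∀ a ∈ polar L, a ∈ UJ K L T j := by
    intro a ha
    obtain ⟨c, hc, h1⟩ := ht a ha
    obtain ⟨c', hc', h2⟩ := ht (-a) (hPL.symm a ha)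
    have hcc : c = c' := Finset.card_le_one.mp hcard c hc c' hc'
    subst hcc
    obtain ⟨u1, hu1, v1, hv1, huv1⟩ := Set.mem_add.mp h1
    obtain ⟨u2, hu2, v2, hv2, huv2⟩ := Set.mem_add.mp h2
    obtain ⟨p1, hp1, rfl⟩ := Set.mem_smul_set.mp hu1
    obtain ⟨p2, hp2, rfl⟩ := Set.mem_smul_set.mp hu2
    obtain ⟨l1, hl1, rfl⟩ := Set.mem_smul_set.mp hv1
    obtain ⟨l2, hl2, rfl⟩ := Set.mem_smul_set.mp hv2
    have hp12 : (1 / 2 : ℝ) • p1 + (1 / 2 : ℝ) • (-p2) ∈ polar K :=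
      hPK.convex hp1 (hPK.symm p2 hp2) (by norm_num) (by norm_num) (by norm_num)
    have hl12 : (1 / 2 : ℝ) • l1 + (1 / 2 : ℝ) • (-l2) ∈ polar L :=
      hPL.convex hl1 (hPL.symm l2 hl2) (by norm_num) (by norm_num) (by norm_num)
    refine Set.mem_add.mpr ⟨_, Set.smul_mem_smul_set hp12, _, Set.smul_mem_smul_set hl12, ?_⟩
    funext i
    have e1 := congrFun huv1 i
    have e2 := congrFun huv2 i
    simp only [Pi.add_apply, Pi.smul_apply, smul_eq_mul, Pi.sub_apply, Pi.neg_apply] at e1 e2 ⊢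
    linarith
  -- a point of `K` outside `2^j L`
  obtain ⟨x, hx, hxn⟩ := Set.not_subset.mp hnot
  have h2j : (0 : ℝ) < (2 : ℝ) ^ j := by positivity
  have hxn' : ((2 : ℝ) ^ j)⁻¹ • x ∉ L := by
    intro h
    apply hxn
    refine Set.mem_smul_set.mpr ⟨_, h, ?_⟩
    rw [smul_smul, mul_inv_cancel₀ h2j.ne', one_smul]
  obtain ⟨z0, hz0, hz01⟩ := hL.exists_polar_gt hxn'
  rw [pr_smul_right] at hz01
  have hz02 : (2 : ℝ) ^ j < pr z0 x := by
    have := mul_lt_mul_of_pos_left hz01 h2j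
    rwa [mul_one, ← mul_assoc, mul_inv_cancel₀ h2j.ne', one_mul] at this
  -- the norming functional
  obtain ⟨z, hz, hzmax⟩ := hPL.compact.exists_isMaxOn ⟨z0, hz0⟩
    ((continuous_pr_left x).continuousOn)
  have hzmax' : ∀ w ∈ polar L, pr w x ≤ pr z x := fun w hw => hzmax hw
  have hR : (2 : ℝ) ^ j < pr z x := lt_of_lt_of_le hz02 (hzmax' z0 hz0)
  obtain ⟨u, hu, v, hv, huv⟩ := Set.mem_add.mp (hsub z hz)
  obtain ⟨p, hp, rfl⟩ := Set.mem_smul_set.mp hu
  obtain ⟨l, hl, rfl⟩ := Set.mem_smul_set.mp hv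
  have e : pr z x = T * (2 : ℝ) ^ j / 4 * pr p x + T / 8 * pr l x := by
    rw [← huv, pr_add_left, pr_smul_left, pr_smul_left]
  have h1 : pr p x ≤ 1 := by
    have := hp x hx
    rw [pr_comm]
    exact this
  have h2 : pr l x ≤ pr z x := hzmax' l hl
  have hRpos : 0 < pr z x := lt_trans h2j hR
  have h3 : T * (2 : ℝ) ^ j / 4 * pr p x ≤ T * (2 : ℝ) ^ j / 4 * 1 :=
    mul_le_mul_of_nonneg_left h1 (by positivity)
  have h4 : T / 8 * pr l x ≤ T / 8 * pr z x :=
    mul_le_mul_of_nonneg_left h2 (by positivity)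
  have h5 : T * (2 : ℝ) ^ j < T * pr z x := mul_lt_mul_of_pos_left hR hT
  have h6 : T * pr z x < pr z x := by nlinarith
  linarith

/-- (M7) From the core bound to covering numbers at one scale. -/
theorem core_to_cov (hK : SymBody K) (hL : SymBody L) {T : ℝ} (hT : 0 < T) {r : ℕ} (hr : 1 ≤ r)
    (hTr : 128 * (r : ℝ) * T ≤ 1) (j : ℕ)
    (h2r : 2 * Real.log (covNum (polar L) (UJ K L T j)) + 6 ≤ (2 : ℝ) ^ r) :
    Real.log (covNum (KJ K L j) L) ≤
      ((r : ℝ) + 600000) * (Real.log (covNum (polar L) (UJ K L T j)) + 2) := by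
  classical
  set N := covNum (polar L) (UJ K L T j) with hN
  set q := Real.log (N : ℝ) with hq
  have hq0 : 0 ≤ q := Real.log_natCast_nonneg N
  have hPL := hL.polar_body
  have h0P : (0 : Fin n → ℝ) ∈ polar L := zero_mem_polar L
  obtain ⟨t, htc, ht⟩ := covNum_spec (A := polar L) (B := UJ K L T j) hPL.compact
    (UJ_mem_nhds hK hT j)
  -- the net inside the polar of `L`
  have hchoose : ∀ c ∈ t, ∃ z : Fin n → ℝ, (∃ a ∈ polar L, a - c ∈ UJ K L T j) →
      (z ∈ polar L ∧ z - c ∈ UJ K L T j) := by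
    intro c _
    by_cases h : ∃ a ∈ polar L, a - c ∈ UJ K L T j
    · obtain ⟨a, ha, hac⟩ := h
      exact ⟨a, fun _ => ⟨ha, hac⟩⟩
    · exact ⟨0, fun h' => absurd h' h⟩
  choose! zc hzc using hchoose
  let Z : Finset (Fin n → ℝ) := (t.filter fun c => ∃ a ∈ polar L, a - c ∈ UJ K L T j).image zc
  have hZsub : ∀ c ∈ Z, c ∈ polar L := by
    intro c hc
    obtain ⟨c0, hc0, rfl⟩ := Finset.mem_image.mp hc
    have h1 := Finset.mem_filter.mp hc0
    exact (hzc c0 h1.1 h1.2).1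
  have hnet : Net (polar L) (KJ K L j) Z (2 * T) := by
    refine ⟨hZsub, fun a ha => ?_⟩
    obtain ⟨c, hc, hac⟩ := ht a ha
    have hc1 : ∃ a ∈ polar L, a - c ∈ UJ K L T j := ⟨a, ha, hac⟩
    refine ⟨zc c, Finset.mem_image.mpr ⟨c, Finset.mem_filter.mpr ⟨hc, hc1⟩, rfl⟩, fun y hy => ?_⟩
    have h1 := abs_pr_le_of_mem_UJ hK hL hT.le hac hy
    have h2 := abs_pr_le_of_mem_UJ hK hL hT.le (hzc c hc hc1).2 hy
    have e : pr (a - zc c) y = pr (a - c) y - pr (zc c - c) y := by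
      rw [pr_sub_left, pr_sub_left, pr_sub_left]
      ring
    rw [e]
    calc |pr (a - c) y - pr (zc c - c) y| ≤ |pr (a - c) y| + |pr (zc c - c) y| := abs_sub _ _
      _ ≤ 2 * T := by linarith
  have hZcard : (Z.card : ℝ) ≤ Real.exp q := by
    have h1 : Z.card ≤ t.card :=
      le_trans Finset.card_image_le (Finset.card_filter_le _ _)
    have htc' : t.card = N := htc
    have hNpos : 0 < N := by
      obtain ⟨c, hc, -⟩ := ht 0 h0P
      rw [← htc']
      exact Finset.card_pos.mpr ⟨c, hc⟩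
    rw [hq, Real.exp_log (by exact_mod_cast hNpos)]
    rw [htc'] at h1
    exact_mod_cast h1
  have hR : ∀ z ∈ polar L, ∀ y ∈ KJ K L j, |pr z y| ≤ 4 := by
    intro z hz y hy
    obtain ⟨w, hw, rfl⟩ := Set.mem_smul_set.mp hy.2
    rw [pr_smul_right, abs_mul, abs_of_pos (by norm_num : (0 : ℝ) < 4)]
    have := abs_pr_le_one_of_mem_polar hL hz hw
    linarith
  -- separated sets are small
  have hcore : ∀ S : Finset (Fin n → ℝ), (∀ y ∈ S, y ∈ KJ K L j) →
      (∀ x ∈ S, ∀ x' ∈ S, x ≠ x' → x - x' ∉ L) →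
      Real.log S.card ≤ ((r : ℝ) + 600000) * (q + 2) := by
    intro S hSK hS
    refine core_bound hPL.compact hPL.convex hPL.symm ⟨0, h0P⟩ hnet (by positivity) hr ?_ hq0
      hZcard h2r hR hSK ?_
    · linarith
    · intro x hx x' hx' hne
      obtain ⟨z, hz, hz1⟩ := hL.exists_polar_gt (hS x hx x' hx' hne)
      refine ⟨z, hz, ?_⟩
      rwa [pr_sub_right] at hz1
  have hBnn : 0 ≤ ((r : ℝ) + 600000) * (q + 2) := by positivity
  -- a separated set of largest size
  let good : ℕ → Prop := fun k => ∃ S : Finset (Fin n → ℝ), S.card = k ∧ (∀ y ∈ S, y ∈ KJ K L j) ∧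
    (∀ x ∈ S, ∀ x' ∈ S, x ≠ x' → x - x' ∉ L)
  have hgood0 : good 0 := ⟨∅, rfl, by simp, by simp⟩
  have hbdd : ∃ M : ℕ, ∀ k, good k → k ≤ M := by
    refine ⟨⌈Real.exp (((r : ℝ) + 600000) * (q + 2))⌉₊, fun k hk => ?_⟩
    obtain ⟨S, rfl, hS1, hS2⟩ := hk
    by_cases hS0 : S.card = 0
    · rw [hS0]
      exact Nat.zero_le _
    have hpos : (0 : ℝ) < S.card := by exact_mod_cast Nat.pos_of_ne_zero hS0
    have h1 := hcore S hS1 hS2
    have h2 : (S.card : ℝ) ≤ Real.exp (((r : ℝ) + 600000) * (q + 2)) := by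
      rw [← Real.exp_log hpos]
      exact Real.exp_le_exp.mpr h1
    exact_mod_cast h2.trans (Nat.le_ceil _)
  obtain ⟨M, hM⟩ := hbdd
  have hmax : ∃ k, good k ∧ ∀ k', good k' → k' ≤ k := by
    have h := Nat.findGreatest_spec (P := good) (hM 0 hgood0) hgood0
    refine ⟨Nat.findGreatest good M, h, fun k' hk' => ?_⟩
    exact Nat.le_findGreatest (hM k' hk') hk'
  obtain ⟨k, ⟨S, hSk, hS1, hS2⟩, hkmax⟩ := hmax
  have hcover : ∀ a ∈ KJ K L j, ∃ c ∈ S, a - c ∈ L := by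
    intro a ha
    by_contra hno
    push Not at hno
    have haS : a ∉ S := by
      intro h
      have := hno a h
      rw [sub_self] at this
      exact this hL.zero_mem
    have h1 : good (insert a S).card := by
      refine ⟨insert a S, rfl, ?_, ?_⟩
      · intro y hy
        rcases Finset.mem_insert.mp hy with rfl | hy
        · exact ha
        · exact hS1 y hy
      · intro x hx x' hx' hne
        rcases Finset.mem_insert.mp hx with hxa | hxS
        · rcases Finset.mem_insert.mp hx' with hxa' | hxS'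
          · exact absurd (hxa.trans hxa'.symm) hne
          · rw [hxa]
            exact hno x' hxS'
        · rcases Finset.mem_insert.mp hx' with hxa' | hxS'
          · intro h
            have h2 := hL.symm _ h
            rw [neg_sub, hxa'] at h2
            exact hno x hxS h2
          · exact hS2 x hxS x' hxS' hne
    have h2 := hkmax _ h1
    rw [Finset.card_insert_of_notMem haS, hSk] at h2
    omega
  have hcov : covNum (KJ K L j) L ≤ S.card := covNum_le_card S hcover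
  have hlog : Real.log S.card ≤ ((r : ℝ) + 600000) * (q + 2) := hcore S hS1 hS2
  by_cases hc0 : covNum (KJ K L j) L = 0
  · rw [hc0]
    simpa using hBnn
  · have hpos : (0 : ℝ) < covNum (KJ K L j) L := by exact_mod_cast Nat.pos_of_ne_zero hc0
    exact le_trans (Real.log_le_log hpos (by exact_mod_cast hcov)) hlog

end Vale.Agent.Lib.P126G
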