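import Vale.Agent.Lib.P126G.Stage
import Vale.Agent.Lib.P126G.Core
import Vale.Agent.Lib.P126G.ToCov

open scoped BigOperators Pointwise

namespace Vale.Agent.Lib.P126G

open Vale.Agent.Lib.P126U (polar covNum)

variable {n : ℕ} {P K : Set (Fin n → ℝ)} {Z : Finset (Fin n → ℝ)} {T : ℝ}

/-- The core bound with `s` stages of ratio `κ`: separated sets are small when the net has size
`≤ e^q` at scale `T ≤ 1/(64 (s+1))`, where `κ^s ≥ q+3`. -/
theorem core_bound_stage (hPc : IsCompact P) (hPconv : Convex ℝ P) (hPsym : ∀ z ∈ P, -z ∈ P)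
    (hPne : P.Nonempty) (hZ : Net P K Z T) (hT : 0 < T) {s κ : ℕ} (hκ : 1 ≤ κ)
    (hTs : 64 * ((s : ℝ) + 1) * T ≤ 1) {q : ℝ} (hq : 0 ≤ q) (hcard : (Z.card : ℝ) ≤ Real.exp q)
    (hκs : q + 3 ≤ (κ : ℝ) ^ s) (hR : ∀ z ∈ P, ∀ y ∈ K, |pr z y| ≤ 4)
    {S : Finset (Fin n → ℝ)} (hSK : ∀ y ∈ S, y ∈ K)
    (hsep : ∀ x ∈ S, ∀ x' ∈ S, x ≠ x' → ∃ z ∈ P, 1 < pr z x - pr z x') :
    Real.log S.card ≤ ((s : ℝ) * κ + 600001) * (q + 2) := by
  classical
  obtain ⟨z₀, hz₀⟩ := hPne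
  obtain ⟨c₀, hc₀, _⟩ := hZ.net z₀ hz₀
  have hZne : Z.Nonempty := ⟨c₀, hc₀⟩
  have hZposN : 0 < Z.card := hZne.card_pos
  have hZpos : (0 : ℝ) < Z.card := by exact_mod_cast hZposN
  have hlogZ : Real.log Z.card ≤ q := by
    rw [Real.log_le_iff_le_exp hZpos]
    exact hcard
  have hκ0 : (0 : ℝ) < κ := by exact_mod_cast hκ
  have hs0 : (0 : ℝ) ≤ s := by positivity
  have hT64 : 64 * T ≤ 1 := by nlinarith
  have hrhs : 0 ≤ q + 2 := by linarith
  have hκnn : (0 : ℝ) ≤ (s : ℝ) * κ := by positivity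
  by_cases hS : 4 * Z.card ≤ S.card
  · -- main case
    have hSpos : (0 : ℝ) < S.card := by
      have : 0 < S.card := by omega
      exact_mod_cast this
    have hΔ : 2 * Real.log Z.card + 6 ≤ 2 * q + 6 := by linarith
    obtain ⟨S₁, hS₁, hS₁ne, hc₁, ν₁, h1, h2, h3⟩ :=
      top_step hPc hPconv hPsym ⟨z₀, hz₀⟩ hZ hT hSK hS hZne hΔ
    obtain ⟨S₂, hS₂, hS₂ne, hc₂, ν₂, h4, h5, h6⟩ :=
      iterate_stages hPc hPconv hPsym ⟨z₀, hz₀⟩ hZ hT hSK hκ s h1 h2 hS₁ hS₁ne
        (by linarith : (0 : ℝ) < (2 * q + 6) / 2) h3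
    have h7 : ∀ x ∈ S₂, Rep P S ν₂ 1 (1 / 8) x := by
      intro x hx
      refine (h6 x hx).mono ?_ ?_
      · have hpos : (0 : ℝ) < (κ : ℝ) ^ s := by positivity
        rw [div_le_iff₀ hpos, one_mul]
        linarith
      · nlinarith
    have hsep' : ∀ x ∈ S₂, ∀ x' ∈ S₂, x ≠ x' → ∃ c ∈ Z, 7 / 8 ≤ |pr c x - pr c x'| := by
      intro x hx x' hx' hne
      have hxS := hS₁ (hS₂ hx)
      have hx'S := hS₁ (hS₂ hx')
      obtain ⟨z, hz, hzgt⟩ := hsep x hxS x' hx'S hne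
      obtain ⟨c, hc, hcz⟩ := hZ.net z hz
      refine ⟨c, hc, ?_⟩
      have h8 := abs_le.mp (hcz x (hSK x hxS))
      have h9 := abs_le.mp (hcz x' (hSK x' hx'S))
      rw [pr_sub_left] at h8 h9
      refine le_trans ?_ (le_abs_self _)
      linarith [h8.1, h8.2, h9.1, h9.2]
    have h10 := final_count (S := S) (ν := ν₂) (S' := S₂) hZ.sub h4 h5
      (fun c hc y hy => hR c (hZ.sub c hc) y (hSK y hy)) hq hcard h7 hsep'
    have hS₂pos : (0 : ℝ) < S₂.card := by exact_mod_cast hS₂ne.card_pos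
    have hcount : (S.card : ℝ) ≤ (2 * (Z.card : ℝ)) ^ (κ * s + 1) * S₂.card := by
      have h11 : S.card ≤ (2 * Z.card) ^ (κ * s + 1) * S₂.card := by
        calc S.card ≤ 2 * Z.card * S₁.card := hc₁
          _ ≤ 2 * Z.card * ((2 * Z.card) ^ (κ * s) * S₂.card) := Nat.mul_le_mul_left _ hc₂
          _ = (2 * Z.card) ^ (κ * s + 1) * S₂.card := by ring
      exact_mod_cast h11
    have hlog2 : Real.log 2 ≤ 1 := by
      have := Real.log_two_lt_d9
      linarith
    have hlog : Real.log S.card ≤ ((κ * s + 1 : ℕ) : ℝ) * (Real.log 2 + q) + Real.log S₂.card := by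
      have hZr : (0 : ℝ) < (2 * (Z.card : ℝ)) ^ (κ * s + 1) := by positivity
      calc Real.log S.card ≤ Real.log ((2 * (Z.card : ℝ)) ^ (κ * s + 1) * S₂.card) :=
            Real.log_le_log hSpos hcount
        _ = ((κ * s + 1 : ℕ) : ℝ) * (Real.log 2 + Real.log Z.card) + Real.log S₂.card := by
            rw [Real.log_mul hZr.ne' hS₂pos.ne', Real.log_pow,
              Real.log_mul (by norm_num) hZpos.ne']
        _ ≤ ((κ * s + 1 : ℕ) : ℝ) * (Real.log 2 + q) + Real.log S₂.card := by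
            have := mul_le_mul_of_nonneg_left (by linarith : Real.log 2 + Real.log Z.card ≤
              Real.log 2 + q) (by positivity : (0 : ℝ) ≤ ((κ * s + 1 : ℕ) : ℝ))
            linarith
    push_cast at hlog
    have h12 : ((κ : ℝ) * s + 1) * (Real.log 2 + q) ≤ ((κ : ℝ) * s + 1) * (q + 2) :=
      mul_le_mul_of_nonneg_left (by linarith) (by positivity)
    nlinarith
  · -- few points
    rw [not_le] at hS
    have h1 : (S.card : ℝ) ≤ 4 * Z.card := by exact_mod_cast hS.le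
    rcases S.eq_empty_or_nonempty with rfl | hSne
    · simp only [Finset.card_empty, Nat.cast_zero, Real.log_zero]
      positivity
    have hSpos : (0 : ℝ) < S.card := by exact_mod_cast hSne.card_pos
    have h2 : Real.log S.card ≤ Real.log 4 + Real.log Z.card := by
      rw [← Real.log_mul (by norm_num) hZpos.ne']
      exact Real.log_le_log hSpos h1
    have h3 : Real.log 4 ≤ 2 := by
      have h4 : Real.log 4 = 2 * Real.log 2 := by
        rw [show (4 : ℝ) = 2 ^ 2 by norm_num, Real.log_pow]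
        norm_num
      have := Real.log_two_lt_d9
      linarith
    nlinarith

end Vale.Agent.Lib.P126G
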