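import Vale.Agent.Lib.P126G.Tilt

open scoped BigOperators Pointwise

namespace Vale.Agent.Lib.P126G

variable {n : ℕ} {P K : Set (Fin n → ℝ)} {Z : Finset (Fin n → ℝ)} {T : ℝ}
  {S : Finset (Fin n → ℝ)} {ν : (Fin n → ℝ) → ℝ}

/-- Pigeonhole in the multiplicative form. -/
lemma pigeon {α β : Type*} [DecidableEq β] (s : Finset α) (t : Finset β) (f : α → β)
    (hf : ∀ a ∈ s, f a ∈ t) (ht : t.Nonempty) :
    ∃ b ∈ t, s.card ≤ t.card * (s.filter fun a => f a = b).card := by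
  obtain ⟨b, hb, hmax⟩ := Finset.exists_max_image t (fun b => (s.filter fun a => f a = b).card) ht
  refine ⟨b, hb, ?_⟩
  rw [Finset.card_eq_sum_card_fiberwise hf]
  calc ∑ b' ∈ t, (s.filter fun a => f a = b').card
      ≤ ∑ _b' ∈ t, (s.filter fun a => f a = b).card := Finset.sum_le_sum hmax
    _ = t.card * (s.filter fun a => f a = b).card := by simp

/-- Same net cell: the exponents differ by at most `2T`. -/
lemma cell_close (hSK : ∀ y ∈ S, y ∈ K) {z z' c : Fin n → ℝ} (h : ∀ y ∈ K, |pr (z - c) y| ≤ T)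
    (h' : ∀ y ∈ K, |pr (z' - c) y| ≤ T) : ∀ y ∈ S, |pr z y - pr z' y| ≤ 2 * T := by
  intro y hy
  have h1 := h y (hSK y hy)
  have h2 := h' y (hSK y hy)
  rw [pr_sub_left] at h1 h2
  rw [abs_le] at h1 h2 ⊢
  constructor <;> linarith [h1.1, h1.2, h2.1, h2.2]

/-- (M2) One level: every point of `S'` is represented with `(Δ, ρ)`. After a pigeonhole on the net
there is `S'' ⊆ S'` (density `1/|Z|`) and new weights `ν'` such that every point of `S''` is
represented with `(4 T Δ/δ, ρ+δ)`. -/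
theorem level_step (hPc : IsCompact P) (hPconv : Convex ℝ P) (hPsym : ∀ z ∈ P, -z ∈ P)
    (hPne : P.Nonempty) (hZ : Net P K Z T) (hT : 0 ≤ T) (hSK : ∀ y ∈ S, y ∈ K)
    (hν : ∀ y ∈ S, 0 ≤ ν y) (hν1 : ∑ y ∈ S, ν y = 1) {S' : Finset (Fin n → ℝ)} (hS'S : S' ⊆ S)
    (hS'ne : S'.Nonempty) {Δ ρ δ : ℝ} (hΔ : 0 < Δ) (hδ : 0 < δ)
    (hrep : ∀ x ∈ S', Rep P S ν Δ ρ x) :
    ∃ S'' ⊆ S', S''.Nonempty ∧ S'.card ≤ Z.card * S''.card ∧
      ∃ ν' : (Fin n → ℝ) → ℝ, (∀ y ∈ S, 0 ≤ ν' y) ∧ ∑ y ∈ S, ν' y = 1 ∧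
        ∀ x ∈ S'', Rep P S ν' (4 * T * (Δ / δ)) (ρ + δ) x := by
  classical
  set β := Δ / δ with hβdef
  have hβ : 0 < β := div_pos hΔ hδ
  choose z hzP hmin hfo hjen using fun x => tilt_exists (S := S) (ν := ν) hPc hPconv hPne hν hν1 x hβ
  choose c hcZ hc using fun x => hZ.net (z x) (hzP x)
  have hZne : Z.Nonempty := ⟨c 0, hcZ 0⟩
  obtain ⟨c₀, _, hcard⟩ := pigeon S' Z c (fun a _ => hcZ a) hZne
  set F := S'.filter fun a => c a = c₀ with hF
  have hFne : F.Nonempty := by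
    by_contra hcon
    rw [Finset.not_nonempty_iff_eq_empty] at hcon
    rw [hcon] at hcard
    simp only [Finset.card_empty, mul_zero, nonpos_iff_eq_zero, Finset.card_eq_zero] at hcard
    exact hS'ne.ne_empty hcard
  obtain ⟨x₀, hx₀⟩ := hFne
  refine ⟨F, Finset.filter_subset _ _, ⟨x₀, hx₀⟩, hcard, fun y => ν y * gF S ν β (z x₀) y,
    tilted_nonneg hν hν1 β _, sum_gF hν hν1 β _, fun x hx => ?_⟩
  have hxS' : x ∈ S' := (Finset.mem_filter.mp hx).1
  have hcx : c x = c₀ := (Finset.mem_filter.mp hx).2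
  have hcx₀ : c x₀ = c₀ := (Finset.mem_filter.mp hx₀).2
  have hclose : ∀ y ∈ S, |pr (z x) y - pr (z x₀) y| ≤ 2 * T :=
    cell_close hSK (c := c₀) (by rw [← hcx]; exact hc x) (by rw [← hcx₀]; exact hc x₀)
  -- the barycentre error of the new tilt
  set ρ' := pr (z x) x - ∑ y ∈ S, ν y * gF S ν β (z x) y * pr (z x) y with hρ'
  have hlow := gG_lower_of_rep hν (hrep x hxS') hβ (hzP x)
  have hup := hjen x
  have hexp : -Δ - β * ρ ≤ -β * ρ' := Real.exp_le_exp.mp (hlow.trans hup)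
  have hρ'le : ρ' ≤ ρ + δ := by
    have h1 : β * ρ' ≤ Δ + β * ρ := by linarith
    have h2 : Δ = β * δ := by
      rw [hβdef]
      field_simp
    rw [h2] at h1
    have h3 : β * ρ' ≤ β * (ρ + δ) := by linarith
    exact le_of_mul_le_mul_left h3 hβ
  have hall : ∀ w ∈ P, |pr w x - ∑ y ∈ S, ν y * gF S ν β (z x) y * pr w y| ≤ ρ + δ := by
    intro w hw
    have h1 := hfo x w hw
    have h2 := hfo x (-w) (hPsym w hw)
    have h3 : pr (-w) x - ∑ y ∈ S, ν y * gF S ν β (z x) y * pr (-w) y =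
        -(pr w x - ∑ y ∈ S, ν y * gF S ν β (z x) y * pr w y) := by
      have : ∑ y ∈ S, ν y * gF S ν β (z x) y * pr (-w) y =
          - ∑ y ∈ S, ν y * gF S ν β (z x) y * pr w y := by
        rw [← Finset.sum_neg_distrib]
        refine Finset.sum_congr rfl fun y _ => ?_
        rw [pr_neg_left]
        ring
      rw [this, pr_neg_left]
      ring
    rw [h3] at h2
    rw [abs_le]
    constructor <;> linarith
  have hrep' := rep_of_tilt hν hν1 hβ hclose hall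
  have heq : 2 * β * (2 * T) = 4 * T * (Δ / δ) := by
    rw [hβdef]
    ring
  rw [heq] at hrep'
  exact hrep'

end Vale.Agent.Lib.P126G
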