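import Vale.Agent.Lib.P126G.Body

open scoped BigOperators Pointwise Topology

namespace Vale.Agent.Lib.P126G

open Vale.Agent.Lib.P126U (polar covNum)

variable {n : ℕ} {K L : Set (Fin n → ℝ)}

/-- Separated sets exist up to the covering number. -/
lemma exists_sep {A U : Set (Fin n → ℝ)} (h0 : (0 : Fin n → ℝ) ∈ U) (hU : ∀ x ∈ U, -x ∈ U) (k : ℕ)
    (hk : k ≤ covNum A U) :
    ∃ Y : Finset (Fin n → ℝ), Y.card = k ∧ (∀ y ∈ Y, y ∈ A) ∧
      ∀ y ∈ Y, ∀ y' ∈ Y, y ≠ y' → y - y' ∉ U := by
  classical
  induction k with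
  | zero => exact ⟨∅, rfl, by simp, by simp⟩
  | succ k ih =>
    obtain ⟨Y, hcard, hA, hsep⟩ := ih (by omega)
    have hnot : ¬ ∀ a ∈ A, ∃ c ∈ Y, a - c ∈ U := by
      intro hcov
      have := covNum_le_card Y hcov
      omega
    push Not at hnot
    obtain ⟨a, haA, ha⟩ := hnot
    have haY : a ∉ Y := by
      intro h
      have := ha a h
      simp only [sub_self] at this
      exact this h0
    refine ⟨insert a Y, by rw [Finset.card_insert_of_notMem haY, hcard], ?_, ?_⟩
    · intro y hy
      rcases Finset.mem_insert.mp hy with rfl | hy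
      · exact haA
      · exact hA y hy
    · intro y hy y' hy' hne
      rcases Finset.mem_insert.mp hy with h1 | h1
      · rcases Finset.mem_insert.mp hy' with h2 | h2
        · exact absurd (h1.trans h2.symm) hne
        · rw [h1]
          exact ha y' h2
      · rcases Finset.mem_insert.mp hy' with h2 | h2
        · rw [h2]
          intro hmem
          have := hU _ hmem
          rw [neg_sub] at this
          exact ha y h1 this
        · exact hsep y h1 y' h2 hne

/-- Star-shapedness of a symmetric body with respect to scaling. -/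
lemma SymBody.smul_subset (hX : SymBody K) {r r' : ℝ} (hr : 0 ≤ r) (hr' : 0 < r') (hrr : r ≤ r') :
    r • K ⊆ r' • K := by
  rintro _ ⟨x, hx, rfl⟩
  refine ⟨(r / r') • x, hX.convex.smul_mem_of_zero_mem hX.zero_mem hx
    ⟨by positivity, by rw [div_le_one hr']; exact hrr⟩, ?_⟩
  simp only [smul_smul]
  congr 1
  field_simp

/-- The inductive construction of the separated set. -/
lemma exists_levels (hK : SymBody K) (hL : SymBody L) {T : ℝ} (hT : 0 < T) (hT1 : T ≤ 1) {m : ℕ}
    (hm : 32 ≤ (2 : ℝ) ^ m * T) (j₀ : ℕ) (u i₀ : ℕ) :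
    ∃ P : Finset (Fin n → ℝ),
      P.card = ∏ i ∈ Finset.range u, covNum (polar L) (UJ K L T (j₀ + (i₀ + i) * m)) ∧
      (∀ p ∈ P, p ∈ polar L) ∧
      ∀ p ∈ P, ∀ p' ∈ P, p ≠ p' →
        p - p' ∉ ((1 - T / 32) * (T * (2 : ℝ) ^ (j₀ + i₀ * m) / 4)) • polar K := by
  classical
  have hA := hL.polar_body
  have hC := hK.polar_body
  induction u generalizing i₀ with
  | zero =>
    refine ⟨{0}, by simp, ?_, ?_⟩
    · intro p hp
      rw [Finset.mem_singleton.mp hp]
      exact hA.zero_mem
    · intro p hp p' hp' hne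
      rw [Finset.mem_singleton.mp hp, Finset.mem_singleton.mp hp'] at hne
      exact absurd rfl hne
  | succ u ih =>
    obtain ⟨Q, hQcard, hQA, hQsep⟩ := ih (i₀ + 1)
    set τ : ℝ := T / 32 with hτ
    have hτ0 : 0 < τ := by positivity
    have hτ1 : τ ≤ 1 / 32 := by rw [hτ]; linarith
    have hTτ : T = 32 * τ := by rw [hτ]; ring
    set a : ℝ := T * (2 : ℝ) ^ (j₀ + i₀ * m) / 4 with ha
    have ha0 : 0 < a := by positivity
    have ha' : T * (2 : ℝ) ^ (j₀ + (i₀ + 1) * m) / 4 = a * 2 ^ m := by
      rw [ha, show j₀ + (i₀ + 1) * m = (j₀ + i₀ * m) + m by ring, pow_add]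
      ring
    rw [ha'] at hQsep
    have hτm : 1 ≤ (2 : ℝ) ^ m * τ := by rw [hτ]; linarith
    -- the separated set at the present level
    have hUeq : UJ K L T (j₀ + (i₀ + 0) * m) = a • polar K + (T / 8) • polar L := rfl
    set U := UJ K L T (j₀ + (i₀ + 0) * m) with hU
    have hU0 : (0 : Fin n → ℝ) ∈ U := by
      rw [hUeq]
      refine Set.mem_add.mpr ⟨0, ⟨0, hC.zero_mem, by simp⟩, 0, ⟨0, hA.zero_mem, by simp⟩, by simp⟩
    have hUsymm : ∀ x ∈ U, -x ∈ U := by
      intro x hx
      rw [hUeq] at hx ⊢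
      obtain ⟨x₁, ⟨c, hc, rfl⟩, x₂, ⟨b, hb, rfl⟩, rfl⟩ := Set.mem_add.mp hx
      refine Set.mem_add.mpr ⟨_, ⟨-c, hC.symm c hc, rfl⟩, _, ⟨-b, hA.symm b hb, rfl⟩, ?_⟩
      simp only [smul_neg]
      abel
    obtain ⟨Y, hYcard, hYA, hYsep⟩ := exists_sep (A := polar L) hU0 hUsymm _ le_rfl
    clear_value τ a
    have h1τ : 0 < 1 - τ := by linarith
    -- the key separation
    have key : ∀ y ∈ Y, ∀ q ∈ Q, ∀ y' ∈ Y, ∀ q' ∈ Q, (y, q) ≠ (y', q') →
        ((1 - τ) • y + τ • q) - ((1 - τ) • y' + τ • q') ∉ ((1 - τ) * a) • polar K := by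
      intro y hy q hq y' hy' q' hq' hne hmem
      obtain ⟨c, hc, hce⟩ := hmem
      have hce' : ((1 - τ) * a) • c = ((1 - τ) • y + τ • q) - ((1 - τ) • y' + τ • q') := hce
      have hcomp : ∀ i, (1 - τ) * (y i - y' i) + τ * (q i - q' i) = (1 - τ) * a * c i := by
        intro i
        have := congrFun hce' i
        simp only [Pi.smul_apply, Pi.add_apply, Pi.sub_apply, smul_eq_mul] at this
        linarith
      by_cases hyy : y = y'
      · -- same first coordinate
        subst hyy
        have hqq : q ≠ q' := by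
          intro h
          exact hne (by rw [h])
        apply hQsep q hq q' hq' hqq
        refine hC.smul_subset (r := (1 - τ) * a / τ) (by positivity) (by positivity) ?_
          ⟨c, hc, ?_⟩
        · rw [div_le_iff₀ hτ0]
          have h2 : 0 < (1 - τ) * a := by positivity
          nlinarith
        · funext i
          have := hcomp i
          simp only [Pi.smul_apply, smul_eq_mul, Pi.sub_apply]
          rw [div_mul_eq_mul_div, div_eq_iff hτ0.ne']
          linear_combination -this
      · -- different first coordinates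
        apply hYsep y hy y' hy' hyy
        rw [hUeq]
        have hqA := hQA q hq
        have hqA' := hQA q' hq'
        set d : Fin n → ℝ := (1 / 2 : ℝ) • q + (1 / 2 : ℝ) • (-q') with hd
        have hdA : d ∈ polar L := hA.convex hqA (hA.symm _ hqA') (by norm_num) (by norm_num)
          (by norm_num)
        set κ : ℝ := (1 / 2) / (1 - τ) with hκ
        have hκ0 : 0 ≤ κ := by positivity
        have hκ1 : κ ≤ 1 := by
          rw [hκ, div_le_one h1τ]
          linarith
        have heA : κ • (-d) ∈ polar L :=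
          hA.convex.smul_mem_of_zero_mem hA.zero_mem (hA.symm _ hdA) ⟨hκ0, hκ1⟩
        refine Set.mem_add.mpr ⟨_, ⟨c, hc, rfl⟩, _, ⟨_, heA, rfl⟩, ?_⟩
        funext i
        have := hcomp i
        have e1 : y i - y' i = a * c i - τ * (q i - q' i) / (1 - τ) := by
          field_simp
          linear_combination this
        simp only [Pi.smul_apply, Pi.add_apply, Pi.sub_apply, smul_eq_mul, hd, hκ, Pi.neg_apply]
        rw [e1, hTτ]
        field_simp
        ring
    have hinj : Set.InjOn (fun p : (Fin n → ℝ) × (Fin n → ℝ) => (1 - τ) • p.1 + τ • p.2)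
        (Y ×ˢ Q : Finset _) := by
      rintro ⟨y, q⟩ h ⟨y', q'⟩ h' e
      by_contra hne
      have h1 := Finset.mem_product.mp (Finset.mem_coe.mp h)
      have h2 := Finset.mem_product.mp (Finset.mem_coe.mp h')
      apply key y h1.1 q h1.2 y' h2.1 q' h2.2 hne
      have e' : (1 - τ) • y + τ • q = (1 - τ) • y' + τ • q' := e
      rw [e', sub_self]
      exact ⟨0, hC.zero_mem, by simp⟩
    refine ⟨(Y ×ˢ Q).image (fun p => (1 - τ) • p.1 + τ • p.2), ?_, ?_, ?_⟩
    · rw [Finset.card_image_of_injOn hinj, Finset.card_product, hYcard, hQcard,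
        Finset.prod_range_succ', mul_comm]
      congr 1
      refine Finset.prod_congr rfl fun i _ => ?_
      rw [show i₀ + 1 + i = i₀ + (i + 1) by omega]
    · intro p hp
      obtain ⟨⟨y, q⟩, hyq, rfl⟩ := Finset.mem_image.mp hp
      have h1 := Finset.mem_product.mp hyq
      exact hA.convex (hYA y h1.1) (hQA q h1.2) h1τ.le hτ0.le (by ring)
    · intro p hp p' hp' hne
      obtain ⟨⟨y, q⟩, hyq, rfl⟩ := Finset.mem_image.mp hp
      obtain ⟨⟨y', q'⟩, hyq', rfl⟩ := Finset.mem_image.mp hp'
      have h1 := Finset.mem_product.mp hyq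
      have h2 := Finset.mem_product.mp hyq'
      refine key y h1.1 q h1.2 y' h2.1 q' h2.2 ?_
      intro h
      apply hne
      rw [h]

/-- (M8) Superadditivity along a geometric progression of scales: nested convex combinations
`∑ (1-τ) τ^i y_i` of separated sets at the scales `j₀ + i m`, with `τ = T/32`, `2^m τ ≥ 1`. -/
theorem sum_lemma (hK : SymBody K) (hL : SymBody L) {T : ℝ} (hT : 0 < T) (hT1 : T ≤ 1) {m : ℕ}
    (hm : 32 ≤ (2 : ℝ) ^ m * T) (j₀ u : ℕ) :
    ∑ i ∈ Finset.range u, Real.log (covNum (polar L) (UJ K L T (j₀ + i * m))) ≤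
      Real.log (covNum (polar L) ((T / 16) • polar K)) := by
  classical
  have hA := hL.polar_body
  have hC := hK.polar_body
  obtain ⟨P, hcard, hPA, hPsep⟩ := exists_levels hK hL hT hT1 hm j₀ u 0
  simp only [zero_add, zero_mul, add_zero] at hcard hPsep
  have hT16 : (0 : ℝ) < T / 16 := by positivity
  have hnb : ((T / 16) • polar K) ∈ 𝓝 (0 : Fin n → ℝ) := (hC.smul hT16).mem_nhds_zero
  obtain ⟨t, ht, hcov⟩ := covNum_spec hA.compact hnb
  -- the large scale
  have hscale : (T / 8) • polar K ⊆
      ((1 - T / 32) * (T * (2 : ℝ) ^ j₀ / 4)) • polar K := by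
    have h2 : (1 : ℝ) ≤ 2 ^ j₀ := one_le_pow₀ (by norm_num)
    refine hC.smul_subset (by positivity) ?_ ?_
    · have : 0 < 1 - T / 32 := by linarith
      positivity
    · have h3 : (31 / 32 : ℝ) ≤ 1 - T / 32 := by linarith
      have h4 : T / 4 ≤ T * 2 ^ j₀ / 4 := by nlinarith
      have h5 : (31 / 32) * (T / 4) ≤ (1 - T / 32) * (T * 2 ^ j₀ / 4) :=
        mul_le_mul h3 h4 (by positivity) (by linarith)
      nlinarith
  have hle : P.card ≤ t.card := by
    choose! g hgt hg using hcov
    refine Finset.card_le_card_of_injOn g (fun p hp => hgt p (hPA p hp)) ?_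
    intro p hp p' hp' e
    by_contra hne
    apply hPsep p hp p' hp' hne
    apply hscale
    obtain ⟨c₁, hc₁, he₁⟩ := hg p (hPA p hp)
    obtain ⟨c₂, hc₂, he₂⟩ := hg p' (hPA p' hp')
    have he₁' : (T / 16) • c₁ = p - g p := he₁
    have he₂' : (T / 16) • c₂ = p' - g p := by
      have : p' - g p' = p' - g p := by rw [e]
      rw [← this]
      exact he₂
    refine ⟨(1 / 2 : ℝ) • c₁ + (1 / 2 : ℝ) • (-c₂), hC.convex hc₁ (hC.symm _ hc₂) (by norm_num)
      (by norm_num) (by norm_num), ?_⟩
    funext i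
    have h1 := congrFun he₁' i
    have h2 := congrFun he₂' i
    simp only [Pi.smul_apply, smul_eq_mul, Pi.sub_apply] at h1 h2
    simp only [Pi.smul_apply, Pi.add_apply, Pi.neg_apply, smul_eq_mul, Pi.sub_apply]
    linear_combination h1 - h2
  -- positivity of the factors
  have hUnb : ∀ j, UJ K L T j ∈ 𝓝 (0 : Fin n → ℝ) := by
    intro j
    refine Filter.mem_of_superset (hA.smul (r := T / 8) (by positivity)).mem_nhds_zero ?_
    intro x hx
    exact Set.mem_add.mpr ⟨0, ⟨0, hC.zero_mem, by simp⟩, x, hx, by simp⟩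
  have hpos : ∀ j, 0 < covNum (polar L) (UJ K L T j) := by
    intro j
    obtain ⟨t', ht', hcov'⟩ := covNum_spec hA.compact (hUnb j)
    obtain ⟨c, hc, -⟩ := hcov' 0 hA.zero_mem
    rw [← ht']
    exact Finset.card_pos.mpr ⟨c, hc⟩
  have hprodpos : 0 < ∏ i ∈ Finset.range u, covNum (polar L) (UJ K L T (j₀ + i * m)) :=
    Finset.prod_pos fun i _ => hpos _
  have hle' : (∏ i ∈ Finset.range u, (covNum (polar L) (UJ K L T (j₀ + i * m)) : ℝ)) ≤
      (covNum (polar L) ((T / 16) • polar K) : ℝ) := by
    have h3 : ∏ i ∈ Finset.range u, covNum (polar L) (UJ K L T (j₀ + i * m)) ≤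
        covNum (polar L) ((T / 16) • polar K) := by
      rw [← hcard, ← ht]
      exact hle
    exact_mod_cast h3
  rw [← Real.log_prod (fun i _ => by
    have := hpos (j₀ + i * m)
    positivity)]
  exact Real.log_le_log (by exact_mod_cast hprodpos) hle'

/-- (M8) Sum over residue classes. -/
lemma sum_residue {g : ℕ → ℝ} (hg : ∀ j, 0 ≤ g j) {m : ℕ} (hm : 1 ≤ m) {Q : ℝ}
    (h : ∀ j₀ u : ℕ, ∑ i ∈ Finset.range u, g (j₀ + i * m) ≤ Q) (J : ℕ) :
    ∑ j ∈ Finset.range J, g j ≤ m * Q := by
  classical
  -- split `range J` along residues modulo `m`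
  have hQ0 : 0 ≤ Q := by simpa using h 0 0
  have hsplit : ∑ j ∈ Finset.range J, g j =
      ∑ r ∈ Finset.range m, ∑ j ∈ (Finset.range J).filter (fun j => j % m = r), g j := by
    rw [Finset.sum_fiberwise_of_maps_to]
    intro j _
    exact Finset.mem_range.mpr (Nat.mod_lt _ (by omega))
  rw [hsplit]
  calc ∑ r ∈ Finset.range m, ∑ j ∈ (Finset.range J).filter (fun j => j % m = r), g j
      ≤ ∑ r ∈ Finset.range m, Q := by
        refine Finset.sum_le_sum fun r hr => ?_
        have hr' : r < m := Finset.mem_range.mp hr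
        -- the elements of the residue class are `r + i m`, `i < J`
        calc ∑ j ∈ (Finset.range J).filter (fun j => j % m = r), g j
            ≤ ∑ j ∈ (Finset.range J).image (fun i => r + i * m), g j := by
              refine Finset.sum_le_sum_of_subset_of_nonneg ?_ (fun j _ _ => hg j)
              intro j hj
              obtain ⟨hjJ, hjr⟩ := Finset.mem_filter.mp hj
              have hjJ' : j < J := Finset.mem_range.mp hjJ
              refine Finset.mem_image.mpr ⟨j / m, Finset.mem_range.mpr ?_, ?_⟩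
              · exact lt_of_le_of_lt (Nat.div_le_self _ _) hjJ'
              · rw [← hjr]
                have := Nat.mod_add_div j m
                rw [mul_comm] at this
                exact this
          _ = ∑ i ∈ Finset.range J, g (r + i * m) := by
              rw [Finset.sum_image]
              intro a _ b _ hab
              have h1 : a * m = b * m := by
                simp only at hab
                omega
              exact Nat.eq_of_mul_eq_mul_right (by omega) h1
          _ ≤ Q := h r J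
    _ = m * Q := by simp

end Vale.Agent.Lib.P126G
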