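import Vale.Agent.Lib.P126G.Chain
import Vale.Agent.Lib.P126G.ToCov
import Vale.Agent.Lib.P126G.SumLemma

open scoped BigOperators Pointwise Topology

namespace Vale.Agent.Lib.P126G

open Vale.Agent.Lib.P126U (polar covNum)

variable {n : ℕ} {K L : Set (Fin n → ℝ)}

/-- (M9) Duality with parameters `r, m`. -/
theorem duality_r (hK : SymBody K) (hL : SymBody L) {r m : ℕ} (hr : 1 ≤ r) {q : ℝ} (hq : 0 ≤ q)
    (hcov : (covNum (polar L) ((2048 * (r : ℝ))⁻¹ • polar K) : ℝ) ≤ Real.exp q)
    (h2r : 2 * q + 6 ≤ (2 : ℝ) ^ r) (hm : 4096 * (r : ℝ) ≤ (2 : ℝ) ^ m) :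
    Real.log (covNum K L) ≤ 4 * ((r : ℝ) + 600000) * m * q := by
  have hr1 : (1 : ℝ) ≤ r := by exact_mod_cast hr
  set T : ℝ := (128 * (r : ℝ))⁻¹ with hTdef
  have hT : 0 < T := by positivity
  have hTr : 128 * (r : ℝ) * T = 1 := by
    rw [hTdef]
    field_simp
  have hT1 : T < 1 := by nlinarith
  have hT16 : T / 16 = (2048 * (r : ℝ))⁻¹ := by
    rw [hTdef]
    field_simp
    norm_num
  have hm1 : 1 ≤ m := by
    by_contra hcon
    have hm0 : m = 0 := by omega
    rw [hm0] at hm
    simp only [pow_zero] at hm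
    linarith
  have hmT : 32 ≤ (2 : ℝ) ^ m * T := by
    have h1 : (4096 * (r : ℝ)) * T = 32 := by
      have : (4096 * (r : ℝ)) * T = 32 * (128 * (r : ℝ) * T) := by ring
      rw [this, hTr]
      norm_num
    have h2 := mul_le_mul_of_nonneg_right hm hT.le
    linarith
  -- the global dual covering number
  set Q : ℕ := covNum (polar L) ((T / 16) • polar K) with hQ
  have hQq : Real.log Q ≤ q := by
    rcases Nat.eq_zero_or_pos Q with h0 | h0
    · rw [h0]
      simpa using hq
    · have hpos : (0 : ℝ) < Q := by exact_mod_cast h0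
      rw [Real.log_le_iff_le_exp hpos, hQ, hT16]
      exact hcov
  obtain ⟨J, hJ, hsum⟩ := log_cov_le_sum hK hL
  set g : ℕ → ℝ := fun j => Real.log (covNum (polar L) (UJ K L T j)) with hg
  have hg0 : ∀ j, 0 ≤ g j := fun j => Real.log_natCast_nonneg _
  have hgQ : ∀ j, g j ≤ Real.log Q := by
    intro j
    have h1 : covNum (polar L) (UJ K L T j) ≤ Q := cov_UJ_le hK hL hT j
    rcases Nat.eq_zero_or_pos (covNum (polar L) (UJ K L T j)) with h0 | h0
    · simp only [hg, h0]
      simpa using Real.log_natCast_nonneg Q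
    · apply Real.log_le_log (by exact_mod_cast h0)
      exact_mod_cast h1
  have hstep : ∀ j ∈ Finset.range J, Real.log (covNum (KJ K L j) L) ≤
      4 * ((r : ℝ) + 600000) * g j := by
    intro j hj
    have hj' := Finset.mem_range.mp hj
    have h2 : 2 ≤ covNum (polar L) (UJ K L T j) := two_le_cov_UJ hK hL hT hT1 (hJ j hj')
    have h3 : Real.log 2 ≤ g j := by
      apply Real.log_le_log (by norm_num)
      exact_mod_cast h2
    have h4 := Real.log_two_gt_d9
    have h5 : 2 * g j + 6 ≤ (2 : ℝ) ^ r := by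
      have := hgQ j
      linarith
    have h6 := core_to_cov hK hL hT hr hTr.le j h5
    have h7 : g j + 2 ≤ 4 * g j := by linarith
    have h8 : (0 : ℝ) ≤ (r : ℝ) + 600000 := by positivity
    have := mul_le_mul_of_nonneg_left h7 h8
    calc Real.log (covNum (KJ K L j) L) ≤ ((r : ℝ) + 600000) * (g j + 2) := h6
      _ ≤ ((r : ℝ) + 600000) * (4 * g j) := this
      _ = 4 * ((r : ℝ) + 600000) * g j := by ring
  have hres := sum_residue hg0 hm1 (Q := Real.log Q) (fun j₀ u => sum_lemma hK hL hT hT1.le hmT j₀ u) J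
  have h8 : (0 : ℝ) ≤ 4 * ((r : ℝ) + 600000) := by positivity
  calc Real.log (covNum K L) ≤ ∑ j ∈ Finset.range J, Real.log (covNum (KJ K L j) L) := hsum
    _ ≤ ∑ j ∈ Finset.range J, 4 * ((r : ℝ) + 600000) * g j := Finset.sum_le_sum hstep
    _ = 4 * ((r : ℝ) + 600000) * ∑ j ∈ Finset.range J, g j := by rw [Finset.mul_sum]
    _ ≤ 4 * ((r : ℝ) + 600000) * (m * Real.log Q) := mul_le_mul_of_nonneg_left hres h8
    _ ≤ 4 * ((r : ℝ) + 600000) * (m * q) := by
        apply mul_le_mul_of_nonneg_left _ h8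
        exact mul_le_mul_of_nonneg_left hQq (by positivity)
    _ = 4 * ((r : ℝ) + 600000) * m * q := by ring

/-- The parameters in terms of `log (q+2)`. -/
lemma closed_params {q : ℝ} (hq : 1 ≤ q) :
    ∃ r m : ℕ, 1 ≤ r ∧ 2 * q + 6 ≤ (2 : ℝ) ^ r ∧ 4096 * (r : ℝ) ≤ (2 : ℝ) ^ m ∧
      (r : ℝ) ≤ 4 * Real.log (q + 2) ∧ (m : ℝ) ≤ 16 * Real.log (q + 2) := by
  set l := Real.log (q + 2) with hl
  have hlog2a := Real.log_two_gt_d9
  have hlog2b := Real.log_two_lt_d9
  have hl1 : 1 ≤ l := by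
    rw [hl, Real.le_log_iff_exp_le (by linarith)]
    have := Real.exp_one_lt_d9
    linarith
  have hlog3 : Real.log 3 ≤ l := by
    apply Real.log_le_log (by norm_num)
    linarith
  -- the exponent r
  set a := Real.logb 2 (2 * q + 6) with ha
  have hapos : 0 ≤ a := Real.logb_nonneg (by norm_num) (by linarith)
  have hale : a ≤ 2.89 * l := by
    rw [ha, Real.logb, div_le_iff₀ (by linarith)]
    have h1 : Real.log (2 * q + 6) ≤ Real.log (3 * (q + 2)) := by
      apply Real.log_le_log (by linarith)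
      linarith
    rw [Real.log_mul (by norm_num) (by linarith)] at h1
    nlinarith
  set r := ⌈a⌉₊ with hr
  have hra : a ≤ r := Nat.le_ceil a
  have hrle : (r : ℝ) < a + 1 := Nat.ceil_lt_add_one hapos
  have h2r : 2 * q + 6 ≤ (2 : ℝ) ^ r := by
    have h1 : (2 : ℝ) ^ a = 2 * q + 6 := by
      rw [ha, Real.rpow_logb (by norm_num) (by norm_num) (by linarith)]
    have h2 : (2 : ℝ) ^ a ≤ (2 : ℝ) ^ (r : ℝ) :=
      Real.rpow_le_rpow_of_exponent_le (by norm_num) hra
    rw [Real.rpow_natCast] at h2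
    linarith
  have hr1 : 1 ≤ r := by
    by_contra hcon
    have hr0 : r = 0 := by omega
    rw [hr0] at h2r
    simp only [pow_zero] at h2r
    linarith
  have hr1R : (1 : ℝ) ≤ r := by exact_mod_cast hr1
  have hrl : (r : ℝ) ≤ 4 * l := by linarith
  -- the exponent m
  set b := Real.logb 2 (4096 * (r : ℝ)) with hb
  have hbpos : 0 ≤ b := Real.logb_nonneg (by norm_num) (by linarith)
  have hble : b ≤ 14 * l := by
    rw [hb, Real.logb, div_le_iff₀ (by linarith)]
    have h1 : Real.log (4096 * (r : ℝ)) ≤ Real.log (4096 * (4 * l)) := by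
      apply Real.log_le_log (by linarith)
      linarith
    have h2 : Real.log (4096 * (4 * l)) = 14 * Real.log 2 + Real.log l := by
      have : (4096 : ℝ) * (4 * l) = 2 ^ 14 * l := by ring
      rw [this, Real.log_mul (by norm_num) (by linarith), Real.log_pow]
      norm_num
    have h3 : Real.log l ≤ l - 1 := Real.log_le_sub_one_of_pos (by linarith)
    nlinarith
  set m := ⌈b⌉₊ with hm
  have hmb : b ≤ m := Nat.le_ceil b
  have hmle : (m : ℝ) < b + 1 := Nat.ceil_lt_add_one hbpos
  have h2m : 4096 * (r : ℝ) ≤ (2 : ℝ) ^ m := by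
    have h1 : (2 : ℝ) ^ b = 4096 * (r : ℝ) := by
      rw [hb, Real.rpow_logb (by norm_num) (by norm_num) (by linarith)]
    have h2 : (2 : ℝ) ^ b ≤ (2 : ℝ) ^ (m : ℝ) :=
      Real.rpow_le_rpow_of_exponent_le (by norm_num) hmb
    rw [Real.rpow_natCast] at h2
    linarith
  exact ⟨r, m, hr1, h2r, h2m, hrl, by linarith⟩

/-- (M9) Closed form. -/
theorem duality_general (hK : SymBody K) (hL : SymBody L) {q : ℝ} (hq : 1 ≤ q)
    (hcov : (covNum (polar L) ((8192 * Real.log (q + 2))⁻¹ • polar K) : ℝ) ≤ Real.exp q) :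
    Real.log (covNum K L) ≤ 40000000 * Real.log (q + 2) ^ 2 * q := by
  obtain ⟨r, m, hr, h2r, hm, hrl, hml⟩ := closed_params hq
  set l := Real.log (q + 2) with hl
  have hq0 : 0 ≤ q := by linarith
  have hl1 : 1 ≤ l := by
    rw [hl, Real.le_log_iff_exp_le (by linarith)]
    have := Real.exp_one_lt_d9
    linarith
  have hr1 : (1 : ℝ) ≤ r := by exact_mod_cast hr
  -- monotonicity of the covering number
  have hK' := hK.polar_body
  have hsmall : (0 : ℝ) < (8192 * l)⁻¹ := by positivity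
  have hsub : (8192 * l)⁻¹ • polar K ⊆ (2048 * (r : ℝ))⁻¹ • polar K := by
    intro u hu
    obtain ⟨w, hw, rfl⟩ := Set.mem_smul_set.mp hu
    have hratio : (8192 * l)⁻¹ / (2048 * (r : ℝ))⁻¹ ≤ 1 := by
      rw [div_le_one (by positivity)]
      apply inv_anti₀ (by positivity)
      linarith
    have hratio0 : 0 ≤ (8192 * l)⁻¹ / (2048 * (r : ℝ))⁻¹ := by positivity
    have hmem := hK'.convex.smul_mem_of_zero_mem hK'.zero_mem hw ⟨hratio0, hratio⟩
    refine Set.mem_smul_set.mpr ⟨_, hmem, ?_⟩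
    rw [smul_smul]
    congr 1
    field_simp
  have hnhds : (8192 * l)⁻¹ • polar K ∈ 𝓝 (0 : Fin n → ℝ) := (hK'.smul hsmall).mem_nhds_zero
  have hmono := covNum_mono_right hL.polar_body.compact hnhds hsub
  have hcov' : (covNum (polar L) ((2048 * (r : ℝ))⁻¹ • polar K) : ℝ) ≤ Real.exp q :=
    le_trans (by exact_mod_cast hmono) hcov
  have h1 := duality_r hK hL hr hq0 hcov' h2r hm
  have hm0 : (0 : ℝ) ≤ m := by positivity
  calc Real.log (covNum K L) ≤ 4 * ((r : ℝ) + 600000) * m * q := h1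
    _ ≤ 40000000 * l ^ 2 * q := by
      apply mul_le_mul_of_nonneg_right _ hq0
      have h2 : (r : ℝ) + 600000 ≤ 600004 * l := by nlinarith
      have h3 : ((r : ℝ) + 600000) * m ≤ (600004 * l) * (16 * l) :=
        mul_le_mul h2 hml hm0 (by positivity)
      nlinarith

/-- (M9) The dual direction, with the same function of `q`. -/
theorem duality_general_dual (hK : SymBody K) (hL : SymBody L) {q : ℝ} (hq : 1 ≤ q)
    (hcov : (covNum K L : ℝ) ≤ Real.exp q) :
    Real.log (covNum (polar L) ((8192 * Real.log (q + 2)) • polar K)) ≤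
      40000000 * Real.log (q + 2) ^ 2 * q := by
  set a := 8192 * Real.log (q + 2) with ha
  have hl1 : 1 ≤ Real.log (q + 2) := by
    rw [Real.le_log_iff_exp_le (by linarith)]
    have := Real.exp_one_lt_d9
    linarith
  have hapos : 0 < a := by
    rw [ha]
    linarith
  have hL₂ : SymBody (a • polar K) := hK.polar_body.smul hapos
  have h1 := duality_general (K := polar L) (L := a • polar K) hL.polar_body hL₂ hq ?_
  · exact h1
  · rw [← ha, polar_smul hapos, hK.polar_polar, hL.polar_polar, covNum_smul (inv_ne_zero hapos.ne')]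
    exact hcov

end Vale.Agent.Lib.P126G
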