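import Vale.Agent.Lib.P126G.CoreT
import Vale.Agent.Lib.P126G.Main

open scoped BigOperators Pointwise Topology

namespace Vale.Agent.Lib.P126G

open Vale.Agent.Lib.P126U (polar covNum)

variable {n : ℕ} {K L : Set (Fin n → ℝ)}

/-- From the staged core bound to covering numbers at one scale. -/
theorem core_to_cov_stage (hK : SymBody K) (hL : SymBody L) {T : ℝ} (hT : 0 < T) {s κ : ℕ}
    (hκ : 1 ≤ κ) (hTs : 128 * ((s : ℝ) + 1) * T ≤ 1) (j : ℕ)
    (hκs : Real.log (covNum (polar L) (UJ K L T j)) + 3 ≤ (κ : ℝ) ^ s) :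
    Real.log (covNum (KJ K L j) L) ≤
      ((s : ℝ) * κ + 600001) * (Real.log (covNum (polar L) (UJ K L T j)) + 2) := by
  classical
  set N := covNum (polar L) (UJ K L T j) with hN
  set q := Real.log (N : ℝ) with hq
  have hq0 : 0 ≤ q := Real.log_natCast_nonneg N
  have hPL := hL.polar_body
  have h0P : (0 : Fin n → ℝ) ∈ polar L := zero_mem_polar L
  obtain ⟨t, htc, ht⟩ := covNum_spec (A := polar L) (B := UJ K L T j) hPL.compact
    (UJ_mem_nhds hK hT j)
  -- the net inside the polar of `L`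
  have hchoose : ∀ c ∈ t, ∃ z : Fin n → ℝ, (∃ a ∈ polar L, a - c ∈ UJ K L T j) →
      (z ∈ polar L ∧ z - c ∈ UJ K L T j) := by
    intro c _
    by_cases h : ∃ a ∈ polar L, a - c ∈ UJ K L T j
    · obtain ⟨a, ha, hac⟩ := h
      exact ⟨a, fun _ => ⟨ha, hac⟩⟩
    · exact ⟨0, fun h' => absurd h' h⟩
  choose! zc hzc using hchoose
  let Z : Finset (Fin n → ℝ) := (t.filter fun c => ∃ a ∈ polar L, a - c ∈ UJ K L T j).image zc
  have hZsub : ∀ c ∈ Z, c ∈ polar L := by
    intro c hc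
    obtain ⟨c0, hc0, rfl⟩ := Finset.mem_image.mp hc
    have h1 := Finset.mem_filter.mp hc0
    exact (hzc c0 h1.1 h1.2).1
  have hnet : Net (polar L) (KJ K L j) Z (2 * T) := by
    refine ⟨hZsub, fun a ha => ?_⟩
    obtain ⟨c, hc, hac⟩ := ht a ha
    have hc1 : ∃ a ∈ polar L, a - c ∈ UJ K L T j := ⟨a, ha, hac⟩
    refine ⟨zc c, Finset.mem_image.mpr ⟨c, Finset.mem_filter.mpr ⟨hc, hc1⟩, rfl⟩, fun y hy => ?_⟩
    have h1 := abs_pr_le_of_mem_UJ hK hL hT.le hac hy
    have h2 := abs_pr_le_of_mem_UJ hK hL hT.le (hzc c hc hc1).2 hy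
    have e : pr (a - zc c) y = pr (a - c) y - pr (zc c - c) y := by
      rw [pr_sub_left, pr_sub_left, pr_sub_left]
      ring
    rw [e]
    calc |pr (a - c) y - pr (zc c - c) y| ≤ |pr (a - c) y| + |pr (zc c - c) y| := abs_sub _ _
      _ ≤ 2 * T := by linarith
  have hZcard : (Z.card : ℝ) ≤ Real.exp q := by
    have h1 : Z.card ≤ t.card :=
      le_trans Finset.card_image_le (Finset.card_filter_le _ _)
    have htc' : t.card = N := htc
    have hNpos : 0 < N := by
      obtain ⟨c, hc, -⟩ := ht 0 h0P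
      rw [← htc']
      exact Finset.card_pos.mpr ⟨c, hc⟩
    rw [hq, Real.exp_log (by exact_mod_cast hNpos)]
    rw [htc'] at h1
    exact_mod_cast h1
  have hR : ∀ z ∈ polar L, ∀ y ∈ KJ K L j, |pr z y| ≤ 4 := by
    intro z hz y hy
    obtain ⟨w, hw, rfl⟩ := Set.mem_smul_set.mp hy.2
    rw [pr_smul_right, abs_mul, abs_of_pos (by norm_num : (0 : ℝ) < 4)]
    have := abs_pr_le_one_of_mem_polar hL hz hw
    linarith
  -- separated sets are small
  have hcore : ∀ S : Finset (Fin n → ℝ), (∀ y ∈ S, y ∈ KJ K L j) →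
      (∀ x ∈ S, ∀ x' ∈ S, x ≠ x' → x - x' ∉ L) →
      Real.log S.card ≤ ((s : ℝ) * κ + 600001) * (q + 2) := by
    intro S hSK hS
    refine core_bound_stage hPL.compact hPL.convex hPL.symm ⟨0, h0P⟩ hnet (by positivity) hκ ?_ hq0
      hZcard hκs hR hSK ?_
    · linarith
    · intro x hx x' hx' hne
      obtain ⟨z, hz, hz1⟩ := hL.exists_polar_gt (hS x hx x' hx' hne)
      refine ⟨z, hz, ?_⟩
      rwa [pr_sub_right] at hz1
  have hBnn : 0 ≤ ((s : ℝ) * κ + 600001) * (q + 2) := by positivity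
  -- a separated set of largest size
  let good : ℕ → Prop := fun k => ∃ S : Finset (Fin n → ℝ), S.card = k ∧ (∀ y ∈ S, y ∈ KJ K L j) ∧
    (∀ x ∈ S, ∀ x' ∈ S, x ≠ x' → x - x' ∉ L)
  have hgood0 : good 0 := ⟨∅, rfl, by simp, by simp⟩
  have hbdd : ∃ M : ℕ, ∀ k, good k → k ≤ M := by
    refine ⟨⌈Real.exp (((s : ℝ) * κ + 600001) * (q + 2))⌉₊, fun k hk => ?_⟩
    obtain ⟨S, rfl, hS1, hS2⟩ := hk
    by_cases hS0 : S.card = 0
    · rw [hS0]
      exact Nat.zero_le _
    have hpos : (0 : ℝ) < S.card := by exact_mod_cast Nat.pos_of_ne_zero hS0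
    have h1 := hcore S hS1 hS2
    have h2 : (S.card : ℝ) ≤ Real.exp (((s : ℝ) * κ + 600001) * (q + 2)) := by
      rw [← Real.exp_log hpos]
      exact Real.exp_le_exp.mpr h1
    exact_mod_cast h2.trans (Nat.le_ceil _)
  obtain ⟨M, hM⟩ := hbdd
  have hmax : ∃ k, good k ∧ ∀ k', good k' → k' ≤ k := by
    have h := Nat.findGreatest_spec (P := good) (hM 0 hgood0) hgood0
    refine ⟨Nat.findGreatest good M, h, fun k' hk' => ?_⟩
    exact Nat.le_findGreatest (hM k' hk') hk'
  obtain ⟨k, ⟨S, hSk, hS1, hS2⟩, hkmax⟩ := hmax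
  have hcover : ∀ a ∈ KJ K L j, ∃ c ∈ S, a - c ∈ L := by
    intro a ha
    by_contra hno
    push Not at hno
    have haS : a ∉ S := by
      intro h
      have := hno a h
      rw [sub_self] at this
      exact this hL.zero_mem
    have h1 : good (insert a S).card := by
      refine ⟨insert a S, rfl, ?_, ?_⟩
      · intro y hy
        rcases Finset.mem_insert.mp hy with rfl | hy
        · exact ha
        · exact hS1 y hy
      · intro x hx x' hx' hne
        rcases Finset.mem_insert.mp hx with hxa | hxS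
        · rcases Finset.mem_insert.mp hx' with hxa' | hxS'
          · exact absurd (hxa.trans hxa'.symm) hne
          · rw [hxa]
            exact hno x' hxS'
        · rcases Finset.mem_insert.mp hx' with hxa' | hxS'
          · intro h
            have h2 := hL.symm _ h
            rw [neg_sub, hxa'] at h2
            exact hno x hxS h2
          · exact hS2 x hxS x' hxS' hne
    have h2 := hkmax _ h1
    rw [Finset.card_insert_of_notMem haS, hSk] at h2
    omega
  have hcov : covNum (KJ K L j) L ≤ S.card := covNum_le_card S hcover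
  have hlog : Real.log S.card ≤ ((s : ℝ) * κ + 600001) * (q + 2) := hcore S hS1 hS2
  by_cases hc0 : covNum (KJ K L j) L = 0
  · rw [hc0]
    simpa using hBnn
  · have hpos : (0 : ℝ) < covNum (KJ K L j) L := by exact_mod_cast Nat.pos_of_ne_zero hc0
    exact le_trans (Real.log_le_log hpos (by exact_mod_cast hcov)) hlog

/-- Duality with parameters `s, κ, m`. -/
theorem duality_stage (hK : SymBody K) (hL : SymBody L) {s κ m : ℕ} (hκ : 1 ≤ κ) {q : ℝ}
    (hq : 0 ≤ q) (hcov : (covNum (polar L) ((2048 * ((s : ℝ) + 1))⁻¹ • polar K) : ℝ) ≤ Real.exp q)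
    (hκs : q + 3 ≤ (κ : ℝ) ^ s) (hm : 4096 * ((s : ℝ) + 1) ≤ (2 : ℝ) ^ m) :
    Real.log (covNum K L) ≤ 4 * ((s : ℝ) * κ + 600001) * m * q := by
  have hr0 : (0 : ℝ) ≤ s := by positivity
  have hr1 : (1 : ℝ) ≤ (s : ℝ) + 1 := by linarith
  set T : ℝ := (128 * ((s : ℝ) + 1))⁻¹ with hTdef
  have hT : 0 < T := by positivity
  have hTr : 128 * ((s : ℝ) + 1) * T = 1 := by
    rw [hTdef]
    field_simp
  have hT1 : T < 1 := by nlinarith
  have hT16 : T / 16 = (2048 * ((s : ℝ) + 1))⁻¹ := by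
    rw [hTdef]
    field_simp
    norm_num
  have hm1 : 1 ≤ m := by
    by_contra hcon
    have hm0 : m = 0 := by omega
    rw [hm0] at hm
    simp only [pow_zero] at hm
    linarith
  have hmT : 32 ≤ (2 : ℝ) ^ m * T := by
    have h1 : (4096 * ((s : ℝ) + 1)) * T = 32 := by
      have : (4096 * ((s : ℝ) + 1)) * T = 32 * (128 * ((s : ℝ) + 1) * T) := by ring
      rw [this, hTr]
      norm_num
    have h2 := mul_le_mul_of_nonneg_right hm hT.le
    linarith
  -- the global dual covering number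
  set Q : ℕ := covNum (polar L) ((T / 16) • polar K) with hQ
  have hQq : Real.log Q ≤ q := by
    rcases Nat.eq_zero_or_pos Q with h0 | h0
    · rw [h0]
      simpa using hq
    · have hpos : (0 : ℝ) < Q := by exact_mod_cast h0
      rw [Real.log_le_iff_le_exp hpos, hQ, hT16]
      exact hcov
  obtain ⟨J, hJ, hsum⟩ := log_cov_le_sum hK hL
  set g : ℕ → ℝ := fun j => Real.log (covNum (polar L) (UJ K L T j)) with hg
  have hg0 : ∀ j, 0 ≤ g j := fun j => Real.log_natCast_nonneg _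
  have hgQ : ∀ j, g j ≤ Real.log Q := by
    intro j
    have h1 : covNum (polar L) (UJ K L T j) ≤ Q := cov_UJ_le hK hL hT j
    rcases Nat.eq_zero_or_pos (covNum (polar L) (UJ K L T j)) with h0 | h0
    · simp only [hg, h0]
      simpa using Real.log_natCast_nonneg Q
    · apply Real.log_le_log (by exact_mod_cast h0)
      exact_mod_cast h1
  have hcnn : (0 : ℝ) ≤ (s : ℝ) * κ + 600001 := by positivity
  have hstep : ∀ j ∈ Finset.range J, Real.log (covNum (KJ K L j) L) ≤
      4 * ((s : ℝ) * κ + 600001) * g j := by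
    intro j hj
    have hj' := Finset.mem_range.mp hj
    have h2 : 2 ≤ covNum (polar L) (UJ K L T j) := two_le_cov_UJ hK hL hT hT1 (hJ j hj')
    have h3 : Real.log 2 ≤ g j := by
      apply Real.log_le_log (by norm_num)
      exact_mod_cast h2
    have h4 := Real.log_two_gt_d9
    have h5 : g j + 3 ≤ (κ : ℝ) ^ s := by
      have := hgQ j
      linarith
    have h6 := core_to_cov_stage hK hL hT hκ hTr.le j h5
    have h7 : g j + 2 ≤ 4 * g j := by linarith
    have := mul_le_mul_of_nonneg_left h7 hcnn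
    calc Real.log (covNum (KJ K L j) L) ≤ ((s : ℝ) * κ + 600001) * (g j + 2) := h6
      _ ≤ ((s : ℝ) * κ + 600001) * (4 * g j) := this
      _ = 4 * ((s : ℝ) * κ + 600001) * g j := by ring
  have hres := sum_residue hg0 hm1 (Q := Real.log Q) (fun j₀ u => sum_lemma hK hL hT hT1.le hmT j₀ u) J
  have h8 : (0 : ℝ) ≤ 4 * ((s : ℝ) * κ + 600001) := by positivity
  calc Real.log (covNum K L) ≤ ∑ j ∈ Finset.range J, Real.log (covNum (KJ K L j) L) := hsum
    _ ≤ ∑ j ∈ Finset.range J, 4 * ((s : ℝ) * κ + 600001) * g j := Finset.sum_le_sum hstep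
    _ = 4 * ((s : ℝ) * κ + 600001) * ∑ j ∈ Finset.range J, g j := by rw [Finset.mul_sum]
    _ ≤ 4 * ((s : ℝ) * κ + 600001) * (m * Real.log Q) := mul_le_mul_of_nonneg_left hres h8
    _ ≤ 4 * ((s : ℝ) * κ + 600001) * (m * q) := by
        apply mul_le_mul_of_nonneg_left _ h8
        exact mul_le_mul_of_nonneg_left hQq (by positivity)
    _ = 4 * ((s : ℝ) * κ + 600001) * m * q := by ring

/-- The parameters `κ, m` in closed form. -/
lemma closed_params_stage {s : ℕ} (hs : 1 ≤ s) {q : ℝ} (hq : 1 ≤ q) :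
    ∃ κ m : ℕ, 1 ≤ κ ∧ q + 3 ≤ (κ : ℝ) ^ s ∧ 4096 * ((s : ℝ) + 1) ≤ (2 : ℝ) ^ m ∧
      (κ : ℝ) ≤ 8 * q ^ (1 / (s : ℝ)) ∧ (m : ℝ) ≤ 21 * Real.log ((s : ℝ) + 1) := by
  have hs1 : (1 : ℝ) ≤ s := by exact_mod_cast hs
  have hs0 : (s : ℝ) ≠ 0 := by positivity
  have hlog2a := Real.log_two_gt_d9
  have hlog2b := Real.log_two_lt_d9
  -- the ratio
  set u := (q + 3) ^ (1 / (s : ℝ)) with hu
  have hu1 : 1 ≤ u := Real.one_le_rpow (by linarith) (by positivity)
  have hus : u ^ s = q + 3 := by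
    rw [hu, ← Real.rpow_natCast, ← Real.rpow_mul (by linarith)]
    rw [one_div, inv_mul_cancel₀ hs0, Real.rpow_one]
  set κ := ⌈u⌉₊ with hκ
  have hκu : u ≤ κ := Nat.le_ceil u
  have hκlt : (κ : ℝ) < u + 1 := Nat.ceil_lt_add_one (by linarith)
  have hκ1 : 1 ≤ κ := by
    have : (0 : ℝ) < κ := by linarith
    exact_mod_cast this
  have hκs : q + 3 ≤ (κ : ℝ) ^ s := by
    rw [← hus]
    exact pow_le_pow_left₀ (by linarith) hκu s
  have hq1 : 1 ≤ q ^ (1 / (s : ℝ)) := Real.one_le_rpow hq (by positivity)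
  have hule : u ≤ 4 * q ^ (1 / (s : ℝ)) := by
    have h1 : u ≤ (4 * q) ^ (1 / (s : ℝ)) :=
      Real.rpow_le_rpow (by linarith) (by linarith) (by positivity)
    rw [Real.mul_rpow (by norm_num) (by linarith)] at h1
    have h2 : (4 : ℝ) ^ (1 / (s : ℝ)) ≤ 4 := by
      have h3 : 1 / (s : ℝ) ≤ 1 := by
        rw [div_le_one (by linarith)]
        exact hs1
      calc (4 : ℝ) ^ (1 / (s : ℝ)) ≤ (4 : ℝ) ^ (1 : ℝ) :=
            Real.rpow_le_rpow_of_exponent_le (by norm_num) h3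
        _ = 4 := Real.rpow_one 4
    nlinarith
  -- the exponent m
  have hs2 : (2 : ℝ) ≤ (s : ℝ) + 1 := by linarith
  have hl2 : Real.log 2 ≤ Real.log ((s : ℝ) + 1) := Real.log_le_log (by norm_num) hs2
  set b := Real.logb 2 (4096 * ((s : ℝ) + 1)) with hb
  have hbpos : 0 ≤ b := Real.logb_nonneg (by norm_num) (by linarith)
  have hble : b ≤ 19 * Real.log ((s : ℝ) + 1) := by
    rw [hb, Real.logb, div_le_iff₀ (by linarith)]
    have h1 : Real.log (4096 * ((s : ℝ) + 1)) = 12 * Real.log 2 + Real.log ((s : ℝ) + 1) := by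
      have : (4096 : ℝ) = 2 ^ 12 := by norm_num
      rw [this, Real.log_mul (by norm_num) (by linarith), Real.log_pow]
      norm_num
    rw [h1]
    have hl0 : 0 ≤ Real.log ((s : ℝ) + 1) := by linarith
    have h2 := mul_nonneg hl0 (by linarith : 0 ≤ Real.log 2 - 0.69)
    nlinarith
  set m := ⌈b⌉₊ with hm
  have hmb : b ≤ m := Nat.le_ceil b
  have hmle : (m : ℝ) < b + 1 := Nat.ceil_lt_add_one hbpos
  have h2m : 4096 * ((s : ℝ) + 1) ≤ (2 : ℝ) ^ m := by
    have h1 : (2 : ℝ) ^ b = 4096 * ((s : ℝ) + 1) := by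
      rw [hb, Real.rpow_logb (by norm_num) (by norm_num) (by linarith)]
    have h2 : (2 : ℝ) ^ b ≤ (2 : ℝ) ^ (m : ℝ) :=
      Real.rpow_le_rpow_of_exponent_le (by norm_num) hmb
    rw [Real.rpow_natCast] at h2
    linarith
  refine ⟨κ, m, hκ1, hκs, h2m, ?_, ?_⟩
  · linarith
  · linarith

/-- The trade-off in closed form: scale `4096 s`, exponent `1 + 1/s`. -/
theorem duality_tradeoff (hK : SymBody K) (hL : SymBody L) {s : ℕ} (hs : 1 ≤ s) {q : ℝ}
    (hq : 1 ≤ q) (hcov : (covNum (polar L) ((4096 * (s : ℝ))⁻¹ • polar K) : ℝ) ≤ Real.exp q) :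
    Real.log (covNum K L) ≤
      60000000 * (s : ℝ) * Real.log ((s : ℝ) + 1) * q ^ (1 + 1 / (s : ℝ)) := by
  obtain ⟨κ, m, hκ, hκs, hm, hκle, hmle⟩ := closed_params_stage hs hq
  have hq0 : 0 ≤ q := by linarith
  have hs1 : (1 : ℝ) ≤ s := by exact_mod_cast hs
  have hK' := hK.polar_body
  -- monotonicity of the covering number
  have hsmall : (0 : ℝ) < (4096 * (s : ℝ))⁻¹ := by positivity
  have hsub : (4096 * (s : ℝ))⁻¹ • polar K ⊆ (2048 * ((s : ℝ) + 1))⁻¹ • polar K := by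
    intro u hu
    obtain ⟨w, hw, rfl⟩ := Set.mem_smul_set.mp hu
    have hratio : (4096 * (s : ℝ))⁻¹ / (2048 * ((s : ℝ) + 1))⁻¹ ≤ 1 := by
      rw [div_le_one (by positivity)]
      apply inv_anti₀ (by positivity)
      linarith
    have hratio0 : 0 ≤ (4096 * (s : ℝ))⁻¹ / (2048 * ((s : ℝ) + 1))⁻¹ := by positivity
    have hmem := hK'.convex.smul_mem_of_zero_mem hK'.zero_mem hw ⟨hratio0, hratio⟩
    refine Set.mem_smul_set.mpr ⟨_, hmem, ?_⟩
    rw [smul_smul]
    congr 1
    field_simp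
  have hnhds : (4096 * (s : ℝ))⁻¹ • polar K ∈ 𝓝 (0 : Fin n → ℝ) := (hK'.smul hsmall).mem_nhds_zero
  have hmono := covNum_mono_right hL.polar_body.compact hnhds hsub
  have hcov' : (covNum (polar L) ((2048 * ((s : ℝ) + 1))⁻¹ • polar K) : ℝ) ≤ Real.exp q :=
    le_trans (by exact_mod_cast hmono) hcov
  have h1 := duality_stage hK hL hκ hq0 hcov' hκs hm
  have hm0 : (0 : ℝ) ≤ m := by positivity
  set w := q ^ (1 / (s : ℝ)) with hw
  have hw1 : 1 ≤ w := Real.one_le_rpow hq (by positivity)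
  set l := Real.log ((s : ℝ) + 1) with hl
  have hl0 : 0 ≤ l := Real.log_nonneg (by linarith)
  have hpow : q ^ (1 + 1 / (s : ℝ)) = q * w := by
    rw [Real.rpow_add (by linarith), Real.rpow_one]
  rw [hpow]
  have h2 : (s : ℝ) * κ + 600001 ≤ 600009 * (s * w) := by
    have h3 : (s : ℝ) * κ ≤ s * (8 * w) := mul_le_mul_of_nonneg_left hκle (by linarith)
    have h4 : 1 ≤ (s : ℝ) * w := by nlinarith
    nlinarith
  have h3 : ((s : ℝ) * κ + 600001) * m ≤ (600009 * (s * w)) * (21 * l) :=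
    mul_le_mul h2 hmle hm0 (by positivity)
  calc Real.log (covNum K L) ≤ 4 * ((s : ℝ) * κ + 600001) * m * q := h1
    _ = 4 * (((s : ℝ) * κ + 600001) * m) * q := by ring
    _ ≤ 4 * ((600009 * (s * w)) * (21 * l)) * q := by
        apply mul_le_mul_of_nonneg_right _ hq0
        linarith
    _ ≤ 60000000 * (s : ℝ) * l * (q * w) := by
        have h5 : 0 ≤ (s : ℝ) * l * (q * w) := by positivity
        nlinarith

/-- The dual direction, with the same function of `q`. -/
theorem duality_tradeoff_dual (hK : SymBody K) (hL : SymBody L) {s : ℕ} (hs : 1 ≤ s) {q : ℝ}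
    (hq : 1 ≤ q) (hcov : (covNum K L : ℝ) ≤ Real.exp q) :
    Real.log (covNum (polar L) ((4096 * (s : ℝ)) • polar K)) ≤
      60000000 * (s : ℝ) * Real.log ((s : ℝ) + 1) * q ^ (1 + 1 / (s : ℝ)) := by
  have hs1 : (1 : ℝ) ≤ s := by exact_mod_cast hs
  set a := 4096 * (s : ℝ) with ha
  have hapos : 0 < a := by
    rw [ha]
    linarith
  have hL₂ : SymBody (a • polar K) := hK.polar_body.smul hapos
  have h1 := duality_tradeoff (K := polar L) (L := a • polar K) hL.polar_body hL₂ hs hq ?_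
  · exact h1
  · rw [← ha, polar_smul hapos, hK.polar_polar, hL.polar_polar, covNum_smul (inv_ne_zero hapos.ne')]
    exact hcov

end Vale.Agent.Lib.P126G
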