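import Vale.Agent.Lib.P126G.Level

open scoped BigOperators Pointwise

namespace Vale.Agent.Lib.P126G

variable {n : ℕ} {P K : Set (Fin n → ℝ)} {Z : Finset (Fin n → ℝ)} {T : ℝ}
  {S : Finset (Fin n → ℝ)} {ν : (Fin n → ℝ) → ℝ}

/-- The gap bound: the recentred partition sums of `x` stay above `exp (-Δ - β ρ)`. This is what a
representation with `(Δ, ρ)` gives (`gG_lower_of_rep`), and it is the invariant of a stage. -/
def GapB (P : Set (Fin n → ℝ)) (S : Finset (Fin n → ℝ)) (ν : (Fin n → ℝ) → ℝ) (Δ ρ : ℝ)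
    (x : Fin n → ℝ) : Prop :=
  ∀ β : ℝ, 0 < β → ∀ z ∈ P, Real.exp (-Δ - β * ρ) ≤ gG S ν β x z

lemma gG_pos (hν : ∀ y ∈ S, 0 ≤ ν y) (hν1 : ∑ y ∈ S, ν y = 1) (β : ℝ) (x z : Fin n → ℝ) :
    0 < gG S ν β x z := by
  rw [gG_eq]
  exact mul_pos (gW_pos hν hν1 β z) (Real.exp_pos _)

/-- The chain rule for tilts: tilting by `β z₀` and then by `β' z` is one tilt by the convex
combination, with strength `β + β'`. -/
lemma gG_tilt (hν : ∀ y ∈ S, 0 ≤ ν y) (hν1 : ∑ y ∈ S, ν y = 1) {β β' : ℝ} (hβ : 0 < β)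
    (hβ' : 0 < β') (x z₀ z : Fin n → ℝ) :
    gG S (fun y => ν y * gF S ν β z₀ y) β' x z =
      gG S ν (β + β') x ((β / (β + β')) • z₀ + (β' / (β + β')) • z) / gG S ν β x z₀ := by
  have hpos := gG_pos hν hν1 β x z₀
  have hW := gW_pos hν hν1 β z₀
  rw [eq_div_iff hpos.ne', gG_eq (S := S) (ν := ν) β x z₀]
  have hsum : β + β' ≠ 0 := (add_pos hβ hβ').ne'
  unfold gG gF
  rw [Finset.sum_mul]
  refine Finset.sum_congr rfl fun y _ => ?_
  have e1 : (β + β') * (pr ((β / (β + β')) • z₀ + (β' / (β + β')) • z) y -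
      pr ((β / (β + β')) • z₀ + (β' / (β + β')) • z) x) =
      β * pr z₀ y + β' * (pr z y - pr z x) + (-β * pr z₀ x) := by
    rw [pr_add_left, pr_add_left, pr_smul_left, pr_smul_left, pr_smul_left, pr_smul_left]
    field_simp
    ring
  rw [e1, Real.exp_add, Real.exp_add]
  have hW' := hW.ne'
  field_simp

/-- A representation gives the gap bound. -/
lemma GapB.of_rep (hν : ∀ y ∈ S, 0 ≤ ν y) {Δ ρ : ℝ} {x : Fin n → ℝ} (h : Rep P S ν Δ ρ x) :
    GapB P S ν Δ ρ x :=
  fun _ hβ _ hz => gG_lower_of_rep hν h hβ hz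

/-- One stage: from the gap bound with `(Δ, ρ)`, `Δ ≤ (k+1) η`, after at most `k+1` pigeonholes on
the net we reach one set of weights for which a subset is represented with `(η, ρ + 8T)`. At a
pigeonhole step either a fraction of the points is represented with margin `ρ + 8T` after one tilt
(and we stop), or the tilt raises the potential of the others by `η` at unchanged margin `ρ`. -/
theorem stage_step (hPc : IsCompact P) (hPconv : Convex ℝ P) (hPsym : ∀ z ∈ P, -z ∈ P)
    (hPne : P.Nonempty) (hZ : Net P K Z T) (hT : 0 < T) (hSK : ∀ y ∈ S, y ∈ K) {η ρ : ℝ}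
    (hη : 0 < η) (k : ℕ) {S' : Finset (Fin n → ℝ)} {ν : (Fin n → ℝ) → ℝ} {Δ : ℝ}
    (hν : ∀ y ∈ S, 0 ≤ ν y) (hν1 : ∑ y ∈ S, ν y = 1) (hS'S : S' ⊆ S) (hS'ne : S'.Nonempty)
    (hΔ : Δ ≤ ((k : ℝ) + 1) * η) (hgap : ∀ x ∈ S', GapB P S ν Δ ρ x) :
    ∃ S'' ⊆ S', S''.Nonempty ∧ S'.card ≤ (2 * Z.card) ^ (k + 1) * S''.card ∧
      ∃ ν' : (Fin n → ℝ) → ℝ, (∀ y ∈ S, 0 ≤ ν' y) ∧ ∑ y ∈ S, ν' y = 1 ∧
        ∀ x ∈ S'', Rep P S ν' η (ρ + 8 * T) x := by
  classical
  induction k generalizing S' ν Δ with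
  | zero => ?_
  | succ k ih => ?_
  all_goals
    set β := η / (4 * T) with hβdef
    have hβ : 0 < β := by positivity
    have hβT : 4 * β * T = η := by
      rw [hβdef]
      field_simp
    choose z hzP hmin hfo hjen using
      fun x => tilt_exists (S := S) (ν := ν) hPc hPconv hPne hν hν1 x hβ
    choose c hcZ hc using fun x => hZ.net (z x) (hzP x)
    have hZne : Z.Nonempty := ⟨c 0, hcZ 0⟩
    have hZpos : 0 < Z.card := hZne.card_pos
    set ρ' : (Fin n → ℝ) → ℝ :=
      fun x => pr (z x) x - ∑ y ∈ S, ν y * gF S ν β (z x) y * pr (z x) y with hρ'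
    -- terminal points: one tilt suffices
    have hterm : ∀ F : Finset (Fin n → ℝ), F ⊆ S' → F.Nonempty →
        (∀ x ∈ F, ρ' x ≤ ρ + 8 * T) → ∀ c₀, (∀ x ∈ F, c x = c₀) →
        ∃ ν' : (Fin n → ℝ) → ℝ, (∀ y ∈ S, 0 ≤ ν' y) ∧ ∑ y ∈ S, ν' y = 1 ∧
          ∀ x ∈ F, Rep P S ν' η (ρ + 8 * T) x := by
      intro F _ hFne hF c₀ hcF
      obtain ⟨x₀, hx₀⟩ := hFne
      refine ⟨fun y => ν y * gF S ν β (z x₀) y, tilted_nonneg hν hν1 β _, sum_gF hν hν1 β _,
        fun x hx => ?_⟩
      have hclose : ∀ y ∈ S, |pr (z x) y - pr (z x₀) y| ≤ 2 * T :=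
        cell_close hSK (c := c₀) (by rw [← hcF x hx]; exact hc x)
          (by rw [← hcF x₀ hx₀]; exact hc x₀)
      have hall : ∀ w ∈ P, |pr w x - ∑ y ∈ S, ν y * gF S ν β (z x) y * pr w y| ≤ ρ + 8 * T := by
        intro w hw
        have h1 := hfo x w hw
        have h2 := hfo x (-w) (hPsym w hw)
        have h3 : pr (-w) x - ∑ y ∈ S, ν y * gF S ν β (z x) y * pr (-w) y =
            -(pr w x - ∑ y ∈ S, ν y * gF S ν β (z x) y * pr w y) := by
          have : ∑ y ∈ S, ν y * gF S ν β (z x) y * pr (-w) y =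
              - ∑ y ∈ S, ν y * gF S ν β (z x) y * pr w y := by
            rw [← Finset.sum_neg_distrib]
            refine Finset.sum_congr rfl fun y _ => ?_
            rw [pr_neg_left]
            ring
          rw [this, pr_neg_left]
          ring
        rw [h3] at h2
        have h4 : ρ' x ≤ ρ + 8 * T := hF x hx
        rw [abs_le]
        constructor <;> simp only [hρ'] at h4 <;> linarith
      have hrep' := rep_of_tilt (P := P) hν hν1 hβ hclose hall
      have heq : 2 * β * (2 * T) = η := by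
        rw [← hβT]
        ring
      rw [heq] at hrep'
      exact hrep'
    -- lower bound on the partition sum at the minimiser
    have hlow : ∀ x ∈ S', ∀ Δ', Δ' = Δ → -Δ' - β * ρ ≤ -β * ρ' x := by
      intro x hx Δ' hΔ'
      rw [hΔ']
      exact Real.exp_le_exp.mp ((hgap x hx β hβ (z x) (hzP x)).trans (hjen x))
    set Tm := S'.filter fun x => ρ' x ≤ ρ + 8 * T with hTm
    set Nt := S'.filter fun x => ¬ ρ' x ≤ ρ + 8 * T with hNt
    have hsplit : Tm.card + Nt.card = S'.card := by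
      rw [hTm, hNt]
      exact Finset.card_filter_add_card_filter_not _
    -- stop when the terminal points are at least half
    have hstop : S'.card ≤ 2 * Tm.card → ∃ S'' ⊆ S', S''.Nonempty ∧
        S'.card ≤ 2 * Z.card * S''.card ∧ ∃ ν' : (Fin n → ℝ) → ℝ, (∀ y ∈ S, 0 ≤ ν' y) ∧
          ∑ y ∈ S, ν' y = 1 ∧ ∀ x ∈ S'', Rep P S ν' η (ρ + 8 * T) x := by
      intro hhalf
      obtain ⟨c₀, _, hcard⟩ := pigeon Tm Z c (fun a _ => hcZ a) hZne
      set F := Tm.filter fun a => c a = c₀ with hF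
      have hFne : F.Nonempty := by
        by_contra hcon
        rw [Finset.not_nonempty_iff_eq_empty] at hcon
        rw [hcon] at hcard
        simp only [Finset.card_empty, mul_zero, nonpos_iff_eq_zero] at hcard
        have : 0 < S'.card := hS'ne.card_pos
        omega
      have hFS : F ⊆ S' := fun a ha =>
        (Finset.mem_filter.mp (Finset.mem_filter.mp ha).1).1
      obtain ⟨ν', h1, h2, h3⟩ := hterm F hFS hFne
        (fun x hx => (Finset.mem_filter.mp (Finset.mem_filter.mp hx).1).2) c₀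
        (fun x hx => (Finset.mem_filter.mp hx).2)
      refine ⟨F, hFS, hFne, ?_, ν', h1, h2, h3⟩
      calc S'.card ≤ 2 * Tm.card := hhalf
        _ ≤ 2 * (Z.card * F.card) := Nat.mul_le_mul_left _ hcard
        _ = 2 * Z.card * F.card := by ring
  · -- k = 0: every point is terminal
    have hall : S'.card ≤ 2 * Tm.card := by
      have hNt0 : Nt.card = 0 := by
        rw [Finset.card_eq_zero, hNt, Finset.filter_eq_empty_iff]
        intro x hx hcon
        have h1 := hlow x hx Δ rfl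
        have h2 : β * (8 * T) = 2 * η := by
          rw [← hβT]
          ring
        have h3 : ρ + 8 * T < ρ' x := not_le.mp hcon
        have h4 : β * (ρ + 8 * T) < β * ρ' x := mul_lt_mul_of_pos_left h3 hβ
        norm_num at hΔ
        nlinarith
      omega
    obtain ⟨S'', h1, h2, h3, ν', h4, h5, h6⟩ := hstop hall
    refine ⟨S'', h1, h2, ?_, ν', h4, h5, h6⟩
    simpa using h3
  · -- k + 1
    by_cases hhalf : S'.card ≤ 2 * Tm.card
    · obtain ⟨S'', h1, h2, h3, ν', h4, h5, h6⟩ := hstop hhalf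
      refine ⟨S'', h1, h2, ?_, ν', h4, h5, h6⟩
      refine h3.trans (Nat.mul_le_mul_right _ ?_)
      exact Nat.le_self_pow (by omega) _
    · have hNtcard : S'.card ≤ 2 * Nt.card := by omega
      obtain ⟨c₀, _, hcard⟩ := pigeon Nt Z c (fun a _ => hcZ a) hZne
      set F := Nt.filter fun a => c a = c₀ with hF
      have hFne : F.Nonempty := by
        by_contra hcon
        rw [Finset.not_nonempty_iff_eq_empty] at hcon
        rw [hcon] at hcard
        simp only [Finset.card_empty, mul_zero, nonpos_iff_eq_zero] at hcard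
        have : 0 < S'.card := hS'ne.card_pos
        omega
      have hFS : F ⊆ S' := fun a ha =>
        (Finset.mem_filter.mp (Finset.mem_filter.mp ha).1).1
      obtain ⟨x₀, hx₀⟩ := hFne
      have hcx₀ : c x₀ = c₀ := (Finset.mem_filter.mp hx₀).2
      have hν₁ := tilted_nonneg hν hν1 β (z x₀)
      have hν₁1 := sum_gF hν hν1 β (z x₀)
      have hgap₁ : ∀ x ∈ F, GapB P S (fun y => ν y * gF S ν β (z x₀) y) (Δ - η) ρ x := by
        intro x hx β' hβ' w hw
        have hxS' := hFS hx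
        have hxS := hS'S hxS'
        have hcx : c x = c₀ := (Finset.mem_filter.mp hx).2
        have hNtx : ¬ ρ' x ≤ ρ + 8 * T :=
          (Finset.mem_filter.mp (Finset.mem_filter.mp hx).1).2
        have hclose : ∀ y ∈ S, |pr (z x) y - pr (z x₀) y| ≤ 2 * T :=
          cell_close hSK (c := c₀) (by rw [← hcx]; exact hc x) (by rw [← hcx₀]; exact hc x₀)
        rw [gG_tilt hν hν1 hβ hβ' x (z x₀) w]
        have hsum : 0 < β + β' := add_pos hβ hβ'
        have hz'' : (β / (β + β')) • z x₀ + (β' / (β + β')) • w ∈ P :=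
          hPconv (hzP x₀) hw (by positivity) (by positivity) (by field_simp)
        have hnum := hgap x hxS' (β + β') hsum _ hz''
        have hden : gG S ν β x (z x₀) ≤ Real.exp (-(β * ρ) - η) := by
          have h1 : gG S ν β x (z x₀) ≤ Real.exp (4 * β * T) * gG S ν β x (z x) := by
            unfold gG
            rw [Finset.mul_sum]
            refine Finset.sum_le_sum fun y hy => ?_
            have hy1 := abs_le.mp (hclose y hy)
            have hx1 := abs_le.mp (hclose x hxS)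
            have h2 : Real.exp (β * (pr (z x₀) y - pr (z x₀) x)) ≤
                Real.exp (4 * β * T) * Real.exp (β * (pr (z x) y - pr (z x) x)) := by
              rw [← Real.exp_add]
              apply Real.exp_le_exp.mpr
              have h3 : pr (z x₀) y - pr (z x₀) x ≤ 4 * T + (pr (z x) y - pr (z x) x) := by
                linarith [hy1.1, hx1.2]
              have := mul_le_mul_of_nonneg_left h3 hβ.le
              nlinarith
            have := mul_le_mul_of_nonneg_left h2 (hν y hy)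
            calc ν y * Real.exp (β * (pr (z x₀) y - pr (z x₀) x))
                ≤ ν y * (Real.exp (4 * β * T) * Real.exp (β * (pr (z x) y - pr (z x) x))) := this
              _ = _ := by ring
          have h2 : gG S ν β x (z x) ≤ Real.exp (-β * ρ' x) := hjen x
          have h3 : ρ + 8 * T < ρ' x := not_le.mp hNtx
          have h4 : -β * ρ' x ≤ -β * (ρ + 8 * T) := by
            have := mul_lt_mul_of_pos_left h3 hβ
            linarith
          have h5 := (h2.trans (Real.exp_le_exp.mpr h4))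
          have h6 : Real.exp (4 * β * T) * Real.exp (-β * (ρ + 8 * T)) =
              Real.exp (-(β * ρ) - η) := by
            rw [← Real.exp_add]
            congr 1
            rw [← hβT]
            ring
          calc gG S ν β x (z x₀) ≤ Real.exp (4 * β * T) * gG S ν β x (z x) := h1
            _ ≤ Real.exp (4 * β * T) * Real.exp (-β * (ρ + 8 * T)) :=
                mul_le_mul_of_nonneg_left h5 (Real.exp_pos _).le
            _ = _ := h6
        rw [le_div_iff₀ (gG_pos hν hν1 β x (z x₀))]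
        calc Real.exp (-(Δ - η) - β' * ρ) * gG S ν β x (z x₀)
            ≤ Real.exp (-(Δ - η) - β' * ρ) * Real.exp (-(β * ρ) - η) :=
              mul_le_mul_of_nonneg_left hden (Real.exp_pos _).le
          _ = Real.exp (-Δ - (β + β') * ρ) := by
              rw [← Real.exp_add]
              congr 1
              ring
          _ ≤ _ := hnum
      have hΔ₁ : Δ - η ≤ ((k : ℝ) + 1) * η := by
        push_cast at hΔ
        nlinarith
      obtain ⟨S'', h1, h2, h3, ν', h4, h5, h6⟩ :=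
        ih hν₁ hν₁1 (hFS.trans hS'S) ⟨x₀, hx₀⟩ hΔ₁ hgap₁
      refine ⟨S'', h1.trans hFS, h2, ?_, ν', h4, h5, h6⟩
      calc S'.card ≤ 2 * Nt.card := hNtcard
        _ ≤ 2 * (Z.card * F.card) := Nat.mul_le_mul_left _ hcard
        _ ≤ 2 * (Z.card * ((2 * Z.card) ^ (k + 1) * S''.card)) :=
            Nat.mul_le_mul_left _ (Nat.mul_le_mul_left _ h3)
        _ = (2 * Z.card) ^ (k + 1 + 1) * S''.card := by ring

/-- Iterating stages with ratio `κ`. -/
lemma iterate_stages (hPc : IsCompact P) (hPconv : Convex ℝ P) (hPsym : ∀ z ∈ P, -z ∈ P)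
    (hPne : P.Nonempty) (hZ : Net P K Z T) (hT : 0 < T) (hSK : ∀ y ∈ S, y ∈ K) {κ : ℕ} (hκ : 1 ≤ κ)
    (i : ℕ) {S' : Finset (Fin n → ℝ)} {ν : (Fin n → ℝ) → ℝ} {Δ ρ : ℝ}
    (hν : ∀ y ∈ S, 0 ≤ ν y) (hν1 : ∑ y ∈ S, ν y = 1) (hS'S : S' ⊆ S) (hS'ne : S'.Nonempty)
    (hΔ : 0 < Δ) (hrep : ∀ x ∈ S', Rep P S ν Δ ρ x) :
    ∃ S'' ⊆ S', S''.Nonempty ∧ S'.card ≤ (2 * Z.card) ^ (κ * i) * S''.card ∧
      ∃ ν' : (Fin n → ℝ) → ℝ, (∀ y ∈ S, 0 ≤ ν' y) ∧ ∑ y ∈ S, ν' y = 1 ∧
        ∀ x ∈ S'', Rep P S ν' (Δ / (κ : ℝ) ^ i) (ρ + i * (8 * T)) x := by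
  have hκ0 : (0 : ℝ) < κ := by exact_mod_cast hκ
  induction i with
  | zero =>
    refine ⟨S', Finset.Subset.refl _, hS'ne, by simp, ν, hν, hν1, fun x hx => ?_⟩
    simpa using hrep x hx
  | succ i ih =>
    obtain ⟨S₁, hS₁, hS₁ne, hc₁, ν₁, h1, h2, h3⟩ := ih
    have hΔi : 0 < Δ / (κ : ℝ) ^ i := by positivity
    obtain ⟨k, rfl⟩ : ∃ k, κ = k + 1 := ⟨κ - 1, by omega⟩
    have hη : 0 < Δ / ((k + 1 : ℕ) : ℝ) ^ i / ((k + 1 : ℕ) : ℝ) := by positivity
    obtain ⟨S₂, hS₂, hS₂ne, hc₂, ν₂, h4, h5, h6⟩ :=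
      stage_step hPc hPconv hPsym hPne hZ hT hSK hη k h1 h2 (hS₁.trans hS'S) hS₁ne
        (Δ := Δ / ((k + 1 : ℕ) : ℝ) ^ i) (ρ := ρ + i * (8 * T)) (by
          push_cast
          have : ((k : ℝ) + 1) ≠ 0 := by positivity
          field_simp
          exact le_refl _)
        (fun x hx => GapB.of_rep h1 (h3 x hx))
    refine ⟨S₂, hS₂.trans hS₁, hS₂ne, ?_, ν₂, h4, h5, fun x hx => ?_⟩
    · calc S'.card ≤ (2 * Z.card) ^ ((k + 1) * i) * S₁.card := hc₁
        _ ≤ (2 * Z.card) ^ ((k + 1) * i) * ((2 * Z.card) ^ (k + 1) * S₂.card) :=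
            Nat.mul_le_mul_left _ hc₂
        _ = (2 * Z.card) ^ ((k + 1) * (i + 1)) * S₂.card := by
            rw [← mul_assoc, ← pow_add]
            congr 2
    · have h7 := h6 x hx
      have e1 : Δ / ((k + 1 : ℕ) : ℝ) ^ i / ((k + 1 : ℕ) : ℝ) =
          Δ / ((k + 1 : ℕ) : ℝ) ^ (i + 1) := by
        rw [pow_succ, div_div]
      have e2 : ρ + (i : ℝ) * (8 * T) + 8 * T = ρ + ((i + 1 : ℕ) : ℝ) * (8 * T) := by
        push_cast
        ring
      rw [e1, e2] at h7
      exact h7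

end Vale.Agent.Lib.P126G
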