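import Vale.Agent.Lib.P126G.Basic

open scoped BigOperators Pointwise

namespace Vale.Agent.Lib.P126G

variable {n : ℕ} {P : Set (Fin n → ℝ)} {S : Finset (Fin n → ℝ)} {ν : (Fin n → ℝ) → ℝ}

/-- The partition sum is positive. -/
lemma gW_pos (hν : ∀ y ∈ S, 0 ≤ ν y) (hν1 : ∑ y ∈ S, ν y = 1) (β : ℝ) (z : Fin n → ℝ) :
    0 < gW S ν β z := by
  unfold gW
  have hex : ∃ y ∈ S, 0 < ν y := by
    by_contra hcon
    push Not at hcon
    have h0 : ∑ y ∈ S, ν y ≤ 0 := Finset.sum_nonpos hcon
    linarith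
  obtain ⟨y, hy, hy0⟩ := hex
  refine Finset.sum_pos' (fun y hy => mul_nonneg (hν y hy) (Real.exp_pos _).le) ⟨y, hy, ?_⟩
  exact mul_pos hy0 (Real.exp_pos _)

/-- The Gibbs density integrates to one. -/
lemma sum_gF (hν : ∀ y ∈ S, 0 ≤ ν y) (hν1 : ∑ y ∈ S, ν y = 1) (β : ℝ) (z : Fin n → ℝ) :
    ∑ y ∈ S, ν y * gF S ν β z y = 1 := by
  have hW := gW_pos hν hν1 β z
  unfold gF
  have : ∑ y ∈ S, ν y * (Real.exp (β * pr z y) / gW S ν β z) = gW S ν β z / gW S ν β z := by
    unfold gW
    rw [Finset.sum_div]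
    refine Finset.sum_congr rfl fun y _ => ?_
    ring
  rw [this, div_self hW.ne']

lemma gF_pos (hν : ∀ y ∈ S, 0 ≤ ν y) (hν1 : ∑ y ∈ S, ν y = 1) (β : ℝ) (z y : Fin n → ℝ) :
    0 < gF S ν β z y :=
  div_pos (Real.exp_pos _) (gW_pos hν hν1 β z)

/-- The tilted weights are a probability vector. -/
lemma tilted_nonneg (hν : ∀ y ∈ S, 0 ≤ ν y) (hν1 : ∑ y ∈ S, ν y = 1) (β : ℝ) (z₀ : Fin n → ℝ) :
    ∀ y ∈ S, 0 ≤ ν y * gF S ν β z₀ y :=
  fun y hy => mul_nonneg (hν y hy) (gF_pos hν hν1 β z₀ y).le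

/-- Jensen for finite probability weights. -/
lemma exp_sum_le {w a : (Fin n → ℝ) → ℝ} (hw : ∀ y ∈ S, 0 ≤ w y) (hw1 : ∑ y ∈ S, w y = 1) :
    Real.exp (∑ y ∈ S, w y * a y) ≤ ∑ y ∈ S, w y * Real.exp (a y) := by
  have h := convexOn_exp.map_sum_le (t := S) (w := w) (p := a) hw hw1
    (fun y _ => Set.mem_univ _)
  simpa [smul_eq_mul] using h

lemma gG_eq (β : ℝ) (x z : Fin n → ℝ) :
    gG S ν β x z = gW S ν β z * Real.exp (-β * pr z x) := by
  unfold gG gW
  rw [Finset.sum_mul]
  refine Finset.sum_congr rfl fun y _ => ?_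
  rw [mul_assoc, ← Real.exp_add]
  congr 2
  ring

/-- (M1) Minimiser of the recentred partition sum, first-order condition, Jensen upper bound. -/
theorem tilt_exists (hPc : IsCompact P) (hPconv : Convex ℝ P) (hPne : P.Nonempty)
    (hν : ∀ y ∈ S, 0 ≤ ν y) (hν1 : ∑ y ∈ S, ν y = 1) (x : Fin n → ℝ) {β : ℝ} (hβ : 0 < β) :
    ∃ z ∈ P,
      (∀ z' ∈ P, gG S ν β x z ≤ gG S ν β x z') ∧
      (∀ z' ∈ P, pr z' x - ∑ y ∈ S, ν y * gF S ν β z y * pr z' y ≤
        pr z x - ∑ y ∈ S, ν y * gF S ν β z y * pr z y) ∧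
      gG S ν β x z ≤ Real.exp (-β * (pr z x - ∑ y ∈ S, ν y * gF S ν β z y * pr z y)) := by
  have hc : Continuous fun z : Fin n → ℝ => gG S ν β x z := by
    unfold gG
    refine continuous_finsetSum _ fun y _ => ?_
    have h1 := continuous_pr_left (n := n) y
    have h2 := continuous_pr_left (n := n) x
    fun_prop
  obtain ⟨z, hz, hmin⟩ := hPc.exists_isMinOn hPne hc.continuousOn
  have hW := gW_pos hν hν1 β z
  refine ⟨z, hz, fun z' hz' => hmin hz', fun z' hz' => ?_, ?_⟩
  · -- first order condition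
    set e : (Fin n → ℝ) → ℝ := fun y => β * (pr z y - pr z x) with he
    set d : (Fin n → ℝ) → ℝ := fun y => β * (pr (z' - z) y - pr (z' - z) x) with hd
    let φ : ℝ → ℝ := fun s => ∑ y ∈ S, ν y * Real.exp (e y + s * d y)
    have hφ : HasDerivAt φ (∑ y ∈ S, ν y * (Real.exp (e y) * d y)) 0 := by
      have : ∀ y ∈ S, HasDerivAt (fun s : ℝ => ν y * Real.exp (e y + s * d y))
          (ν y * (Real.exp (e y) * d y)) 0 := by
        intro y _
        have h1 : HasDerivAt (fun s : ℝ => e y + s * d y) (d y) 0 := by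
          have := ((hasDerivAt_id (0 : ℝ)).mul_const (d y)).const_add (e y)
          simpa using this
        have h2 := h1.exp
        have h3 := h2.const_mul (ν y)
        simpa using h3
      exact HasDerivAt.fun_sum this
    have hseg : ∀ s : ℝ, 0 < s → s < 1 → φ 0 ≤ φ s := by
      intro s hs0 hs1
      have hmem : z + s • (z' - z) ∈ P := by
        have := hPconv hz hz' (by linarith : (0 : ℝ) ≤ 1 - s) hs0.le (by ring)
        convert this using 1
        funext i
        simp only [Pi.add_apply, Pi.smul_apply, smul_eq_mul, Pi.sub_apply]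
        ring
      have h1 : gG S ν β x z ≤ gG S ν β x (z + s • (z' - z)) := hmin hmem
      have e1 : φ 0 = gG S ν β x z := by
        simp only [φ, gG, he]
        refine Finset.sum_congr rfl fun y _ => ?_
        congr 2
        ring
      have e2 : φ s = gG S ν β x (z + s • (z' - z)) := by
        simp only [φ, gG, he, hd]
        refine Finset.sum_congr rfl fun y _ => ?_
        congr 2
        rw [pr_add_left, pr_add_left, pr_smul_left, pr_smul_left]
        ring
      rw [e1, e2]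
      exact h1
    have hnn : 0 ≤ ∑ y ∈ S, ν y * (Real.exp (e y) * d y) := by
      have hlim := hφ.tendsto_slope_zero_right
      refine ge_of_tendsto hlim ?_
      have hI : Set.Ioo (0 : ℝ) 1 ∈ nhdsWithin (0 : ℝ) (Set.Ioi 0) := Ioo_mem_nhdsGT (by norm_num)
      filter_upwards [hI] with s hs
      have := hseg s hs.1 hs.2
      simp only [smul_eq_mul, zero_add]
      exact mul_nonneg (inv_nonneg.mpr hs.1.le) (by linarith)
    -- rewrite in terms of the Gibbs weights
    have hexp : ∀ y, Real.exp (e y) = gF S ν β z y * (gW S ν β z * Real.exp (-β * pr z x)) := by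
      intro y
      unfold gF
      rw [he]
      simp only []
      have : β * (pr z y - pr z x) = β * pr z y + (-β * pr z x) := by ring
      rw [this, Real.exp_add]
      field_simp
    set c := gW S ν β z * Real.exp (-β * pr z x) with hc'
    have hcpos : 0 < c := mul_pos hW (Real.exp_pos _)
    have h2 : ∑ y ∈ S, ν y * (Real.exp (e y) * d y) =
        c * β * (∑ y ∈ S, ν y * gF S ν β z y * pr z' y - ∑ y ∈ S, ν y * gF S ν β z y * pr z y
          - (pr z' x - pr z x) * ∑ y ∈ S, ν y * gF S ν β z y) := by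
      rw [Finset.mul_sum (a := pr z' x - pr z x), ← Finset.sum_sub_distrib,
        ← Finset.sum_sub_distrib, Finset.mul_sum]
      refine Finset.sum_congr rfl fun y _ => ?_
      rw [hexp y, hd]
      simp only [pr_sub_left]
      ring
    rw [h2, sum_gF hν hν1] at hnn
    have h3 : 0 ≤ ∑ y ∈ S, ν y * gF S ν β z y * pr z' y - ∑ y ∈ S, ν y * gF S ν β z y * pr z y
          - (pr z' x - pr z x) * 1 := by
      by_contra hcon
      rw [not_le] at hcon
      have := mul_neg_of_pos_of_neg (mul_pos hcpos hβ) hcon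
      linarith
    linarith
  · -- Jensen
    rw [gG_eq]
    have hj := exp_sum_le (S := S) (w := fun y => ν y * gF S ν β z y)
      (a := fun y => -β * pr z y) (tilted_nonneg hν hν1 β z) (sum_gF hν hν1 β z)
    have h1 : ∑ y ∈ S, ν y * gF S ν β z y * Real.exp (-β * pr z y) = (gW S ν β z)⁻¹ := by
      have : ∀ y ∈ S, ν y * gF S ν β z y * Real.exp (-β * pr z y) = ν y * (gW S ν β z)⁻¹ := by
        intro y _
        unfold gF
        have h2 : Real.exp (β * pr z y) * Real.exp (-β * pr z y) = 1 := by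
          rw [← Real.exp_add]
          simp
        calc ν y * (Real.exp (β * pr z y) / gW S ν β z) * Real.exp (-β * pr z y)
            = ν y * (gW S ν β z)⁻¹ * (Real.exp (β * pr z y) * Real.exp (-β * pr z y)) := by ring
          _ = ν y * (gW S ν β z)⁻¹ := by rw [h2, mul_one]
      rw [Finset.sum_congr rfl this, ← Finset.sum_mul, hν1, one_mul]
    rw [h1] at hj
    have h3 : ∑ y ∈ S, ν y * gF S ν β z y * (-β * pr z y) =
        -β * ∑ y ∈ S, ν y * gF S ν β z y * pr z y := by
      rw [Finset.mul_sum]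
      refine Finset.sum_congr rfl fun y _ => ?_
      ring
    rw [h3] at hj
    set b := ∑ y ∈ S, ν y * gF S ν β z y * pr z y with hb
    have h4 : gW S ν β z ≤ Real.exp (β * b) := by
      have h5 : Real.exp (-β * b) * Real.exp (β * b) = 1 := by
        rw [← Real.exp_add]
        simp
      have h6 : (gW S ν β z)⁻¹ * gW S ν β z = 1 := inv_mul_cancel₀ hW.ne'
      have h7 : Real.exp (-β * b) * gW S ν β z ≤ 1 := by
        have := mul_le_mul_of_nonneg_right hj hW.le
        linarith
      have h8 := mul_le_mul_of_nonneg_right h7 (Real.exp_pos (β * b)).le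
      nlinarith [Real.exp_pos (β * b), Real.exp_pos (-β * b)]
    have h9 : -β * (pr z x - b) = -β * pr z x + β * b := by ring
    rw [h9, Real.exp_add]
    have := mul_le_mul_of_nonneg_right h4 (Real.exp_pos (-β * pr z x)).le
    linarith

/-- (M1) Lower bound for the recentred partition sum from a representation. -/
lemma gG_lower_of_rep (hν : ∀ y ∈ S, 0 ≤ ν y) {Δ ρ : ℝ} {x : Fin n → ℝ} (hx : Rep P S ν Δ ρ x)
    {β : ℝ} (hβ : 0 < β) {z : Fin n → ℝ} (hz : z ∈ P) :
    Real.exp (-Δ - β * ρ) ≤ gG S ν β x z := by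
  obtain ⟨f, hf, hf1, hfz⟩ := hx
  have hfpos : ∀ y ∈ S, 0 ≤ ν y * f y := fun y hy =>
    mul_nonneg (hν y hy) ((Real.exp_pos _).le.trans (hf y hy).1)
  have hj := exp_sum_le (S := S) (w := fun y => ν y * f y)
    (a := fun y => β * (pr z y - pr z x)) hfpos hf1
  have h1 : ∑ y ∈ S, ν y * f y * (β * (pr z y - pr z x)) =
      β * (∑ y ∈ S, ν y * f y * pr z y - pr z x) := by
    have : ∑ y ∈ S, ν y * f y * (β * (pr z y - pr z x)) =
        β * (∑ y ∈ S, ν y * f y * pr z y - pr z x * ∑ y ∈ S, ν y * f y) := by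
      rw [Finset.mul_sum (a := pr z x), ← Finset.sum_sub_distrib, Finset.mul_sum]
      refine Finset.sum_congr rfl fun y _ => ?_
      ring
    rw [this, hf1, mul_one]
  rw [h1] at hj
  have h2 := (abs_le.mp (hfz z hz))
  have h3 : -(β * ρ) ≤ β * (∑ y ∈ S, ν y * f y * pr z y - pr z x) := by
    have := mul_le_mul_of_nonneg_left h2.2 hβ.le
    nlinarith
  have h4 : Real.exp (-(β * ρ)) ≤ ∑ y ∈ S, ν y * f y * Real.exp (β * (pr z y - pr z x)) :=
    (Real.exp_le_exp.mpr h3).trans hj
  have h5 : ∑ y ∈ S, ν y * f y * Real.exp (β * (pr z y - pr z x)) ≤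
      Real.exp Δ * gG S ν β x z := by
    unfold gG
    rw [Finset.mul_sum]
    refine Finset.sum_le_sum fun y hy => ?_
    have h6 := (hf y hy).2
    have h7 : ν y * f y ≤ Real.exp Δ * ν y := by
      have := mul_le_mul_of_nonneg_left h6 (hν y hy)
      linarith
    have := mul_le_mul_of_nonneg_right h7 (Real.exp_pos (β * (pr z y - pr z x))).le
    linarith
  have h8 : Real.exp (-Δ - β * ρ) = Real.exp (-Δ) * Real.exp (-(β * ρ)) := by
    rw [← Real.exp_add]
    congr 1
  rw [h8]
  have h9 : Real.exp (-Δ) * Real.exp Δ = 1 := by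
    rw [← Real.exp_add]
    simp
  have h10 := mul_le_mul_of_nonneg_left (h4.trans h5) (Real.exp_pos (-Δ)).le
  calc Real.exp (-Δ) * Real.exp (-(β * ρ)) ≤ Real.exp (-Δ) * (Real.exp Δ * gG S ν β x z) := h10
    _ = (Real.exp (-Δ) * Real.exp Δ) * gG S ν β x z := by ring
    _ = gG S ν β x z := by rw [h9, one_mul]

/-- (M1) Two tilts whose exponents differ by at most `D` on `S`: representation transfer. -/
lemma rep_of_tilt (hν : ∀ y ∈ S, 0 ≤ ν y) (hν1 : ∑ y ∈ S, ν y = 1) {β : ℝ} (hβ : 0 < β)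
    {z z₀ : Fin n → ℝ} {D : ℝ} (hD : ∀ y ∈ S, |pr z y - pr z₀ y| ≤ D) {x : Fin n → ℝ} {ρ : ℝ}
    (hρ : ∀ c ∈ P, |pr c x - ∑ y ∈ S, ν y * gF S ν β z y * pr c y| ≤ ρ) :
    Rep P S (fun y => ν y * gF S ν β z₀ y) (2 * β * D) ρ x := by
  have hW := gW_pos hν hν1 β z
  have hW₀ := gW_pos hν hν1 β z₀
  -- pointwise comparison of the exponentials
  have hup : ∀ y ∈ S, Real.exp (β * pr z y) ≤ Real.exp (β * D) * Real.exp (β * pr z₀ y) := by
    intro y hy
    rw [← Real.exp_add]
    apply Real.exp_le_exp.mpr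
    have := (abs_le.mp (hD y hy)).2
    have := mul_le_mul_of_nonneg_left this hβ.le
    nlinarith
  have hlo : ∀ y ∈ S, Real.exp (β * pr z₀ y) ≤ Real.exp (β * D) * Real.exp (β * pr z y) := by
    intro y hy
    rw [← Real.exp_add]
    apply Real.exp_le_exp.mpr
    have := (abs_le.mp (hD y hy)).1
    have := mul_le_mul_of_nonneg_left this hβ.le
    nlinarith
  have hWup : gW S ν β z ≤ Real.exp (β * D) * gW S ν β z₀ := by
    unfold gW
    rw [Finset.mul_sum]
    refine Finset.sum_le_sum fun y hy => ?_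
    have := mul_le_mul_of_nonneg_left (hup y hy) (hν y hy)
    linarith
  have hWlo : gW S ν β z₀ ≤ Real.exp (β * D) * gW S ν β z := by
    unfold gW
    rw [Finset.mul_sum]
    refine Finset.sum_le_sum fun y hy => ?_
    have := mul_le_mul_of_nonneg_left (hlo y hy) (hν y hy)
    linarith
  have hE : Real.exp (2 * β * D) = Real.exp (β * D) * Real.exp (β * D) := by
    rw [← Real.exp_add]
    congr 1
    ring
  have hEn : Real.exp (-(2 * β * D)) * Real.exp (2 * β * D) = 1 := by
    rw [← Real.exp_add]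
    simp
  have hEpos := Real.exp_pos (β * D)
  have hgF₀ := fun y => gF_pos hν hν1 β z₀ y
  refine ⟨fun y => gF S ν β z y / gF S ν β z₀ y, fun y hy => ?_, ?_, fun c hc => ?_⟩
  · -- bounds on the ratio
    have hratio : gF S ν β z y / gF S ν β z₀ y =
        (Real.exp (β * pr z y) * gW S ν β z₀) / (gW S ν β z * Real.exp (β * pr z₀ y)) := by
      unfold gF
      field_simp
    show Real.exp (-(2 * β * D)) ≤ gF S ν β z y / gF S ν β z₀ y ∧
      gF S ν β z y / gF S ν β z₀ y ≤ Real.exp (2 * β * D)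
    rw [hratio]
    have he₁ := Real.exp_pos (β * pr z y)
    have he₀ := Real.exp_pos (β * pr z₀ y)
    constructor
    · rw [le_div_iff₀ (mul_pos hW he₀)]
      have h1 : gW S ν β z * Real.exp (β * pr z₀ y) ≤
          Real.exp (2 * β * D) * (Real.exp (β * pr z y) * gW S ν β z₀) := by
        rw [hE]
        have a1 := hWup
        have a2 := hlo y hy
        calc gW S ν β z * Real.exp (β * pr z₀ y)
            ≤ (Real.exp (β * D) * gW S ν β z₀) * (Real.exp (β * D) * Real.exp (β * pr z y)) :=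
              mul_le_mul a1 a2 he₀.le (by positivity)
          _ = _ := by ring
      have h2 := mul_le_mul_of_nonneg_left h1 (Real.exp_pos (-(2 * β * D))).le
      calc Real.exp (-(2 * β * D)) * (gW S ν β z * Real.exp (β * pr z₀ y))
          ≤ Real.exp (-(2 * β * D)) * (Real.exp (2 * β * D) * (Real.exp (β * pr z y) * gW S ν β z₀)) := h2
        _ = (Real.exp (-(2 * β * D)) * Real.exp (2 * β * D)) * (Real.exp (β * pr z y) * gW S ν β z₀) := by ring
        _ = Real.exp (β * pr z y) * gW S ν β z₀ := by rw [hEn, one_mul]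
    · rw [div_le_iff₀ (mul_pos hW he₀), hE]
      have a1 := hWlo
      have a2 := hup y hy
      calc Real.exp (β * pr z y) * gW S ν β z₀
          ≤ (Real.exp (β * D) * Real.exp (β * pr z₀ y)) * (Real.exp (β * D) * gW S ν β z) :=
            mul_le_mul a2 a1 hW₀.le (by positivity)
        _ = _ := by ring
  · have h1 : ∀ y ∈ S, ν y * gF S ν β z₀ y * (gF S ν β z y / gF S ν β z₀ y) =
        ν y * gF S ν β z y := by
      intro y _
      have := (hgF₀ y).ne'
      field_simp
    rw [Finset.sum_congr rfl h1]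
    exact sum_gF hν hν1 β z
  · have h1 : ∀ y ∈ S, ν y * gF S ν β z₀ y * (gF S ν β z y / gF S ν β z₀ y) * pr c y =
        ν y * gF S ν β z y * pr c y := by
      intro y _
      have := (hgF₀ y).ne'
      field_simp
    rw [Finset.sum_congr rfl h1]
    exact hρ c hc

end Vale.Agent.Lib.P126G
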